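import Mathlib

set_option autoImplicit false

open Filter Topology

namespace Crest.Agent.SRFactor

/-- slope parameter -/
noncomputable def aa (m : ℝ) : ℝ := (2 * m - 1) / 4

noncomputable def Fm (m y : ℝ) : ℝ := y + aa m * (y ^ 2 - y)

noncomputable def Qm (m w : ℝ) : ℝ := 2 * w / ((1 - aa m) + Real.sqrt ((1 - aa m) ^ 2 + 4 * aa m * w))

noncomputable def ell (y : ℝ) : ℝ := Real.log (1 + (2 * y - 1) / 4) - Real.log (1 - (2 * y - 1) / 4)

theorem aa_bound {m : ℝ} (hm : m ∈ Set.Icc (0 : ℝ) 1) : -(1 / 4) ≤ aa m ∧ aa m ≤ 1 / 4 := by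
  unfold aa; constructor <;> linarith [hm.1, hm.2]

theorem slope_pos {m y y' : ℝ} (hm : m ∈ Set.Icc (0 : ℝ) 1) (hy : y ∈ Set.Icc (0 : ℝ) 1)
    (hy' : y' ∈ Set.Icc (0 : ℝ) 1) : 3 / 4 ≤ 1 + aa m * (y + y' - 1) := by
  obtain ⟨h1, h2⟩ := aa_bound hm
  have hs1 : -1 ≤ y + y' - 1 := by linarith [hy.1, hy'.1]
  have hs2 : y + y' - 1 ≤ 1 := by linarith [hy.2, hy'.2]
  have : |aa m * (y + y' - 1)| ≤ 1 / 4 * 1 := by
    rw [abs_mul]
    exact mul_le_mul (abs_le.2 ⟨h1, h2⟩) (abs_le.2 ⟨hs1, hs2⟩) (abs_nonneg _) (by norm_num)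
  have := (abs_le.1 this).1
  linarith

theorem Fm_sub (m y y' : ℝ) : Fm m y - Fm m y' = (y - y') * (1 + aa m * (y + y' - 1)) := by
  unfold Fm; ring

theorem Fm_mem {m y : ℝ} (hm : m ∈ Set.Icc (0 : ℝ) 1) (hy : y ∈ Set.Icc (0 : ℝ) 1) :
    Fm m y ∈ Set.Icc (0 : ℝ) 1 := by
  have h0 := Fm_sub m y 0
  have h1 := Fm_sub m 1 y
  have s0 := slope_pos hm hy (⟨le_rfl, zero_le_one⟩ : (0 : ℝ) ∈ Set.Icc (0 : ℝ) 1)
  have s1 := slope_pos hm (⟨zero_le_one, le_rfl⟩ : (1 : ℝ) ∈ Set.Icc (0 : ℝ) 1) hy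
  have e0 : Fm m 0 = 0 := by unfold Fm; ring
  have e1 : Fm m 1 = 1 := by unfold Fm; ring
  rw [e0] at h0
  rw [e1] at h1
  constructor
  · have : 0 ≤ (y - 0) * (1 + aa m * (y + 0 - 1)) :=
      mul_nonneg (by linarith [hy.1]) (by linarith)
    linarith
  · have : 0 ≤ (1 - y) * (1 + aa m * (1 + y - 1)) :=
      mul_nonneg (by linarith [hy.2]) (by linarith)
    linarith

theorem Fm_lt_iff {m y y' : ℝ} (hm : m ∈ Set.Icc (0 : ℝ) 1) (hy : y ∈ Set.Icc (0 : ℝ) 1)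
    (hy' : y' ∈ Set.Icc (0 : ℝ) 1) : Fm m y ≤ Fm m y' ↔ y ≤ y' := by
  have h := Fm_sub m y' y
  have s := slope_pos hm hy' hy
  constructor
  · intro h1
    by_contra h2
    push Not at h2
    have : (y' - y) * (1 + aa m * (y' + y - 1)) < 0 :=
      mul_neg_of_neg_of_pos (by linarith) (by linarith)
    linarith
  · intro h1
    have : 0 ≤ (y' - y) * (1 + aa m * (y' + y - 1)) := mul_nonneg (by linarith) (by linarith)
    linarith

theorem Fm_inj {m y y' : ℝ} (hm : m ∈ Set.Icc (0 : ℝ) 1) (hy : y ∈ Set.Icc (0 : ℝ) 1)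
    (hy' : y' ∈ Set.Icc (0 : ℝ) 1) (h : Fm m y = Fm m y') : y = y' :=
  le_antisymm ((Fm_lt_iff hm hy hy').1 h.le) ((Fm_lt_iff hm hy' hy).1 h.ge)

theorem disc_nonneg {m w : ℝ} (hm : m ∈ Set.Icc (0 : ℝ) 1) (hw : w ∈ Set.Icc (0 : ℝ) 1) :
    0 < (1 - aa m) ^ 2 + 4 * aa m * w := by
  obtain ⟨h1, h2⟩ := aa_bound hm
  obtain ⟨hw0, hw1⟩ := hw
  by_cases ha : 0 ≤ aa m
  · have : 0 ≤ 4 * aa m * w := by positivity
    nlinarith
  · push Not at ha
    nlinarith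

theorem Qm_den_pos {m w : ℝ} (hm : m ∈ Set.Icc (0 : ℝ) 1) :
    0 < (1 - aa m) + Real.sqrt ((1 - aa m) ^ 2 + 4 * aa m * w) := by
  obtain ⟨h1, h2⟩ := aa_bound hm
  have := Real.sqrt_nonneg ((1 - aa m) ^ 2 + 4 * aa m * w)
  linarith

theorem Qm_mem {m w : ℝ} (hm : m ∈ Set.Icc (0 : ℝ) 1) (hw : w ∈ Set.Icc (0 : ℝ) 1) :
    Qm m w ∈ Set.Icc (0 : ℝ) 1 := by
  have hd := Qm_den_pos (w := w) hm
  have hD := disc_nonneg hm hw
  obtain ⟨hw0, hw1⟩ := hw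
  unfold Qm
  constructor
  · positivity
  · rw [div_le_one hd]
    have : 2 * w - (1 - aa m) ≤ Real.sqrt ((1 - aa m) ^ 2 + 4 * aa m * w) := by
      apply Real.le_sqrt_of_sq_le
      nlinarith [mul_nonneg hw0 (sub_nonneg.2 hw1)]
    linarith

theorem Fm_Qm {m w : ℝ} (hm : m ∈ Set.Icc (0 : ℝ) 1) (hw : w ∈ Set.Icc (0 : ℝ) 1) :
    Fm m (Qm m w) = w := by
  have hd := Qm_den_pos (w := w) hm
  have hD := disc_nonneg hm hw
  have hsq := Real.sq_sqrt hD.le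
  unfold Qm Fm
  set D := Real.sqrt ((1 - aa m) ^ 2 + 4 * aa m * w) with hDdef
  field_simp
  have e : D ^ 2 = (1 - aa m) ^ 2 + 4 * aa m * w := hsq
  linear_combination (-w) * e

theorem Qm_Fm {m y : ℝ} (hm : m ∈ Set.Icc (0 : ℝ) 1) (hy : y ∈ Set.Icc (0 : ℝ) 1) :
    Qm m (Fm m y) = y :=
  Fm_inj hm (Qm_mem hm (Fm_mem hm hy)) hy (Fm_Qm hm (Fm_mem hm hy))

theorem Qm_le_iff {m w y : ℝ} (hm : m ∈ Set.Icc (0 : ℝ) 1) (hw : w ∈ Set.Icc (0 : ℝ) 1)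
    (hy : y ∈ Set.Icc (0 : ℝ) 1) : Qm m w ≤ y ↔ w ≤ Fm m y := by
  rw [← Fm_lt_iff hm (Qm_mem hm hw) hy, Fm_Qm hm hw]

theorem Qm_lipschitz {m m' w : ℝ} (hm : m ∈ Set.Icc (0 : ℝ) 1) (hm' : m' ∈ Set.Icc (0 : ℝ) 1)
    (hw : w ∈ Set.Icc (0 : ℝ) 1) : |Qm m w - Qm m' w| ≤ 1 / 6 * |m - m'| := by
  have h1 := Qm_mem hm hw
  have h2 := Qm_mem hm' hw
  have e1 := Fm_Qm hm hw
  have e2 := Fm_Qm hm' hw
  set y := Qm m w
  set y' := Qm m' w
  have h3 := Fm_sub m y y'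
  have h4 : Fm m y - Fm m y' = (m - m') / 2 * (y' - y' ^ 2) := by
    rw [e1]
    conv_lhs => rw [← e2]
    unfold Fm aa; ring
  have s := slope_pos hm h1 h2
  rw [h3] at h4
  have h5 : |y - y'| * (1 + aa m * (y + y' - 1)) = |m - m'| / 2 * (y' - y' ^ 2) := by
    have := congrArg abs h4
    rw [abs_mul, abs_mul, abs_of_pos (by linarith : 0 < 1 + aa m * (y + y' - 1)),
      abs_div, abs_of_nonneg (by nlinarith [h2.1, h2.2] : 0 ≤ y' - y' ^ 2)] at this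
    simpa using this
  have h6 : y' - y' ^ 2 ≤ 1 / 4 := by nlinarith [sq_nonneg (y' - 1 / 2)]
  have h7 : |m - m'| / 2 * (y' - y' ^ 2) ≤ |m - m'| / 2 * (1 / 4) :=
    mul_le_mul_of_nonneg_left h6 (by positivity)
  have h8 : |y - y'| * (3 / 4) ≤ |y - y'| * (1 + aa m * (y + y' - 1)) :=
    mul_le_mul_of_nonneg_left s (abs_nonneg _)
  linarith

theorem log_lipschitz {a b : ℝ} (ha : 3 / 4 ≤ a) (hb : 3 / 4 ≤ b) :
    |Real.log a - Real.log b| ≤ 4 / 3 * |a - b| := by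
  have ha0 : 0 < a := by linarith
  have hb0 : 0 < b := by linarith
  have key : ∀ x y : ℝ, 3 / 4 ≤ x → 3 / 4 ≤ y → Real.log x - Real.log y ≤ 4 / 3 * |x - y| := by
    intro x y hx hy
    have hx0 : 0 < x := by linarith
    have hy0 : 0 < y := by linarith
    rw [← Real.log_div hx0.ne' hy0.ne']
    refine (Real.log_le_sub_one_of_pos (div_pos hx0 hy0)).trans ?_
    rw [div_sub_one hy0.ne']
    rw [div_le_iff₀ hy0]
    have := le_abs_self (x - y)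
    nlinarith [abs_nonneg (x - y)]
  rw [abs_le]
  constructor
  · have := key b a hb ha
    rw [abs_sub_comm] at this
    linarith
  · exact key a b ha hb

theorem ell_lipschitz {y y' : ℝ} (hy : y ∈ Set.Icc (0 : ℝ) 1) (hy' : y' ∈ Set.Icc (0 : ℝ) 1) :
    |ell y - ell y'| ≤ 4 / 3 * |y - y'| := by
  unfold ell
  have h1 := log_lipschitz (a := 1 + (2 * y - 1) / 4) (b := 1 + (2 * y' - 1) / 4)
    (by linarith [hy.1]) (by linarith [hy'.1])
  have h2 := log_lipschitz (a := 1 - (2 * y - 1) / 4) (b := 1 - (2 * y' - 1) / 4)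
    (by linarith [hy.2]) (by linarith [hy'.2])
  have e1 : 1 + (2 * y - 1) / 4 - (1 + (2 * y' - 1) / 4) = (y - y') / 2 := by ring
  have e2 : 1 - (2 * y - 1) / 4 - (1 - (2 * y' - 1) / 4) = -((y - y') / 2) := by ring
  rw [e1] at h1
  rw [e2, abs_neg] at h2
  have e3 : |(y - y') / 2| = |y - y'| / 2 := by rw [abs_div]; norm_num
  rw [e3] at h1 h2
  have := abs_sub (Real.log (1 + (2 * y - 1) / 4) - Real.log (1 + (2 * y' - 1) / 4))
    (Real.log (1 - (2 * y - 1) / 4) - Real.log (1 - (2 * y' - 1) / 4))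
  calc _ = |(Real.log (1 + (2 * y - 1) / 4) - Real.log (1 + (2 * y' - 1) / 4)) -
    (Real.log (1 - (2 * y - 1) / 4) - Real.log (1 - (2 * y' - 1) / 4))| := by ring_nf
    _ ≤ _ := this
    _ ≤ _ := by linarith

/-- observation density -/
noncomputable def dens (x y : ℝ) : ℝ := 1 + (2 * x - 1) * ((2 * y - 1) / 4)

theorem dens_pos {x y : ℝ} (hx : x = 0 ∨ x = 1) (hy : y ∈ Set.Icc (0 : ℝ) 1) : 0 < dens x y := by
  unfold dens
  rcases hx with rfl | rfl <;> linarith [hy.1, hy.2]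

theorem dens_eq {x y : ℝ} (hx : x = 0 ∨ x = 1) (hy : y ∈ Set.Icc (0 : ℝ) 1) :
    dens x y = dens 0 y * Real.exp (x * ell y) := by
  rcases hx with rfl | rfl
  · simp
  · unfold dens ell
    rw [one_mul, Real.exp_sub, Real.exp_log (by linarith [hy.1]), Real.exp_log (by linarith [hy.2])]
    have : (1 - (2 * y - 1) / 4) ≠ 0 := by
      have := hy.2; intro h; linarith
    have e : (1 + (2 * (0 : ℝ) - 1) * ((2 * y - 1) / 4)) = (1 - (2 * y - 1) / 4) := by ring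
    rw [e, mul_div_cancel₀ _ this]
    ring

theorem Fm_mix (m y : ℝ) : (1 - m) * Fm 0 y + m * Fm 1 y = Fm m y := by
  unfold Fm aa; ring

theorem Fm_continuous : Continuous (fun p : ℝ × ℝ => Fm p.1 p.2) := by
  unfold Fm aa; fun_prop

theorem Qm_measurable : Measurable (fun p : ℝ × ℝ => Qm p.1 p.2) := by
  unfold Qm aa; fun_prop

theorem ell_measurable : Measurable ell := by
  unfold ell; fun_prop

theorem dens_continuous (x : ℝ) : Continuous (dens x) := by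
  unfold dens; fun_prop

end Crest.Agent.SRFactor
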