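import Mathlib
import Crest.Agent.SRFactor.Channel

set_option autoImplicit false

open Filter Topology

namespace Crest.Agent.SRFactor

variable {E : Type*}

/-- External field on the sites collected from the observations made strictly before `e`. -/
noncomputable def fieldAt (u y : E × ℕ → ℝ) (e : E × ℕ) : E → ℝ := fun x =>
  ∑ j ∈ Finset.range (e.2 + 1), if (j : ℝ) + u (x, j) < (e.2 : ℝ) + u e then ell (y (x, j)) else 0

noncomputable def step (m : (E → ℝ) → E → ℝ) (u w y : E × ℕ → ℝ) : E × ℕ → ℝ :=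
  fun e => Qm (m (fieldAt u y e) e.1) (w e)

noncomputable def iter (m : (E → ℝ) → E → ℝ) (u w : E × ℕ → ℝ) : ℕ → (E × ℕ → ℝ)
  | 0 => fun _ => 1 / 2
  | n + 1 => step m u w (iter m u w n)

noncomputable def fixpt (m : (E → ℝ) → E → ℝ) (u w : E × ℕ → ℝ) : E × ℕ → ℝ :=
  fun e => limsup (fun n => iter m u w n e) atTop

structure GoodM (m : (E → ℝ) → E → ℝ) : Prop where
  mem : ∀ h v, m h v ∈ Set.Icc (0 : ℝ) 1
  lip : ∀ h h' D v, (∀ x, |h x - h' x| ≤ D) → |m h v - m h' v| ≤ D

theorem step_mem {m : (E → ℝ) → E → ℝ} (hm : GoodM m) {u w : E × ℕ → ℝ}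
    (hw : ∀ e, w e ∈ Set.Icc (0 : ℝ) 1) (y : E × ℕ → ℝ) (e : E × ℕ) :
    step m u w y e ∈ Set.Icc (0 : ℝ) 1 := Qm_mem (hm.mem _ _) (hw e)

theorem iter_mem {m : (E → ℝ) → E → ℝ} (hm : GoodM m) {u w : E × ℕ → ℝ}
    (hw : ∀ e, w e ∈ Set.Icc (0 : ℝ) 1) (n : ℕ) (e : E × ℕ) :
    iter m u w n e ∈ Set.Icc (0 : ℝ) 1 := by
  cases n with
  | zero => simp only [iter]; constructor <;> norm_num
  | succ n => exact step_mem hm hw _ _

theorem sum_two_pow_le (k : ℕ) : ∑ j ∈ Finset.range (k + 1), (2 : ℝ) ^ j ≤ 2 * 2 ^ k := by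
  have h := geom_sum_eq (x := (2 : ℝ)) (by norm_num) (k + 1)
  rw [h, pow_succ]
  have : (0 : ℝ) < 2 ^ k := by positivity
  norm_num
  linarith

theorem step_contract {m : (E → ℝ) → E → ℝ} (hm : GoodM m) {u w : E × ℕ → ℝ}
    (hw : ∀ e, w e ∈ Set.Icc (0 : ℝ) 1) {y y' : E × ℕ → ℝ}
    (hy : ∀ e, y e ∈ Set.Icc (0 : ℝ) 1) (hy' : ∀ e, y' e ∈ Set.Icc (0 : ℝ) 1) (D : ℝ)
    (hD : ∀ e : E × ℕ, |y e - y' e| ≤ D * 2 ^ e.2) (e : E × ℕ) :
    |step m u w y e - step m u w y' e| ≤ (4 / 9 * D) * 2 ^ e.2 := by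
  have hD0 : 0 ≤ D := by
    have h0 := (abs_nonneg _).trans (hD e)
    have : (0 : ℝ) < 2 ^ e.2 := by positivity
    by_contra h
    push Not at h
    have := mul_neg_of_neg_of_pos h this
    linarith
  have hfield : ∀ x, |fieldAt u y e x - fieldAt u y' e x| ≤ 8 / 3 * D * 2 ^ e.2 := by
    intro x
    unfold fieldAt
    rw [← Finset.sum_sub_distrib]
    refine (Finset.abs_sum_le_sum_abs _ _).trans ?_
    have h1 : ∀ j ∈ Finset.range (e.2 + 1),
        |((if (j : ℝ) + u (x, j) < (e.2 : ℝ) + u e then ell (y (x, j)) else 0) -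
          (if (j : ℝ) + u (x, j) < (e.2 : ℝ) + u e then ell (y' (x, j)) else 0))| ≤
          4 / 3 * D * 2 ^ j := by
      intro j _
      split_ifs
      · refine (ell_lipschitz (hy _) (hy' _)).trans ?_
        have := hD (x, j)
        simp only at this
        linarith
      · simp only [sub_zero, abs_zero]
        positivity
    refine (Finset.sum_le_sum h1).trans ?_
    rw [← Finset.mul_sum]
    have := sum_two_pow_le e.2
    have h4 : 0 ≤ 4 / 3 * D := by positivity
    calc 4 / 3 * D * ∑ i ∈ Finset.range (e.2 + 1), (2 : ℝ) ^ i ≤ 4 / 3 * D * (2 * 2 ^ e.2) :=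
          mul_le_mul_of_nonneg_left this h4
      _ = 8 / 3 * D * 2 ^ e.2 := by ring
  have h2 := hm.lip _ _ _ e.1 hfield
  unfold step
  refine (Qm_lipschitz (hm.mem _ _) (hm.mem _ _) (hw e)).trans ?_
  linarith

theorem iter_dist {m : (E → ℝ) → E → ℝ} (hm : GoodM m) {u w : E × ℕ → ℝ}
    (hw : ∀ e, w e ∈ Set.Icc (0 : ℝ) 1) {y : E × ℕ → ℝ} (hy : ∀ e, y e ∈ Set.Icc (0 : ℝ) 1)
    (hfix : step m u w y = y) (n : ℕ) (e : E × ℕ) :
    |iter m u w n e - y e| ≤ (4 / 9) ^ n * 2 ^ e.2 := by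
  induction n generalizing e with
  | zero =>
    have h1 := hy e
    simp only [iter, pow_zero, one_mul]
    have h2 : (1 : ℝ) ≤ 2 ^ e.2 := one_le_pow₀ (by norm_num)
    rw [abs_le]
    constructor <;> linarith [h1.1, h1.2]
  | succ n ih =>
    have := step_contract hm hw (iter_mem hm hw n) hy ((4 / 9) ^ n) ih e (u := u)
    rw [hfix] at this
    rw [pow_succ']
    exact this

/-- The solution is unique, and it is the limit of the iterates. -/
theorem eq_fixpt {m : (E → ℝ) → E → ℝ} (hm : GoodM m) {u w : E × ℕ → ℝ}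
    (hw : ∀ e, w e ∈ Set.Icc (0 : ℝ) 1) {y : E × ℕ → ℝ} (hy : ∀ e, y e ∈ Set.Icc (0 : ℝ) 1)
    (hfix : step m u w y = y) : fixpt m u w = y := by
  funext e
  apply Tendsto.limsup_eq
  rw [tendsto_iff_norm_sub_tendsto_zero]
  refine squeeze_zero (fun _ => norm_nonneg _) (fun n => iter_dist hm hw hy hfix n e) ?_
  have : Tendsto (fun n : ℕ => ((4 / 9 : ℝ)) ^ n) atTop (𝓝 0) :=
    tendsto_pow_atTop_nhds_zero_of_lt_one (by norm_num) (by norm_num)
  simpa using this.mul_const ((2 : ℝ) ^ e.2)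

section Transport

variable {E₁ E₂ : Type*}

theorem fieldAt_transport (j : E₁ → E₂) (u y : E₂ × ℕ → ℝ) (e : E₁ × ℕ) :
    fieldAt (fun e => u (j e.1, e.2)) (fun e => y (j e.1, e.2)) e =
      fun x => fieldAt u y (j e.1, e.2) (j x) := rfl

theorem iter_transport (j : E₁ → E₂) (m₁ : (E₁ → ℝ) → E₁ → ℝ) (m₂ : (E₂ → ℝ) → E₂ → ℝ)
    (hm : ∀ (h : E₂ → ℝ) (v : E₁), m₁ (fun x => h (j x)) v = m₂ h (j v))
    (u w : E₂ × ℕ → ℝ) (n : ℕ) (e : E₁ × ℕ) :
    iter m₁ (fun e => u (j e.1, e.2)) (fun e => w (j e.1, e.2)) n e =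
      iter m₂ u w n (j e.1, e.2) := by
  induction n generalizing e with
  | zero => rfl
  | succ n ih =>
    simp only [iter, step]
    have h1 : iter m₁ (fun e => u (j e.1, e.2)) (fun e => w (j e.1, e.2)) n =
      fun e => iter m₂ u w n (j e.1, e.2) := by
      funext e; exact ih e
    rw [h1, fieldAt_transport, hm]

theorem fixpt_transport (j : E₁ → E₂) (m₁ : (E₁ → ℝ) → E₁ → ℝ) (m₂ : (E₂ → ℝ) → E₂ → ℝ)
    (hm : ∀ (h : E₂ → ℝ) (v : E₁), m₁ (fun x => h (j x)) v = m₂ h (j v))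
    (u w : E₂ × ℕ → ℝ) (e : E₁ × ℕ) :
    fixpt m₁ (fun e => u (j e.1, e.2)) (fun e => w (j e.1, e.2)) e =
      fixpt m₂ u w (j e.1, e.2) := by
  unfold fixpt
  simp only [iter_transport j m₁ m₂ hm]

end Transport

/-- a crude statistic of one observation -/
noncomputable def sg (y : ℝ) : ℝ := if y ≤ 1 / 2 then -1 else 1

theorem sg_measurable : Measurable sg :=
  Measurable.ite measurableSet_Iic measurable_const measurable_const

/-- The decoded configuration. -/
noncomputable def dec (y : E × ℕ → ℝ) : E → Bool := fun v =>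
  haveI := Classical.propDecidable (∀ᶠ K : ℕ in atTop, 0 < ∑ j ∈ Finset.range K, sg (y (v, j)))
  decide (∀ᶠ K : ℕ in atTop, 0 < ∑ j ∈ Finset.range K, sg (y (v, j)))

theorem dec_transport {E₁ E₂ : Type*} (j : E₁ → E₂) (y : E₂ × ℕ → ℝ) (v : E₁) :
    dec (fun e : E₁ × ℕ => y (j e.1, e.2)) v = dec y (j v) := rfl

section Measurability

variable {P : Type*} [MeasurableSpace P]

theorem fieldAt_measurable {u y : P → E × ℕ → ℝ} (hu : ∀ e, Measurable fun p => u p e)
    (hy : ∀ e, Measurable fun p => y p e) (e : E × ℕ) :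
    Measurable fun p => fieldAt (u p) (y p) e := by
  rw [measurable_pi_iff]
  intro x
  unfold fieldAt
  apply Finset.measurable_sum
  intro j _
  apply Measurable.ite
  · exact measurableSet_lt (measurable_const.add (hu _)) (measurable_const.add (hu _))
  · exact ell_measurable.comp (hy _)
  · exact measurable_const

theorem step_measurable {m : P → (E → ℝ) → E → ℝ}
    (hm : ∀ v, Measurable fun q : P × (E → ℝ) => m q.1 q.2 v) {u w y : P → E × ℕ → ℝ}
    (hu : ∀ e, Measurable fun p => u p e) (hw : ∀ e, Measurable fun p => w p e)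
    (hy : ∀ e, Measurable fun p => y p e) (e : E × ℕ) :
    Measurable fun p => step (m p) (u p) (w p) (y p) e := by
  unfold step
  have h1 : Measurable fun p => m p (fieldAt (u p) (y p) e) e.1 :=
    (hm e.1).comp (measurable_id.prodMk (fieldAt_measurable hu hy e))
  exact Qm_measurable.comp (h1.prodMk (hw e))

theorem iter_measurable {m : P → (E → ℝ) → E → ℝ}
    (hm : ∀ v, Measurable fun q : P × (E → ℝ) => m q.1 q.2 v) {u w : P → E × ℕ → ℝ}
    (hu : ∀ e, Measurable fun p => u p e) (hw : ∀ e, Measurable fun p => w p e) (n : ℕ)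
    (e : E × ℕ) : Measurable fun p => iter (m p) (u p) (w p) n e := by
  induction n generalizing e with
  | zero => exact measurable_const
  | succ n ih => exact step_measurable hm hu hw ih e

theorem fixpt_measurable {m : P → (E → ℝ) → E → ℝ}
    (hm : ∀ v, Measurable fun q : P × (E → ℝ) => m q.1 q.2 v) {u w : P → E × ℕ → ℝ}
    (hu : ∀ e, Measurable fun p => u p e) (hw : ∀ e, Measurable fun p => w p e)
    (e : E × ℕ) : Measurable fun p => fixpt (m p) (u p) (w p) e := by
  unfold fixpt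
  exact Measurable.limsup (fun n => iter_measurable hm hu hw n e)

theorem dec_measurable {y : P → E × ℕ → ℝ} (hy : ∀ e, Measurable fun p => y p e) (v : E) :
    Measurable fun p => dec (y p) v := by
  unfold dec
  apply measurable_to_bool
  have : (fun p => @decide (∀ᶠ K : ℕ in atTop, 0 < ∑ j ∈ Finset.range K, sg (y p (v, j)))
      (Classical.propDecidable _)) ⁻¹' {true} =
      ⋃ N : ℕ, ⋂ K : ℕ, ⋂ (_ : N ≤ K), {p | 0 < ∑ j ∈ Finset.range K, sg (y p (v, j))} := by
    ext p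
    simp only [Set.mem_preimage, Set.mem_singleton_iff, decide_eq_true_eq, eventually_atTop,
      Set.mem_iUnion, Set.mem_iInter, Set.mem_ofPred_eq, ge_iff_le]
  rw [this]
  refine MeasurableSet.iUnion fun N => MeasurableSet.iInter fun K => MeasurableSet.iInter fun _ => ?_
  apply measurableSet_lt measurable_const
  exact Finset.measurable_sum _ (fun j _ => sg_measurable.comp (hy _))

end Measurability

end Crest.Agent.SRFactor
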