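import Mathlib

set_option autoImplicit false

open Finset Complex Filter Topology

namespace Crest.Agent.SRFactor

variable {ι : Type*} [DecidableEq ι]

/-- Nonvanishing on the open upper half plane extends to boundary points, for functions affine in
each coordinate. -/
theorem boundary_ne_zero (B : Finset ι) (p : (ι → ℂ) → ℂ) (hc : Continuous p)
    (haff : ∀ i ∈ B, ∀ z x, p (Function.update z i x) =
      p (Function.update z i 0) + x * (p (Function.update z i 1) - p (Function.update z i 0)))
    (hnv : ∀ z, (∀ i ∈ B, 0 < (z i).im) → p z ≠ 0)
    (D : ι → Set ℝ) (hD : ∀ i ∈ B, (D i).Nonempty)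
    (hpos : ∀ z, (∀ i ∈ B, ∃ x ∈ D i, z i = (x : ℂ)) → p z ≠ 0) :
    ∀ z, (∀ i ∈ B, 0 < (z i).im ∨ ∃ x ∈ D i, z i = (x : ℂ)) → p z ≠ 0 := by
  have key : ∀ n : ℕ, ∀ z, (∀ i ∈ B, 0 < (z i).im ∨ ∃ x ∈ D i, z i = (x : ℂ)) →
      (B.filter (fun i => 0 < (z i).im)).card = n → p z ≠ 0 := by
    intro n
    induction n using Nat.strong_induction_on with
    | _ n ih =>
      intro z hz hn hp
      rcases Nat.eq_zero_or_pos n with h0 | h0
      · -- all real
        apply hpos z _ hp
        intro i hi
        rcases hz i hi with h | h
        · exfalso
          have : i ∈ B.filter (fun i => 0 < (z i).im) := by simp [hi, h]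
          have := Finset.card_pos.2 ⟨i, this⟩
          omega
        · exact h
      · have : (B.filter (fun i => 0 < (z i).im)).Nonempty := by
          rw [← Finset.card_pos]; omega
        obtain ⟨j, hj⟩ := this
        rw [Finset.mem_filter] at hj
        obtain ⟨hjB, hjim⟩ := hj
        have hzj : p z = p (Function.update z j 0) +
            z j * (p (Function.update z j 1) - p (Function.update z j 0)) := by
          have := haff j hjB z (z j)
          rwa [Function.update_eq_self] at this
        by_cases hb : p (Function.update z j 1) - p (Function.update z j 0) = 0
        · -- reduce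
          have ha : p (Function.update z j 0) = 0 := by
            rw [hp, hb] at hzj; simpa using hzj.symm
          obtain ⟨x, hx⟩ := hD j hjB
          have h1 : p (Function.update z j (x : ℂ)) = 0 := by
            rw [haff j hjB z (x : ℂ), ha, ← ha, hb]; simp [ha]
          refine ih ((B.filter (fun i => 0 < (Function.update z j (x : ℂ) i).im)).card) ?_
            (Function.update z j (x : ℂ)) ?_ rfl h1
          · rw [← hn]
            apply Finset.card_lt_card
            rw [Finset.ssubset_iff_of_subset]
            · refine ⟨j, by simp [hjB, hjim], by simp⟩
            · intro i hi
              rw [Finset.mem_filter] at hi ⊢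
              refine ⟨hi.1, ?_⟩
              by_cases hij : i = j
              · subst hij; exact hjim
              · simpa [Function.update_of_ne hij] using hi.2
          · intro i hi
            by_cases hij : i = j
            · subst hij; right; exact ⟨x, hx, by simp⟩
            · simpa [Function.update_of_ne hij] using hz i hi
        · -- perturb
          let zε : ℝ → ι → ℂ := fun ε i => if 0 < (z i).im then z i else z i + (ε : ℂ) * I
          have hzε : Tendsto zε (𝓝[>] 0) (𝓝 z) := by
            rw [tendsto_pi_nhds]
            intro i
            by_cases h : 0 < (z i).im
            · simp only [zε, h, if_true]; exact tendsto_const_nhds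
            · simp only [zε, h, if_false]
              have : Tendsto (fun ε : ℝ => z i + (ε : ℂ) * I) (𝓝 0) (𝓝 (z i + ((0 : ℝ) : ℂ) * I)) := by
                apply Continuous.tendsto; fun_prop
              simp only [ofReal_zero, zero_mul, add_zero] at this
              exact this.mono_left nhdsWithin_le_nhds
          have hupd : ∀ x : ℂ, Tendsto (fun ε => p (Function.update (zε ε) j x)) (𝓝[>] 0)
              (𝓝 (p (Function.update z j x))) := by
            intro x
            have h2 : Continuous fun w : ι → ℂ => p (Function.update w j x) :=
              hc.comp (continuous_id.update j continuous_const)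
            exact (h2.tendsto z).comp hzε
          have hr : Tendsto (fun ε => -p (Function.update (zε ε) j 0) /
              (p (Function.update (zε ε) j 1) - p (Function.update (zε ε) j 0))) (𝓝[>] 0)
              (𝓝 (z j)) := by
            have h3 := ((hupd 0).neg.div ((hupd 1).sub (hupd 0)) hb)
            have h4 : -p (Function.update z j 0) /
              (p (Function.update z j 1) - p (Function.update z j 0)) = z j := by
              rw [div_eq_iff hb]
              rw [hp] at hzj
              linear_combination hzj
            rwa [h4] at h3
          have e1 : ∀ᶠ ε in 𝓝[>] (0 : ℝ), 0 < (-p (Function.update (zε ε) j 0) /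
              (p (Function.update (zε ε) j 1) - p (Function.update (zε ε) j 0))).im := by
            have := (Complex.continuous_im.tendsto (z j)).comp hr
            exact this.eventually (lt_mem_nhds hjim)
          have e2 : ∀ᶠ ε in 𝓝[>] (0 : ℝ),
              p (Function.update (zε ε) j 1) - p (Function.update (zε ε) j 0) ≠ 0 :=
            ((hupd 1).sub (hupd 0)).eventually_ne hb
          have e3 : ∀ᶠ ε in 𝓝[>] (0 : ℝ), 0 < ε := self_mem_nhdsWithin
          obtain ⟨ε, h1, h2, h3⟩ := (e1.and (e2.and e3)).exists
          set r := -p (Function.update (zε ε) j 0) /
              (p (Function.update (zε ε) j 1) - p (Function.update (zε ε) j 0)) with hrdef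
          apply hnv (Function.update (zε ε) j r) _ _
          · intro i hi
            by_cases hij : i = j
            · subst hij; simpa using h1
            · rw [Function.update_of_ne hij]
              by_cases h : 0 < (z i).im
              · simpa [zε, h] using h
              · simp only [zε, h, if_false]
                rcases hz i hi with h' | ⟨x, -, hx⟩
                · exact absurd h' h
                · simp [hx, h3]
          · rw [haff j hjB, hrdef]
            field_simp
            ring
  intro z hz
  exact key _ z hz rfl

end Crest.Agent.SRFactor
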