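import Mathlib

set_option autoImplicit false

open Complex Filter Topology Set

namespace Crest.Agent.SRFactor

theorem norm_sub_lt_norm_add {w : ℂ} {a : ℝ} (hw : 0 < w.re) (ha : 0 < a) :
    ‖w - a‖ < ‖w + a‖ := by
  rw [← sq_lt_sq₀ (norm_nonneg _) (norm_nonneg _), ← Complex.normSq_eq_norm_sq,
    ← Complex.normSq_eq_norm_sq, Complex.normSq_apply, Complex.normSq_apply]
  simp only [sub_re, sub_im, add_re, add_im, ofReal_re, ofReal_im]
  nlinarith [mul_pos hw ha]

theorem exp_half_log_re_pos {w : ℂ} (hw : w ∈ slitPlane) : 0 < (exp (log w / 2)).re := by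
  rw [Complex.exp_re]
  have h1 : (log w / 2).im = arg w / 2 := by
    simp [log_im]
  rw [h1]
  apply mul_pos (Real.exp_pos _)
  apply Real.cos_pos_of_mem_Ioo
  have h2 := (Complex.mem_slitPlane_iff_arg.1 hw).1
  have h3 := Complex.neg_pi_lt_arg w
  have h4 := lt_of_le_of_ne (Complex.arg_le_pi w) h2
  constructor <;> linarith

/-- Schwarz--Pick for holomorphic maps from the right half plane to the slit plane. -/
theorem slit_bound (G : ℂ → ℂ) (hG : DifferentiableOn ℂ G {s : ℂ | 0 < s.re})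
    (hslit : ∀ s : ℂ, 0 < s.re → G s ∈ slitPlane) (ρ g1 gr : ℝ) (hρ : 1 ≤ ρ)
    (h1 : G 1 = (g1 : ℂ)) (hr : G ((Real.sqrt ρ : ℝ) : ℂ) = (gr : ℂ)) :
    gr ≤ ρ * g1 ∧ g1 ≤ ρ * gr := by
  set f : ℂ → ℂ := fun s => exp (log (G s) / 2) with hf
  have hfd : DifferentiableOn ℂ f {s : ℂ | 0 < s.re} := by
    apply DifferentiableOn.cexp
    apply DifferentiableOn.div_const
    exact hG.clog (fun s hs => hslit s hs)
  have hfre : ∀ s : ℂ, 0 < s.re → 0 < (f s).re := fun s hs => exp_half_log_re_pos (hslit s hs)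
  have hreal : ∀ x g : ℝ, 0 < x → G (x : ℂ) = (g : ℂ) → 0 < g ∧ f (x : ℂ) = ((Real.sqrt g : ℝ) : ℂ) := by
    intro x g hx hxg
    have hs := hslit (x : ℂ) (by simpa using hx)
    rw [hxg] at hs
    have hg : 0 < g := by
      rcases hs with h | h
      · simpa using h
      · simp at h
    refine ⟨hg, ?_⟩
    simp only [hf, hxg]
    rw [← Complex.ofReal_log hg.le]
    rw [show ((Real.log g : ℝ) : ℂ) / 2 = ((Real.log g / 2 : ℝ) : ℂ) by push_cast; rfl]
    rw [← Complex.ofReal_exp]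
    congr 1
    rw [← Real.log_sqrt hg.le, Real.exp_log (Real.sqrt_pos.2 hg)]
  obtain ⟨hg1, hf1⟩ := hreal 1 g1 one_pos (by simpa using h1)
  have hρ0 : 0 < Real.sqrt ρ := Real.sqrt_pos.2 (by linarith)
  obtain ⟨hgr, hfr⟩ := hreal (Real.sqrt ρ) gr hρ0 hr
  set a := Real.sqrt g1 with ha
  set b := Real.sqrt gr with hb
  have ha0 : 0 < a := Real.sqrt_pos.2 hg1
  have hb0 : 0 < b := Real.sqrt_pos.2 hgr
  set s : ℂ → ℂ := fun ζ => (1 + ζ) / (1 - ζ) with hs
  have hsne : ∀ ζ ∈ Metric.ball (0 : ℂ) 1, 1 - ζ ≠ 0 := by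
    intro ζ hζ h
    have : ζ = 1 := by linear_combination -h
    subst this
    simp at hζ
  have hsre : ∀ ζ ∈ Metric.ball (0 : ℂ) 1, 0 < (s ζ).re := by
    intro ζ hζ
    have hne := hsne ζ hζ
    rw [mem_ball_zero_iff] at hζ
    have hn : normSq ζ < 1 := by
      rw [Complex.normSq_eq_norm_sq]
      nlinarith [norm_nonneg ζ]
    simp only [hs, Complex.div_re]
    rw [← add_div]
    apply div_pos _ (Complex.normSq_pos.2 hne)
    simp only [add_re, one_re, sub_re, add_im, one_im, sub_im]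
    rw [Complex.normSq_apply] at hn
    nlinarith
  set H : ℂ → ℂ := fun ζ => (f (s ζ) - a) / (f (s ζ) + a) with hH
  have hden : ∀ ζ ∈ Metric.ball (0 : ℂ) 1, f (s ζ) + a ≠ 0 := by
    intro ζ hζ h
    have h1 := hfre _ (hsre ζ hζ)
    have h2 : (f (s ζ) + a).re = 0 := by rw [h]; simp
    simp at h2
    linarith
  have hsd : DifferentiableOn ℂ s (Metric.ball (0 : ℂ) 1) := by
    apply DifferentiableOn.div
    · fun_prop
    · fun_prop
    · exact hsne
  have hfsd : DifferentiableOn ℂ (fun ζ => f (s ζ)) (Metric.ball (0 : ℂ) 1) :=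
    hfd.comp hsd (fun ζ hζ => hsre ζ hζ)
  have hHd : DifferentiableOn ℂ H (Metric.ball (0 : ℂ) 1) := by
    apply DifferentiableOn.div
    · exact hfsd.sub_const _
    · exact hfsd.add_const _
    · exact hden
  have hHm : MapsTo H (Metric.ball (0 : ℂ) 1) (Metric.closedBall (0 : ℂ) 1) := by
    intro ζ hζ
    rw [mem_closedBall_zero_iff]
    simp only [hH, norm_div]
    rw [div_le_one (norm_pos_iff.2 (hden ζ hζ))]
    exact (norm_sub_lt_norm_add (hfre _ (hsre ζ hζ)) ha0).le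
  have hH0 : H 0 = 0 := by
    have : f 1 = (a : ℂ) := by simpa using hf1
    simp [hH, hs, this]
  set r := Real.sqrt ρ with hrdef
  have hr1 : 1 ≤ r := by
    rw [hrdef]; exact Real.one_le_sqrt.2 hρ
  set ζ1 : ℝ := (r - 1) / (r + 1) with hζ1
  have hr1' : 0 < r + 1 := by linarith
  have hζ1n : 0 ≤ ζ1 := div_nonneg (by linarith) hr1'.le
  have hζ1l : ζ1 < 1 := by rw [hζ1, div_lt_one hr1']; linarith
  have hnorm : ‖(ζ1 : ℂ)‖ = ζ1 := by
    rw [Complex.norm_real, Real.norm_eq_abs, abs_of_nonneg hζ1n]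
  have hschw := Complex.norm_le_norm_of_mapsTo_ball hHd hHm hH0 (z := (ζ1 : ℂ)) (by rw [hnorm]; exact hζ1l)
  rw [hnorm] at hschw
  have hsζ : s (ζ1 : ℂ) = (r : ℂ) := by
    simp only [hs]
    have : (1 : ℂ) - ζ1 ≠ 0 := by
      have : (1 : ℝ) - ζ1 ≠ 0 := by linarith
      exact_mod_cast this
    rw [div_eq_iff this]
    have h3 : ζ1 * (r + 1) = r - 1 := by rw [hζ1]; field_simp
    have h4 : (1 : ℝ) + ζ1 = r * (1 - ζ1) := by linarith
    exact_mod_cast h4
  have hHζ : H (ζ1 : ℂ) = (((b - a) / (b + a) : ℝ) : ℂ) := by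
    simp only [hH, hsζ, hfr]
    push_cast
    rfl
  rw [hHζ, Complex.norm_real, Real.norm_eq_abs, abs_le] at hschw
  obtain ⟨hl, hu⟩ := hschw
  have hba : 0 < b + a := by linarith
  have hub : b ≤ r * a := by
    rw [div_le_iff₀ hba, hζ1, div_mul_eq_mul_div, le_div_iff₀ hr1'] at hu
    nlinarith
  have hlb : a ≤ r * b := by
    rw [le_div_iff₀ hba, hζ1, neg_mul, div_mul_eq_mul_div, neg_le] at hl
    rw [le_div_iff₀ hr1'] at hl
    nlinarith
  have hrr : r * r = ρ := Real.mul_self_sqrt (by linarith)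
  have haa : a * a = g1 := Real.mul_self_sqrt hg1.le
  have hbb : b * b = gr := Real.mul_self_sqrt hgr.le
  constructor
  · calc gr = b * b := hbb.symm
      _ ≤ (r * a) * (r * a) := mul_le_mul hub hub hb0.le (by positivity)
      _ = ρ * g1 := by rw [← hrr, ← haa]; ring
  · calc g1 = a * a := haa.symm
      _ ≤ (r * b) * (r * b) := mul_le_mul hlb hlb ha0.le (by positivity)
      _ = ρ * gr := by rw [← hrr, ← hbb]; ring

end Crest.Agent.SRFactor
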