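import Mathlib
import Crest.Agent.SRFactor.Boundary
import Crest.Agent.SRFactor.Pick

set_option autoImplicit false

open Finset Complex Filter Topology

namespace Crest.Agent.SRFactor

set_option linter.unusedSectionVars false

variable {ι : Type*} [DecidableEq ι]

/-- Window polynomial. -/
noncomputable def wpoly (B : Finset ι) (c : Finset ι → ℝ) (z : ι → ℂ) : ℂ :=
  ∑ S ∈ B.powerset, (c S : ℂ) * ∏ i ∈ S, z i

theorem wpoly_congr {B : Finset ι} {c : Finset ι → ℝ} {z z' : ι → ℂ} (h : ∀ i ∈ B, z i = z' i) :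
    wpoly B c z = wpoly B c z' := by
  unfold wpoly
  apply Finset.sum_congr rfl
  intro S hS
  rw [Finset.mem_powerset] at hS
  congr 1
  exact Finset.prod_congr rfl (fun i hi => h i (hS hi))

theorem wpoly_erase {B : Finset ι} {v : ι} (hv : v ∈ B) (c : Finset ι → ℝ) (z : ι → ℂ) :
    wpoly B c z = wpoly (B.erase v) c z + z v * wpoly (B.erase v) (fun S => c (insert v S)) z := by
  unfold wpoly
  have hB : insert v (B.erase v) = B := Finset.insert_erase hv
  conv_lhs => rw [← hB]
  rw [Finset.sum_powerset_insert (Finset.notMem_erase v B)]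
  congr 1
  rw [Finset.mul_sum]
  apply Finset.sum_congr rfl
  intro S hS
  rw [Finset.mem_powerset] at hS
  have hvS : v ∉ S := fun h => Finset.notMem_erase v B (hS h)
  rw [Finset.prod_insert hvS]
  ring

theorem wpoly_update_notMem {B : Finset ι} {v : ι} (hv : v ∉ B) (c : Finset ι → ℝ) (z : ι → ℂ)
    (x : ℂ) : wpoly B c (Function.update z v x) = wpoly B c z := by
  apply wpoly_congr
  intro i hi
  rw [Function.update_of_ne]
  rintro rfl
  exact hv hi

theorem wpoly_continuous (B : Finset ι) (c : Finset ι → ℝ) : Continuous (wpoly B c) := by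
  unfold wpoly
  fun_prop

theorem wpoly_affine {B : Finset ι} (c : Finset ι → ℝ) {v : ι} (hv : v ∈ B) (z : ι → ℂ) (x : ℂ) :
    wpoly B c (Function.update z v x) = wpoly (B.erase v) c z +
      x * wpoly (B.erase v) (fun S => c (insert v S)) z := by
  rw [wpoly_erase hv, wpoly_update_notMem (Finset.notMem_erase v B),
    wpoly_update_notMem (Finset.notMem_erase v B)]
  simp

theorem wpoly_affine' {B : Finset ι} (c : Finset ι → ℝ) (v : ι) (z : ι → ℂ) (x : ℂ) :
    wpoly B c (Function.update z v x) = wpoly B c (Function.update z v 0) +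
      x * (wpoly B c (Function.update z v 1) - wpoly B c (Function.update z v 0)) := by
  by_cases hv : v ∈ B
  · rw [wpoly_affine c hv, wpoly_affine c hv, wpoly_affine c hv]
    ring
  · rw [wpoly_update_notMem hv, wpoly_update_notMem hv, wpoly_update_notMem hv]
    ring

/-- real version -/
noncomputable def rpoly (B : Finset ι) (c : Finset ι → ℝ) (x : ι → ℝ) : ℝ :=
  ∑ S ∈ B.powerset, c S * ∏ i ∈ S, x i

theorem wpoly_ofReal (B : Finset ι) (c : Finset ι → ℝ) (x : ι → ℝ) :
    wpoly B c (fun i => (x i : ℂ)) = ((rpoly B c x : ℝ) : ℂ) := by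
  unfold wpoly rpoly
  push_cast
  rfl

theorem wpoly_conj (B : Finset ι) (c : Finset ι → ℝ) (z : ι → ℂ) :
    wpoly B c (fun i => (starRingEnd ℂ) (z i)) = (starRingEnd ℂ) (wpoly B c z) := by
  unfold wpoly
  rw [map_sum]
  apply Finset.sum_congr rfl
  intro S _
  rw [map_mul, map_prod, Complex.conj_ofReal]

theorem rpoly_pos {B : Finset ι} {c : Finset ι → ℝ} (hc : ∀ S, 0 ≤ c S) {S₀ : Finset ι}
    (hS₀ : S₀ ⊆ B) (hcS : 0 < c S₀) {x : ι → ℝ} (hx : ∀ i ∈ B, 0 < x i) : 0 < rpoly B c x := by
  unfold rpoly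
  apply Finset.sum_pos'
  · intro S hS
    rw [Finset.mem_powerset] at hS
    exact mul_nonneg (hc S) (Finset.prod_nonneg (fun i hi => (hx i (hS hi)).le))
  · exact ⟨S₀, Finset.mem_powerset.2 hS₀, mul_pos hcS (Finset.prod_pos (fun i hi => hx i (hS₀ hi)))⟩

/-- Data of a stable window polynomial with a distinguished coordinate whose value is not
deterministic. -/
structure StableData (B : Finset ι) (c : Finset ι → ℝ) (v : ι) : Prop where
  nonneg : ∀ S, 0 ≤ c S
  stable : ∀ z : ι → ℂ, (∀ i ∈ B, 0 < (z i).im) → wpoly B c z ≠ 0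
  mem : v ∈ B
  ex0 : ∃ S ⊆ B.erase v, 0 < c S
  ex1 : ∃ S ⊆ B.erase v, 0 < c (insert v S)

/-- `A + t B ≠ 0` for positive real `t` on the closed region. -/
theorem StableData.add_ne_zero {B : Finset ι} {c : Finset ι → ℝ} {v : ι} (h : StableData B c v)
    (z : ι → ℂ) (hz : ∀ i ∈ B.erase v, 0 < (z i).im ∨ ∃ x : ℝ, 0 < x ∧ z i = (x : ℂ)) (t : ℝ)
    (ht : 0 < t) :
    wpoly (B.erase v) c z + (t : ℂ) * wpoly (B.erase v) (fun S => c (insert v S)) z ≠ 0 := by
  rw [← wpoly_affine c h.mem]
  refine boundary_ne_zero B (wpoly B c) (wpoly_continuous B c)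
    (fun i _ z x => wpoly_affine' c i z x) h.stable (fun _ => Set.Ioi (0 : ℝ))
    (fun _ _ => ⟨1, Set.mem_Ioi.2 one_pos⟩) ?_ _ ?_
  · intro w hw
    choose! x hx using hw
    have : wpoly B c w = wpoly B c (fun i => (x i : ℂ)) :=
      wpoly_congr (fun i hi => (hx i hi).2)
    rw [this, wpoly_ofReal]
    obtain ⟨S, hS, hcS⟩ := h.ex0
    have := rpoly_pos (x := x) h.nonneg (hS.trans (Finset.erase_subset v B)) hcS
      (fun i hi => (hx i hi).1)
    exact_mod_cast this.ne'
  · intro i hi
    by_cases hiv : i = v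
    · subst hiv
      right
      exact ⟨t, ht, by simp⟩
    · rw [Function.update_of_ne hiv]
      rcases hz i (Finset.mem_erase.2 ⟨hiv, hi⟩) with h1 | ⟨x, hx, hxz⟩
      · exact Or.inl h1
      · exact Or.inr ⟨x, hx, hxz⟩

theorem StableData.A_ne_zero {B : Finset ι} {c : Finset ι → ℝ} {v : ι} (h : StableData B c v)
    (z : ι → ℂ) (hz : ∀ i ∈ B.erase v, 0 < (z i).im ∨ ∃ x : ℝ, 0 < x ∧ z i = (x : ℂ)) :
    wpoly (B.erase v) c z ≠ 0 := by
  have e : wpoly (B.erase v) c z = wpoly B c (Function.update z v 0) := by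
    rw [wpoly_affine c h.mem]; simp
  rw [e]
  refine boundary_ne_zero B (wpoly B c) (wpoly_continuous B c)
    (fun i _ z x => wpoly_affine' c i z x) h.stable
    (fun i => if i = v then {0} else Set.Ioi (0 : ℝ))
    (fun i _ => ?_) ?_ _ ?_
  · by_cases hi : i = v
    · simp [hi]
    · simp only [hi, if_false]; exact ⟨1, Set.mem_Ioi.2 one_pos⟩
  · intro w hw
    have hwv : w v = 0 := by
      obtain ⟨x, hx, hx'⟩ := hw v h.mem
      simp at hx
      rw [hx', hx]; simp
    have e2 : wpoly B c w = wpoly (B.erase v) c w := by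
      rw [wpoly_erase h.mem, hwv]; simp
    rw [e2]
    have hw' : ∀ i ∈ B.erase v, ∃ x : ℝ, 0 < x ∧ w i = (x : ℂ) := by
      intro i hi
      obtain ⟨x, hx, hx'⟩ := hw i (Finset.mem_of_mem_erase hi)
      simp only [Finset.ne_of_mem_erase hi, if_false] at hx
      exact ⟨x, hx, hx'⟩
    choose! x hx using hw'
    have : wpoly (B.erase v) c w = wpoly (B.erase v) c (fun i => (x i : ℂ)) :=
      wpoly_congr (fun i hi => (hx i hi).2)
    rw [this, wpoly_ofReal]
    obtain ⟨S, hS, hcS⟩ := h.ex0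
    have := rpoly_pos (x := x) h.nonneg hS hcS (fun i hi => (hx i hi).1)
    exact_mod_cast this.ne'
  · intro i hi
    by_cases hiv : i = v
    · subst hiv
      right
      exact ⟨0, by simp, by simp⟩
    · rw [Function.update_of_ne hiv]
      rcases hz i (Finset.mem_erase.2 ⟨hiv, hi⟩) with h1 | ⟨x, hx, hxz⟩
      · exact Or.inl h1
      · exact Or.inr ⟨x, by simpa [hiv] using hx, hxz⟩

theorem StableData.B_ne_zero {B : Finset ι} {c : Finset ι → ℝ} {v : ι} (h : StableData B c v)
    (z : ι → ℂ) (hz : ∀ i ∈ B.erase v, 0 < (z i).im ∨ ∃ x : ℝ, 0 < x ∧ z i = (x : ℂ)) :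
    wpoly (B.erase v) (fun S => c (insert v S)) z ≠ 0 := by
  set q : (ι → ℂ) → ℂ := fun z => z v * wpoly (B.erase v) c z -
    wpoly (B.erase v) (fun S => c (insert v S)) z with hq
  have e : wpoly (B.erase v) (fun S => c (insert v S)) z = - q (Function.update z v 0) := by
    simp only [hq]
    rw [wpoly_update_notMem (Finset.notMem_erase v B), wpoly_update_notMem (Finset.notMem_erase v B)]
    simp
  rw [e, neg_ne_zero]
  refine boundary_ne_zero B q ?_ ?_ ?_
    (fun i => if i = v then {0} else Set.Ioi (0 : ℝ))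
    (fun i _ => ?_) ?_ _ ?_
  · simp only [hq]
    exact ((continuous_apply v).mul (wpoly_continuous _ _)).sub (wpoly_continuous _ _)
  · intro i hi z x
    simp only [hq]
    by_cases hiv : i = v
    · subst hiv
      simp only [Function.update_self]
      rw [wpoly_update_notMem (Finset.notMem_erase i B), wpoly_update_notMem (Finset.notMem_erase i B),
        wpoly_update_notMem (Finset.notMem_erase i B), wpoly_update_notMem (Finset.notMem_erase i B),
        wpoly_update_notMem (Finset.notMem_erase i B), wpoly_update_notMem (Finset.notMem_erase i B)]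
      ring
    · simp only [Function.update_of_ne (Ne.symm hiv)]
      rw [wpoly_affine' c i z x, wpoly_affine' (fun S => c (insert v S)) i z x]
      ring
  · intro w hw hq0
    have hwv := hw v h.mem
    have hwv0 : w v ≠ 0 := by
      intro h0; rw [h0] at hwv; simp at hwv
    have : wpoly B c (Function.update w v (-(w v)⁻¹)) = 0 := by
      rw [wpoly_affine c h.mem]
      have h2 : w v * (wpoly (B.erase v) c w +
        -(w v)⁻¹ * wpoly (B.erase v) (fun S => c (insert v S)) w) = 0 := by
        have : w v * (wpoly (B.erase v) c w +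
          -(w v)⁻¹ * wpoly (B.erase v) (fun S => c (insert v S)) w) = q w := by
          simp only [hq]
          field_simp
          ring
        rw [this]; exact hq0
      exact (mul_eq_zero.1 h2).resolve_left hwv0
    refine h.stable _ ?_ this
    intro i hi
    by_cases hiv : i = v
    · subst hiv
      simp only [Function.update_self, neg_im, Complex.inv_im, neg_div, neg_neg]
      exact div_pos hwv (Complex.normSq_pos.2 hwv0)
    · rw [Function.update_of_ne hiv]; exact hw i hi
  · by_cases hi : i = v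
    · simp [hi]
    · simp only [hi, if_false]; exact ⟨1, Set.mem_Ioi.2 one_pos⟩
  · intro w hw
    have hwv : w v = 0 := by
      obtain ⟨x, hx, hx'⟩ := hw v h.mem
      simp at hx
      rw [hx', hx]; simp
    have e2 : q w = - wpoly (B.erase v) (fun S => c (insert v S)) w := by
      simp only [hq, hwv]; simp
    rw [e2, neg_ne_zero]
    have hw' : ∀ i ∈ B.erase v, ∃ x : ℝ, 0 < x ∧ w i = (x : ℂ) := by
      intro i hi
      obtain ⟨x, hx, hx'⟩ := hw i (Finset.mem_of_mem_erase hi)
      simp only [Finset.ne_of_mem_erase hi, if_false] at hx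
      exact ⟨x, hx, hx'⟩
    choose! x hx using hw'
    have : wpoly (B.erase v) (fun S => c (insert v S)) w =
        wpoly (B.erase v) (fun S => c (insert v S)) (fun i => (x i : ℂ)) :=
      wpoly_congr (fun i hi => (hx i hi).2)
    rw [this, wpoly_ofReal]
    obtain ⟨S, hS, hcS⟩ := h.ex1
    have := rpoly_pos (x := x) (c := fun S => c (insert v S)) (fun S => h.nonneg _) hS hcS
      (fun i hi => (hx i hi).1)
    exact_mod_cast this.ne'
  · intro i hi
    by_cases hiv : i = v
    · subst hiv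
      right
      exact ⟨0, by simp, by simp⟩
    · rw [Function.update_of_ne hiv]
      rcases hz i (Finset.mem_erase.2 ⟨hiv, hi⟩) with h1 | ⟨x, hx, hxz⟩
      · exact Or.inl h1
      · exact Or.inr ⟨x, by simpa [hiv] using hx, hxz⟩

/-- On the closed region the quotient lies in the slit plane. -/
theorem StableData.div_mem_slitPlane {B : Finset ι} {c : Finset ι → ℝ} {v : ι}
    (h : StableData B c v) (z : ι → ℂ)
    (hz : ∀ i ∈ B.erase v, 0 < (z i).im ∨ ∃ x : ℝ, 0 < x ∧ z i = (x : ℂ)) :
    wpoly (B.erase v) c z / wpoly (B.erase v) (fun S => c (insert v S)) z ∈ slitPlane := by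
  have hA := h.A_ne_zero z hz
  have hB := h.B_ne_zero z hz
  set w := wpoly (B.erase v) c z / wpoly (B.erase v) (fun S => c (insert v S)) z with hw
  by_contra hns
  rw [Complex.mem_slitPlane_iff, not_or, not_lt, not_not] at hns
  have hw0 : w ≠ 0 := div_ne_zero hA hB
  have hre : w.re ≠ 0 := by
    intro h0
    apply hw0
    exact Complex.ext h0 hns.2
  have hneg : 0 < -w.re := by
    have := lt_of_le_of_ne hns.1 hre
    linarith
  apply h.add_ne_zero z hz (-w.re) hneg
  have : ((-w.re : ℝ) : ℂ) = -w := by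
    apply Complex.ext <;> simp [hns.2]
  rw [this, hw]
  field_simp
  ring

theorem StableData.div_mem_slitPlane_conj {B : Finset ι} {c : Finset ι → ℝ} {v : ι}
    (h : StableData B c v) (z : ι → ℂ)
    (hz : ∀ i ∈ B.erase v, (z i).im < 0 ∨ ∃ x : ℝ, 0 < x ∧ z i = (x : ℂ)) :
    wpoly (B.erase v) c z / wpoly (B.erase v) (fun S => c (insert v S)) z ∈ slitPlane := by
  have h1 := h.div_mem_slitPlane (fun i => (starRingEnd ℂ) (z i)) (by
    intro i hi
    rcases hz i hi with h1 | ⟨x, hx, hxz⟩
    · left; simpa using h1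
    · right; exact ⟨x, hx, by simp [hxz]⟩)
  rw [wpoly_conj, wpoly_conj, ← map_div₀] at h1
  rw [Complex.mem_slitPlane_iff, Complex.conj_re, Complex.conj_im] at h1
  rw [Complex.mem_slitPlane_iff]
  rcases h1 with h1 | h1
  · exact Or.inl h1
  · exact Or.inr (fun h0 => h1 (by rw [h0, neg_zero]))

/-- Key ratio estimate. -/
theorem StableData.ratio_bound {B : Finset ι} {c : Finset ι → ℝ} {v : ι} (h : StableData B c v)
    (x κ : ι → ℝ) (ρ : ℝ) (hρ : 1 < ρ) (hx : ∀ i, 0 < x i) (hκ : ∀ i, 1 ≤ κ i ∧ κ i ≤ ρ) :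
    let g : (ι → ℝ) → ℝ := fun y => rpoly (B.erase v) c y /
      rpoly (B.erase v) (fun S => c (insert v S)) y
    g (fun i => x i * κ i) ≤ ρ * g x ∧ g x ≤ ρ * g (fun i => x i * κ i) := by
  intro g
  set Z : ℂ → ι → ℂ := fun s i => (x i : ℂ) * (1 + (((κ i - 1) / (ρ - 1) : ℝ) : ℂ) * (s ^ 2 - 1))
    with hZ
  set G : ℂ → ℂ := fun s => wpoly (B.erase v) c (Z s) /
    wpoly (B.erase v) (fun S => c (insert v S)) (Z s) with hG
  have hρ1 : 0 < ρ - 1 := by linarith
  have hθ : ∀ i, 0 ≤ (κ i - 1) / (ρ - 1) ∧ (κ i - 1) / (ρ - 1) ≤ 1 := fun i =>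
    ⟨div_nonneg (by linarith [(hκ i).1]) hρ1.le, (div_le_one hρ1).2 (by linarith [(hκ i).2])⟩
  -- location of Z s
  have hgen : ∀ (s : ℂ) (a θ : ℝ), ((a : ℂ) * (1 + (θ : ℂ) * (s ^ 2 - 1))).im = a * (θ * (s ^ 2).im) ∧
      ((a : ℂ) * (1 + (θ : ℂ) * (s ^ 2 - 1))).re = a * (1 + θ * ((s ^ 2).re - 1)) := by
    intro s a θ
    constructor <;> simp
  have hZim : ∀ s i, (Z s i).im = x i * (((κ i - 1) / (ρ - 1)) * (s ^ 2).im) := by
    intro s i
    exact (hgen s (x i) _).1
  have hZre : ∀ s i, (Z s i).re = x i * (1 + ((κ i - 1) / (ρ - 1)) * ((s ^ 2).re - 1)) := by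
    intro s i
    exact (hgen s (x i) _).2
  have hcase0 : ∀ s i, (κ i - 1) / (ρ - 1) = 0 → ∃ y : ℝ, 0 < y ∧ Z s i = (y : ℂ) := by
    intro s i h0
    refine ⟨x i, hx i, ?_⟩
    simp only [hZ]
    rw [h0]; simp
  have hloc : ∀ s : ℂ, 0 < s.re →
      (∀ i ∈ B.erase v, 0 < (Z s i).im ∨ ∃ y : ℝ, 0 < y ∧ Z s i = (y : ℂ)) ∨
      (∀ i ∈ B.erase v, (Z s i).im < 0 ∨ ∃ y : ℝ, 0 < y ∧ Z s i = (y : ℂ)) := by
    intro s hs
    rcases lt_trichotomy (s ^ 2).im 0 with hlt | heq | hgt
    · right
      intro i _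
      rcases (hθ i).1.eq_or_lt with h0 | h0
      · right; exact hcase0 s i h0.symm
      · left; rw [hZim]
        exact mul_neg_of_pos_of_neg (hx i) (mul_neg_of_pos_of_neg h0 hlt)
    · left
      intro i _
      right
      refine ⟨(Z s i).re, ?_, ?_⟩
      · rw [hZre]
        apply mul_pos (hx i)
        have him : s.im = 0 := by
          have h1 : (s ^ 2).im = 2 * s.re * s.im := by
            rw [sq, Complex.mul_im]; ring
          rw [h1] at heq
          have : 2 * s.re ≠ 0 := by positivity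
          exact (mul_eq_zero.1 heq).resolve_left this
        have hre2 : 0 < (s ^ 2).re := by
          rw [sq, Complex.mul_re, him]; nlinarith
        nlinarith [(hθ i).1, (hθ i).2, mul_nonneg (hθ i).1 hre2.le]
      · apply Complex.ext
        · simp
        · rw [hZim, heq]; simp
    · left
      intro i _
      rcases (hθ i).1.eq_or_lt with h0 | h0
      · right; exact hcase0 s i h0.symm
      · left; rw [hZim]
        exact mul_pos (hx i) (mul_pos h0 hgt)
  have hslit : ∀ s : ℂ, 0 < s.re → G s ∈ slitPlane := by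
    intro s hs
    rcases hloc s hs with h1 | h1
    · exact h.div_mem_slitPlane _ h1
    · exact h.div_mem_slitPlane_conj _ h1
  have hne : ∀ s : ℂ, 0 < s.re → wpoly (B.erase v) (fun S => c (insert v S)) (Z s) ≠ 0 := by
    intro s hs h0
    have := hslit s hs
    simp only [hG, h0, div_zero] at this
    exact Complex.slitPlane_ne_zero this rfl
  have hdiff : ∀ c' : Finset ι → ℝ, Differentiable ℂ (fun s => wpoly (B.erase v) c' (Z s)) := by
    intro c'
    simp only [wpoly, hZ]
    fun_prop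
  have hGd : DifferentiableOn ℂ G {s : ℂ | 0 < s.re} :=
    (hdiff _).differentiableOn.div (hdiff _).differentiableOn hne
  have hG1 : G 1 = ((g x : ℝ) : ℂ) := by
    have : Z 1 = fun i => ((x i : ℝ) : ℂ) := by
      funext i; simp [hZ]
    simp only [hG, this, wpoly_ofReal, g]
    push_cast; rfl
  have hGr : G ((Real.sqrt ρ : ℝ) : ℂ) = ((g (fun i => x i * κ i) : ℝ) : ℂ) := by
    have : Z ((Real.sqrt ρ : ℝ) : ℂ) = fun i => ((x i * κ i : ℝ) : ℂ) := by
      funext i
      simp only [hZ]
      have h2 : (((Real.sqrt ρ : ℝ) : ℂ)) ^ 2 = ((ρ : ℝ) : ℂ) := by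
        rw [← Complex.ofReal_pow, Real.sq_sqrt (by linarith)]
      rw [h2]
      have h3 : (((κ i - 1) / (ρ - 1) : ℝ) : ℂ) * (((ρ : ℝ) : ℂ) - 1) = ((κ i - 1 : ℝ) : ℂ) := by
        rw [show (((ρ : ℝ) : ℂ) - 1) = ((ρ - 1 : ℝ) : ℂ) by push_cast; rfl, ← Complex.ofReal_mul]
        congr 1
        field_simp
      rw [h3]
      push_cast
      ring
    simp only [hG, this, wpoly_ofReal, g]
    push_cast; rfl
  exact slit_bound G hGd hslit ρ _ _ hρ.le hG1 hGr

theorem sigmoid_lipschitz (a b : ℝ) : |Real.sigmoid a - Real.sigmoid b| ≤ 1 / 4 * |a - b| := by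
  have := Convex.norm_image_sub_le_of_norm_deriv_le (f := Real.sigmoid) (C := 1 / 4)
    (s := Set.univ) (x := b) (y := a) (fun x _ => differentiableAt_sigmoid) (fun x _ => ?_)
    convex_univ (Set.mem_univ _) (Set.mem_univ _)
  · simpa [Real.norm_eq_abs] using this
  · rw [Real.deriv_sigmoid, Real.norm_eq_abs, abs_of_nonneg]
    · nlinarith [sq_nonneg (Real.sigmoid x - 1 / 2)]
    · exact mul_nonneg (Real.sigmoid_nonneg x) (by linarith [Real.sigmoid_le_one x])

theorem inv_one_add_lipschitz {q q' s : ℝ} (hq : 0 < q) (hq' : 0 < q')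
    (h1 : q' ≤ Real.exp s * q) (h2 : q ≤ Real.exp s * q') :
    |(1 + q)⁻¹ - (1 + q')⁻¹| ≤ 1 / 4 * s := by
  have e : ∀ r : ℝ, 0 < r → (1 + r)⁻¹ = Real.sigmoid (-Real.log r) := by
    intro r hr
    rw [Real.sigmoid_def, neg_neg, Real.exp_log hr]
  rw [e q hq, e q' hq']
  refine (sigmoid_lipschitz _ _).trans ?_
  apply mul_le_mul_of_nonneg_left _ (by norm_num)
  rw [abs_le]
  have l1 := Real.log_le_log hq' h1
  have l2 := Real.log_le_log hq h2
  rw [Real.log_mul (Real.exp_pos s).ne' hq.ne', Real.log_exp] at l1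
  rw [Real.log_mul (Real.exp_pos s).ne' hq'.ne', Real.log_exp] at l2
  constructor <;> linarith

/-- Total weight with external field `h`. -/
noncomputable def Zw (B : Finset ι) (c : Finset ι → ℝ) (h : ι → ℝ) : ℝ :=
  ∑ S ∈ B.powerset, c S * Real.exp (∑ i ∈ S, h i)

/-- Weight of occupied `v` with external field `h`. -/
noncomputable def Nw (B : Finset ι) (c : Finset ι → ℝ) (v : ι) (h : ι → ℝ) : ℝ :=
  ∑ S ∈ B.powerset, if v ∈ S then c S * Real.exp (∑ i ∈ S, h i) else 0

/-- posterior occupation probability. -/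
noncomputable def postw (B : Finset ι) (c : Finset ι → ℝ) (v : ι) (h : ι → ℝ) : ℝ :=
  Nw B c v h / Zw B c h

theorem Zw_eq_rpoly (B : Finset ι) (c : Finset ι → ℝ) (h : ι → ℝ) :
    Zw B c h = rpoly B c (fun i => Real.exp (h i)) := by
  unfold Zw rpoly
  apply Finset.sum_congr rfl
  intro S _
  rw [Real.exp_sum]

theorem Zw_split {B : Finset ι} (c : Finset ι → ℝ) {v : ι} (hv : v ∈ B) (h : ι → ℝ) :
    Zw B c h = rpoly (B.erase v) c (fun i => Real.exp (h i)) +
      Real.exp (h v) * rpoly (B.erase v) (fun S => c (insert v S)) (fun i => Real.exp (h i)) := by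
  have h1 := wpoly_erase hv c (fun i => ((Real.exp (h i) : ℝ) : ℂ))
  rw [wpoly_ofReal, wpoly_ofReal, wpoly_ofReal] at h1
  rw [Zw_eq_rpoly]
  exact_mod_cast h1

theorem Nw_split {B : Finset ι} (c : Finset ι → ℝ) {v : ι} (hv : v ∈ B) (h : ι → ℝ) :
    Nw B c v h =
      Real.exp (h v) * rpoly (B.erase v) (fun S => c (insert v S)) (fun i => Real.exp (h i)) := by
  unfold Nw rpoly
  have hB : insert v (B.erase v) = B := Finset.insert_erase hv
  conv_lhs => rw [← hB]
  rw [Finset.sum_powerset_insert (Finset.notMem_erase v B)]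
  have h0 : (∑ t ∈ (B.erase v).powerset, if v ∈ t then c t * Real.exp (∑ i ∈ t, h i) else 0) = 0 := by
    apply Finset.sum_eq_zero
    intro S hS
    rw [Finset.mem_powerset] at hS
    have hvS : v ∉ S := fun h => Finset.notMem_erase v B (hS h)
    simp [hvS]
  rw [h0, zero_add, Finset.mul_sum]
  apply Finset.sum_congr rfl
  intro S hS
  rw [Finset.mem_powerset] at hS
  have hvS : v ∉ S := fun h => Finset.notMem_erase v B (hS h)
  simp only [Finset.mem_insert_self, if_true]
  rw [Finset.sum_insert hvS, Real.exp_add, Real.exp_sum]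
  ring

/-- **Main Lipschitz estimate.** -/
theorem postw_lipschitz {B : Finset ι} {c : Finset ι → ℝ} {v : ι} (hv : v ∈ B)
    (hnn : ∀ S, 0 ≤ c S)
    (hst : ∀ z : ι → ℂ, (∀ i ∈ B, 0 < (z i).im) → wpoly B c z ≠ 0)
    (h h' : ι → ℝ) (D : ℝ) (hD : ∀ i, |h i - h' i| ≤ D) :
    |postw B c v h - postw B c v h'| ≤ D := by
  have hD0 : 0 ≤ D := (abs_nonneg _).trans (hD v)
  by_cases e0 : ∃ S ⊆ B.erase v, 0 < c S
  swap
  · -- A = 0
    push Not at e0
    have hA : ∀ x : ι → ℝ, rpoly (B.erase v) c x = 0 := by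
      intro x
      unfold rpoly
      apply Finset.sum_eq_zero
      intro S hS
      rw [Finset.mem_powerset] at hS
      rw [le_antisymm (e0 S hS) (hnn S), zero_mul]
    by_cases e1 : ∃ S ⊆ B.erase v, 0 < c (insert v S)
    · obtain ⟨S, hS, hcS⟩ := e1
      have hone : ∀ k : ι → ℝ, postw B c v k = 1 := by
        intro k
        unfold postw
        rw [Nw_split c hv, Zw_split c hv, hA, zero_add]
        apply div_self
        exact (mul_pos (Real.exp_pos _) (rpoly_pos (c := fun S => c (insert v S))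
          (fun S => hnn _) hS hcS (fun i _ => Real.exp_pos _))).ne'
      rw [hone, hone]; simpa using hD0
    · push Not at e1
      have hB : ∀ x : ι → ℝ, rpoly (B.erase v) (fun S => c (insert v S)) x = 0 := by
        intro x
        unfold rpoly
        apply Finset.sum_eq_zero
        intro S hS
        rw [Finset.mem_powerset] at hS
        simp only [le_antisymm (e1 S hS) (hnn _), zero_mul]
      have hz : ∀ k : ι → ℝ, postw B c v k = 0 := by
        intro k
        unfold postw
        rw [Nw_split c hv, hB, mul_zero, zero_div]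
      rw [hz, hz]; simpa using hD0
  by_cases e1 : ∃ S ⊆ B.erase v, 0 < c (insert v S)
  swap
  · push Not at e1
    have hB : ∀ x : ι → ℝ, rpoly (B.erase v) (fun S => c (insert v S)) x = 0 := by
      intro x
      unfold rpoly
      apply Finset.sum_eq_zero
      intro S hS
      rw [Finset.mem_powerset] at hS
      simp only [le_antisymm (e1 S hS) (hnn _), zero_mul]
    have hz : ∀ k : ι → ℝ, postw B c v k = 0 := by
      intro k
      unfold postw
      rw [Nw_split c hv, hB, mul_zero, zero_div]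
    rw [hz, hz]; simpa using hD0
  have hsd : StableData B c v := ⟨hnn, hst, hv, e0, e1⟩
  rcases hD0.eq_or_lt with hD' | hDpos
  · have : h = h' := by
      funext i
      have := hD i
      rw [← hD'] at this
      linarith [abs_nonpos_iff.1 this]
    rw [this, ← hD']; simp
  set ρ := Real.exp D with hρ
  have hρ1 : 1 < ρ := by rw [hρ]; exact Real.one_lt_exp_iff.2 hDpos
  set A : (ι → ℝ) → ℝ := fun k => rpoly (B.erase v) c (fun i => Real.exp (k i)) with hA
  set Q : (ι → ℝ) → ℝ := fun k => rpoly (B.erase v) (fun S => c (insert v S))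
    (fun i => Real.exp (k i)) with hQ
  have hApos : ∀ k, 0 < A k := by
    intro k
    obtain ⟨S, hS, hcS⟩ := e0
    exact rpoly_pos hnn hS hcS (fun i _ => Real.exp_pos _)
  have hQpos : ∀ k, 0 < Q k := by
    intro k
    obtain ⟨S, hS, hcS⟩ := e1
    exact rpoly_pos (c := fun S => c (insert v S)) (fun S => hnn _) hS hcS (fun i _ => Real.exp_pos _)
  set g : (ι → ℝ) → ℝ := fun k => A k / Q k with hg
  have hgpos : ∀ k, 0 < g k := fun k => div_pos (hApos k) (hQpos k)
  have hpost : ∀ k, postw B c v k = (1 + g k * Real.exp (-(k v)))⁻¹ := by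
    intro k
    unfold postw
    rw [Nw_split c hv, Zw_split c hv]
    change Real.exp (k v) * Q k / (A k + Real.exp (k v) * Q k) = _
    simp only [hg]
    rw [Real.exp_neg]
    have := hQpos k
    have := hApos k
    have := Real.exp_pos (k v)
    field_simp
    ring
  have hstep : ∀ k k' : ι → ℝ, (∀ i, k i ≤ k' i ∧ k' i ≤ k i + D) →
      g k' ≤ ρ * g k ∧ g k ≤ ρ * g k' := by
    intro k k' hkk
    have := hsd.ratio_bound (fun i => Real.exp (k i)) (fun i => Real.exp (k' i - k i)) ρ hρ1
      (fun i => Real.exp_pos _) (fun i => ⟨Real.one_le_exp (by linarith [(hkk i).1]),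
        Real.exp_le_exp.2 (by linarith [(hkk i).2])⟩)
    have e : (fun i => Real.exp (k i) * Real.exp (k' i - k i)) = fun i => Real.exp (k' i) := by
      funext i
      rw [← Real.exp_add]; congr 1; ring
    simp only [e] at this
    exact this
  have hmax1 := hstep h (fun i => max (h i) (h' i)) (fun i => ⟨le_max_left _ _, by
    have := abs_le.1 (hD i)
    apply max_le <;> linarith⟩)
  have hmax2 := hstep h' (fun i => max (h i) (h' i)) (fun i => ⟨le_max_right _ _, by
    have := abs_le.1 (hD i)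
    apply max_le <;> linarith⟩)
  have hρ0 : 0 < ρ := by linarith
  have hb1 : g h' ≤ ρ * (ρ * g h) := hmax2.2.trans (mul_le_mul_of_nonneg_left hmax1.1 hρ0.le)
  have hb2 : g h ≤ ρ * (ρ * g h') := hmax1.2.trans (mul_le_mul_of_nonneg_left hmax2.1 hρ0.le)
  rw [hpost, hpost]
  have hv' := abs_le.1 (hD v)
  have hev : Real.exp (-(h' v)) ≤ ρ * Real.exp (-(h v)) := by
    rw [hρ, ← Real.exp_add]; apply Real.exp_le_exp.2; linarith
  have hev' : Real.exp (-(h v)) ≤ ρ * Real.exp (-(h' v)) := by
    rw [hρ, ← Real.exp_add]; apply Real.exp_le_exp.2; linarith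
  have h3 : Real.exp (3 * D) = ρ * ρ * ρ := by
    rw [hρ, ← Real.exp_add, ← Real.exp_add]; congr 1; ring
  have hfin := inv_one_add_lipschitz (q := g h * Real.exp (-(h v))) (q' := g h' * Real.exp (-(h' v)))
    (s := 3 * D) (mul_pos (hgpos _) (Real.exp_pos _)) (mul_pos (hgpos _) (Real.exp_pos _))
    (by
      rw [h3]
      calc g h' * Real.exp (-(h' v)) ≤ (ρ * (ρ * g h)) * (ρ * Real.exp (-(h v))) :=
            mul_le_mul hb1 hev (Real.exp_pos _).le
              (mul_nonneg hρ0.le (mul_nonneg hρ0.le (hgpos _).le))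
        _ = ρ * ρ * ρ * (g h * Real.exp (-(h v))) := by ring)
    (by
      rw [h3]
      calc g h * Real.exp (-(h v)) ≤ (ρ * (ρ * g h')) * (ρ * Real.exp (-(h' v))) :=
            mul_le_mul hb2 hev' (Real.exp_pos _).le
              (mul_nonneg hρ0.le (mul_nonneg hρ0.le (hgpos _).le))
        _ = ρ * ρ * ρ * (g h' * Real.exp (-(h' v))) := by ring)
  refine hfin.trans ?_
  linarith

end Crest.Agent.SRFactor
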