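import Mathlib
import Crest.Agent.SRFactor.Channel

set_option autoImplicit false
set_option linter.style.haveILetI false

open MeasureTheory Measure unitInterval Set

namespace Crest.Agent.SRFactor

section Resample

variable {ι : Type*} {X : Type*} [MeasurableSpace X] (μ : Measure X) [IsProbabilityMeasure μ]

/-- Resampling one coordinate of a product measure. -/
theorem resample_map [DecidableEq ι] (c : ι) :
    ((infinitePi (fun _ : ι => μ)).prod μ).map (fun p => Function.update p.1 c p.2) =
      infinitePi (fun _ : ι => μ) := by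
  have hmeas : Measurable (fun p : (ι → X) × X => Function.update p.1 c p.2) := by
    rw [measurable_pi_iff]
    intro i
    by_cases h : i = c
    · subst h; simpa using measurable_snd
    · simp only [Function.update_of_ne h]
      exact (measurable_pi_apply i).comp measurable_fst
  apply eq_infinitePi
  intro s t ht
  rw [map_apply hmeas (MeasurableSet.pi s.countable_toSet (fun i _ => ht i))]
  by_cases hc : c ∈ s
  · have : (fun p : (ι → X) × X => Function.update p.1 c p.2) ⁻¹' (Set.pi s t) =
        (Set.pi (s.erase c : Finset ι) t) ×ˢ (t c) := by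
      ext p
      simp only [mem_preimage, Set.mem_pi, Finset.mem_coe, mem_prod, Finset.mem_erase]
      constructor
      · intro h
        refine ⟨fun i hi => ?_, ?_⟩
        · have := h i hi.2
          rwa [Function.update_of_ne hi.1] at this
        · have := h c hc
          rwa [Function.update_self] at this
      · rintro ⟨h1, h2⟩ i hi
        by_cases hic : i = c
        · subst hic; rwa [Function.update_self]
        · rw [Function.update_of_ne hic]; exact h1 i ⟨hic, hi⟩
    rw [this, prod_prod, infinitePi_pi _ (fun i _ => ht i), mul_comm, Finset.mul_prod_erase s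
      (fun i => μ (t i)) hc]
  · have : (fun p : (ι → X) × X => Function.update p.1 c p.2) ⁻¹' (Set.pi s t) =
        (Set.pi s t) ×ˢ univ := by
      ext p
      simp only [mem_preimage, Set.mem_pi, Finset.mem_coe, mem_prod, mem_univ, and_true]
      constructor
      · intro h i hi
        have := h i hi
        rwa [Function.update_of_ne (by rintro rfl; exact hc hi)] at this
      · intro h i hi
        rw [Function.update_of_ne (by rintro rfl; exact hc hi)]; exact h i hi
    rw [this, prod_prod, infinitePi_pi _ (fun i _ => ht i), measure_univ, mul_one]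

theorem update_measurable [DecidableEq ι] (c : ι) :
    Measurable (fun p : (ι → X) × X => Function.update p.1 c p.2) := by
  rw [measurable_pi_iff]
  intro i
  by_cases h : i = c
  · subst h; simpa using measurable_snd
  · simp only [Function.update_of_ne h]
    exact (measurable_pi_apply i).comp measurable_fst

theorem lintegral_resample [DecidableEq ι] (c : ι) (Φ : (ι → X) → ENNReal) (hΦ : Measurable Φ) :
    ∫⁻ V, Φ V ∂(infinitePi (fun _ : ι => μ)) =
      ∫⁻ V, ∫⁻ t, Φ (Function.update V c t) ∂μ ∂(infinitePi (fun _ : ι => μ)) := by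
  conv_lhs => rw [← resample_map μ c]
  rw [lintegral_map hΦ (update_measurable c)]
  rw [lintegral_prod]
  exact (hΦ.comp (update_measurable c)).aemeasurable

end Resample

section OneDim

theorem volume_le_real {b : ℝ} (hb : b ∈ Icc (0 : ℝ) 1) :
    (volume : Measure I) {t : I | (t : ℝ) ≤ b} = ENNReal.ofReal b := by
  have : {t : I | (t : ℝ) ≤ b} = Set.Iic (⟨b, hb⟩ : I) := by
    ext t; simp [← Subtype.coe_le_coe]
  rw [this, unitInterval.volume_Iic]

theorem mem01 {b : ℝ} (hb : b = 0 ∨ b = 1) : b ∈ Icc (0 : ℝ) 1 := by
  rcases hb with rfl | rfl <;> constructor <;> norm_num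

theorem integral_dens (b a : ℝ) : ∫ y in (0 : ℝ)..a, dens b y = Fm b a := by
  have h : ∀ y ∈ Set.uIcc 0 a, HasDerivAt (fun y => Fm b y) (dens b y) y := by
    intro y _
    unfold Fm dens aa
    have h1 : HasDerivAt (fun y : ℝ => y + (2 * b - 1) / 4 * (y ^ 2 - y))
        (1 + (2 * b - 1) / 4 * ((2 : ℕ) * y ^ (2 - 1) - 1)) y :=
      (hasDerivAt_id y).add (((hasDerivAt_pow 2 y).sub (hasDerivAt_id y)).const_mul _)
    convert h1 using 1
    simp
    ring
  rw [intervalIntegral.integral_eq_sub_of_hasDerivAt h
    ((dens_continuous b).intervalIntegrable _ _)]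
  unfold Fm; ring

theorem map_Qm_volume {b : ℝ} (hb : b = 0 ∨ b = 1) :
    (volume : Measure I).map (fun t : I => Qm b t) =
      ((volume : Measure I).map (fun t : I => (t : ℝ))).withDensity
        (fun y => ENNReal.ofReal (dens b y)) := by
  have hbm := mem01 hb
  have hQ : Measurable (fun t : I => Qm b t) :=
    Qm_measurable.comp (measurable_const.prodMk measurable_subtype_coe)
  rw [unitInterval.measurePreserving_coe.map_eq]
  haveI : IsProbabilityMeasure ((volume : Measure I).map (fun t : I => Qm b t)) :=
    isProbabilityMeasure_map hQ.aemeasurable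
  apply Measure.ext_of_Iic
  intro a
  rw [map_apply hQ measurableSet_Iic, withDensity_apply _ measurableSet_Iic,
    Measure.restrict_restrict measurableSet_Iic]
  by_cases ha : a < 0
  · have h1 : (fun t : I => Qm b t) ⁻¹' Iic a = ∅ := by
      ext t
      simp only [mem_preimage, mem_Iic, mem_empty_iff_false, iff_false, not_le]
      have := (Qm_mem hbm t.2).1
      linarith
    have h2 : Iic a ∩ (I : Set ℝ) = ∅ := by
      ext t
      simp only [mem_inter_iff, mem_Iic, mem_empty_iff_false, iff_false, not_and]
      intro h3 h4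
      have := h4.1
      linarith
    rw [h1, h2]
    simp
  · push Not at ha
    set a' := min a 1 with ha'
    have ha'm : a' ∈ Icc (0 : ℝ) 1 := ⟨le_min ha zero_le_one, min_le_right _ _⟩
    have h1 : (fun t : I => Qm b t) ⁻¹' Iic a = {t : I | (t : ℝ) ≤ Fm b a'} := by
      ext t
      simp only [mem_preimage, mem_Iic, mem_ofPred_eq]
      rw [← Qm_le_iff hbm t.2 ha'm, ha', le_min_iff]
      have := (Qm_mem hbm t.2).2
      tauto
    have h2 : Iic a ∩ (I : Set ℝ) = Icc 0 a' := by
      ext t
      simp only [mem_inter_iff, mem_Iic, mem_Icc, ha', le_min_iff]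
      constructor
      · rintro ⟨h3, h4⟩; exact ⟨h4.1, h3, h4.2⟩
      · rintro ⟨h3, h4, h5⟩; exact ⟨h4, h3, h5⟩
    rw [h1, h2, volume_le_real (Fm_mem hbm ha'm), ← integral_dens b a',
      intervalIntegral.integral_of_le ha'm.1, ← integral_Icc_eq_integral_Ioc,
      ofReal_integral_eq_lintegral_ofReal]
    · exact (dens_continuous b).continuousOn.integrableOn_Icc
    · rw [Filter.EventuallyLE, ae_restrict_iff' measurableSet_Icc]
      filter_upwards with t ht
      exact (dens_pos hb ⟨ht.1, ht.2.trans ha'm.2⟩).le

theorem lintegral_Qm {b : ℝ} (hb : b = 0 ∨ b = 1) {ψ : ℝ → ENNReal} (hψ : Measurable ψ) :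
    ∫⁻ t : I, ψ (Qm b t) = ∫⁻ t : I, ψ t * ENNReal.ofReal (dens b t) := by
  have hQ : Measurable (fun t : I => Qm b t) :=
    Qm_measurable.comp (measurable_const.prodMk measurable_subtype_coe)
  have hd : Measurable (fun y : ℝ => ENNReal.ofReal (dens b y)) :=
    ENNReal.measurable_ofReal.comp (dens_continuous b).measurable
  rw [← lintegral_map hψ hQ, map_Qm_volume hb, lintegral_withDensity_eq_lintegral_mul _ hd hψ,
    lintegral_map (hd.mul hψ) measurable_subtype_coe]
  apply lintegral_congr
  intro t
  simp only [Pi.mul_apply]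
  ring

/-- clamp to the unit interval -/
noncomputable def toI (y : ℝ) : I := Set.projIcc 0 1 zero_le_one y

theorem toI_measurable : Measurable toI :=
  (continuous_projIcc (h := (zero_le_one : (0 : ℝ) ≤ 1))).measurable

theorem toI_coe {y : ℝ} (hy : y ∈ Icc (0 : ℝ) 1) : (toI y : ℝ) = y := by
  unfold toI
  rw [Set.projIcc_of_mem zero_le_one hy]

/-- Law of the uniformised observation. -/
noncomputable def phiW (b m : ℝ) (A : Set I) : ENNReal :=
  (volume : Measure I) {t : I | toI (Fm m (Qm b t)) ∈ A}

theorem phiW_mix {m : ℝ} (hm : m ∈ Icc (0 : ℝ) 1) {A : Set I} (hA : MeasurableSet A) :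
    ENNReal.ofReal (1 - m) * phiW 0 m A + ENNReal.ofReal m * phiW 1 m A =
      (volume : Measure I) A := by
  have hmeas : ∀ b : ℝ, Measurable (fun t : I => toI (Fm m (Qm b t))) := fun b =>
    toI_measurable.comp (Fm_continuous.measurable.comp (measurable_const.prodMk
      (Qm_measurable.comp (measurable_const.prodMk measurable_subtype_coe))))
  have key : ENNReal.ofReal (1 - m) • (volume : Measure I).map (fun t : I => toI (Fm m (Qm 0 t))) +
      ENNReal.ofReal m • (volume : Measure I).map (fun t : I => toI (Fm m (Qm 1 t))) =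
      (volume : Measure I) := by
    have hb : ∀ b : ℝ, (b = 0 ∨ b = 1) → ∀ a : I,
        (volume : Measure I).map (fun t : I => toI (Fm m (Qm b t))) (Iic a) =
          ENNReal.ofReal (Fm b (Qm m a)) := by
      intro b hb a
      have hbm := mem01 hb
      rw [map_apply (hmeas b) measurableSet_Iic]
      have : (fun t : I => toI (Fm m (Qm b t))) ⁻¹' Iic a = {t : I | (t : ℝ) ≤ Fm b (Qm m a)} := by
        ext t
        simp only [mem_preimage, mem_Iic, mem_ofPred_eq]
        rw [← Subtype.coe_le_coe, toI_coe (Fm_mem hm (Qm_mem hbm t.2)),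
          ← Qm_le_iff hbm t.2 (Qm_mem hm a.2)]
        conv_lhs => rw [← Fm_Qm hm a.2]
        exact Fm_lt_iff hm (Qm_mem hbm t.2) (Qm_mem hm a.2)
      rw [this, volume_le_real (Fm_mem hbm (Qm_mem hm a.2))]
    haveI : IsProbabilityMeasure ((volume : Measure I).map (fun t : I => toI (Fm m (Qm 0 t)))) :=
      isProbabilityMeasure_map (hmeas 0).aemeasurable
    haveI : IsProbabilityMeasure ((volume : Measure I).map (fun t : I => toI (Fm m (Qm 1 t)))) :=
      isProbabilityMeasure_map (hmeas 1).aemeasurable
    haveI : IsFiniteMeasure (ENNReal.ofReal (1 - m) •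
      (volume : Measure I).map (fun t : I => toI (Fm m (Qm 0 t)))) :=
      Measure.smul_finite _ ENNReal.ofReal_ne_top
    haveI : IsFiniteMeasure (ENNReal.ofReal m •
      (volume : Measure I).map (fun t : I => toI (Fm m (Qm 1 t)))) :=
      Measure.smul_finite _ ENNReal.ofReal_ne_top
    apply Measure.ext_of_Iic
    intro a
    rw [Measure.add_apply, Measure.smul_apply, Measure.smul_apply, hb 0 (Or.inl rfl),
      hb 1 (Or.inr rfl), smul_eq_mul, smul_eq_mul, ← ENNReal.ofReal_mul (by linarith [hm.2]),
      ← ENNReal.ofReal_mul hm.1, ← ENNReal.ofReal_add, Fm_mix, Fm_Qm hm a.2,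
      unitInterval.volume_Iic]
    · exact mul_nonneg (by linarith [hm.2]) (Fm_mem (mem01 (Or.inl rfl)) (Qm_mem hm a.2)).1
    · exact mul_nonneg hm.1 (Fm_mem (mem01 (Or.inr rfl)) (Qm_mem hm a.2)).1
  have h2 := congrArg (fun μ : Measure I => μ A) key
  simp only [Measure.add_apply, Measure.smul_apply, smul_eq_mul] at h2
  rw [map_apply (hmeas 0) hA, map_apply (hmeas 1) hA] at h2
  exact h2

end OneDim

end Crest.Agent.SRFactor
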