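import Mathlib
import Crest.Agent.SRFactor.FixPt
import Crest.Agent.SRFactor.Resample
import Crest.Agent.SRFactor.Lipschitz

set_option autoImplicit false
set_option linter.style.haveILetI false

open MeasureTheory Measure unitInterval Set

namespace Crest.Agent.SRFactor

set_option linter.unusedSectionVars false

variable {E : Type*} [DecidableEq E]

/-- cylinder probabilities as window weights -/
noncomputable def cylw (ν : Measure (E → Bool)) (B S : Finset E) : ℝ :=
  (ν {ω | ∀ i ∈ B, (ω i = true ↔ i ∈ S)}).toReal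

omit [DecidableEq E] in
theorem cyl_measurable (B S : Finset E) :
    MeasurableSet {ω : E → Bool | ∀ i ∈ B, (ω i = true ↔ i ∈ S)} := by
  have : {ω : E → Bool | ∀ i ∈ B, (ω i = true ↔ i ∈ S)} =
      ⋂ i ∈ B, {ω : E → Bool | (ω i = true ↔ i ∈ S)} := by
    ext ω; simp
  rw [this]
  refine Finset.measurableSet_biInter B (fun i _ => ?_)
  exact (show Measurable (fun ω : E → Bool => ω i) from measurable_pi_apply i)
    (MeasurableSet.of_discrete (s := {b : Bool | b = true ↔ i ∈ S}))

theorem lintegral_window (ν : Measure (E → Bool)) (B : Finset E) (F : Finset E → ENNReal) :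
    ∫⁻ ω, F (B.filter (fun i => ω i = true)) ∂ν =
      ∑ S ∈ B.powerset, ν {ω | ∀ i ∈ B, (ω i = true ↔ i ∈ S)} * F S := by
  have h1 : ∀ ω : E → Bool, F (B.filter (fun i => ω i = true)) =
      ∑ S ∈ B.powerset, ({ω : E → Bool | ∀ i ∈ B, (ω i = true ↔ i ∈ S)}).indicator
        (fun _ => F S) ω := by
    intro ω
    rw [Finset.sum_eq_single (B.filter (fun i => ω i = true))]
    · rw [indicator_of_mem]
      simp only [mem_ofPred_eq, Finset.mem_filter]
      intro i hi
      simp [hi]
    · intro S hS hne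
      rw [indicator_of_notMem]
      intro hmem
      simp only [mem_ofPred_eq] at hmem
      apply hne
      rw [Finset.mem_powerset] at hS
      ext i
      simp only [Finset.mem_filter]
      constructor
      · intro hi; exact ⟨hS hi, (hmem i (hS hi)).2 hi⟩
      · rintro ⟨hi, h2⟩; exact (hmem i hi).1 h2
    · intro h; exact absurd (Finset.mem_powerset.2 (Finset.filter_subset _ _)) h
  simp_rw [h1]
  rw [lintegral_finsetSum]
  · apply Finset.sum_congr rfl
    intro S _
    rw [lintegral_indicator_const (cyl_measurable B S), mul_comm]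
  · intro S _
    exact measurable_const.indicator (cyl_measurable B S)

/-- numerical value of a site -/
noncomputable def xr (ω : E → Bool) (v : E) : ℝ := if ω v then 1 else 0

omit [DecidableEq E] in
theorem xr01 (ω : E → Bool) (v : E) : xr ω v = 0 ∨ xr ω v = 1 := by
  unfold xr; split_ifs <;> simp

/-- field on the sites collected from a finite set of observations -/
noncomputable def hC (C : Finset (E × ℕ)) (y : E × ℕ → ℝ) : E → ℝ := fun i =>
  ∑ c ∈ C.filter (fun c => c.1 = i), ell (y c)

theorem hC_congr {C : Finset (E × ℕ)} {y y' : E × ℕ → ℝ} (h : ∀ c ∈ C, y c = y' c) :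
    hC C y = hC C y' := by
  funext i
  unfold hC
  apply Finset.sum_congr rfl
  intro c hc
  rw [h c (Finset.mem_filter.1 hc).1]

theorem prod_dens {C : Finset (E × ℕ)} {B : Finset E} (hCB : ∀ c ∈ C, c.1 ∈ B)
    {y : E × ℕ → ℝ} (hy : ∀ c ∈ C, y c ∈ Icc (0 : ℝ) 1) (ω : E → Bool) :
    ∏ c ∈ C, dens (xr ω c.1) (y c) = (∏ c ∈ C, dens 0 (y c)) *
      Real.exp (∑ i ∈ B.filter (fun i => ω i = true), hC C y i) := by
  have h1 : ∏ c ∈ C, dens (xr ω c.1) (y c) =
      ∏ c ∈ C, (dens 0 (y c) * Real.exp (xr ω c.1 * ell (y c))) :=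
    Finset.prod_congr rfl (fun c hc => dens_eq (xr01 ω c.1) (hy c hc))
  rw [h1, Finset.prod_mul_distrib]
  congr 1
  rw [← Real.exp_sum]
  congr 1
  rw [← Finset.sum_fiberwise_of_maps_to (g := fun c => c.1) (t := B) hCB, Finset.sum_filter]
  apply Finset.sum_congr rfl
  intro i _
  unfold hC
  split_ifs with h
  · apply Finset.sum_congr rfl
    intro c hc
    rw [(Finset.mem_filter.1 hc).2]
    simp [xr, h]
  · apply Finset.sum_eq_zero
    intro c hc
    rw [(Finset.mem_filter.1 hc).2]
    simp [xr, h]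

theorem cylw_nonneg (ν : Measure (E → Bool)) (B S : Finset E) : 0 ≤ cylw ν B S :=
  ENNReal.toReal_nonneg

theorem ofReal_cylw (ν : Measure (E → Bool)) [IsProbabilityMeasure ν] (B S : Finset E) :
    ENNReal.ofReal (cylw ν B S) = ν {ω | ∀ i ∈ B, (ω i = true ↔ i ∈ S)} :=
  ENNReal.ofReal_toReal (measure_ne_top _ _)

theorem sum_cylw (ν : Measure (E → Bool)) [IsProbabilityMeasure ν] (B : Finset E) :
    ∑ S ∈ B.powerset, cylw ν B S = 1 := by
  have h := lintegral_window ν B (fun _ => 1)
  simp only [lintegral_const, measure_univ, mul_one] at h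
  unfold cylw
  rw [← ENNReal.toReal_sum (fun S _ => measure_ne_top _ _), ← h]
  simp

theorem Zw_pos (ν : Measure (E → Bool)) [IsProbabilityMeasure ν] (B : Finset E) (h : E → ℝ) :
    0 < Zw B (cylw ν B) h := by
  unfold Zw
  have h1 := sum_cylw ν B
  have hex : ∃ S ∈ B.powerset, 0 < cylw ν B S := by
    by_contra hcon
    push Not at hcon
    have := Finset.sum_nonpos hcon
    linarith
  obtain ⟨S, hS, hpos⟩ := hex
  exact Finset.sum_pos' (fun S _ => mul_nonneg (cylw_nonneg ν B S) (Real.exp_pos _).le)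
    ⟨S, hS, mul_pos hpos (Real.exp_pos _)⟩

theorem Nw_nonneg (ν : Measure (E → Bool)) (B : Finset E) (v : E) (h : E → ℝ) :
    0 ≤ Nw B (cylw ν B) v h := by
  unfold Nw
  apply Finset.sum_nonneg
  intro S _
  split_ifs
  · exact mul_nonneg (cylw_nonneg ν B S) (Real.exp_pos _).le
  · exact le_rfl

theorem Nw_le_Zw (ν : Measure (E → Bool)) (B : Finset E) (v : E) (h : E → ℝ) :
    Nw B (cylw ν B) v h ≤ Zw B (cylw ν B) h := by
  unfold Nw Zw
  apply Finset.sum_le_sum
  intro S _
  split_ifs
  · exact le_rfl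
  · exact mul_nonneg (cylw_nonneg ν B S) (Real.exp_pos _).le

theorem postw_mem (ν : Measure (E → Bool)) [IsProbabilityMeasure ν] (B : Finset E) (v : E)
    (h : E → ℝ) : postw B (cylw ν B) v h ∈ Icc (0 : ℝ) 1 := by
  unfold postw
  exact ⟨div_nonneg (Nw_nonneg _ _ _ _) (Zw_pos ν B h).le,
    (div_le_one (Zw_pos ν B h)).2 (Nw_le_Zw _ _ _ _)⟩

theorem lintegral_Z (ν : Measure (E → Bool)) [IsProbabilityMeasure ν] (B : Finset E) (h : E → ℝ)
    (K : ℝ) (hK : 0 ≤ K) :
    ∫⁻ ω, ENNReal.ofReal (K * Real.exp (∑ i ∈ B.filter (fun i => ω i = true), h i)) ∂ν =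
      ENNReal.ofReal (K * Zw B (cylw ν B) h) := by
  rw [lintegral_window ν B (fun S => ENNReal.ofReal (K * Real.exp (∑ i ∈ S, h i)))]
  unfold Zw
  rw [Finset.mul_sum, ENNReal.ofReal_sum_of_nonneg]
  · apply Finset.sum_congr rfl
    intro S _
    rw [← ofReal_cylw, ← ENNReal.ofReal_mul (cylw_nonneg ν B S)]
    congr 1; ring
  · intro S _
    exact mul_nonneg hK (mul_nonneg (cylw_nonneg ν B S) (Real.exp_pos _).le)

theorem lintegral_N (ν : Measure (E → Bool)) [IsProbabilityMeasure ν] (B : Finset E) {v : E}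
    (hv : v ∈ B) (h : E → ℝ) (K : ℝ) (hK : 0 ≤ K) :
    ∫⁻ ω, ENNReal.ofReal (xr ω v) *
      ENNReal.ofReal (K * Real.exp (∑ i ∈ B.filter (fun i => ω i = true), h i)) ∂ν =
      ENNReal.ofReal (K * Nw B (cylw ν B) v h) := by
  have h1 : ∀ ω : E → Bool, ENNReal.ofReal (xr ω v) *
      ENNReal.ofReal (K * Real.exp (∑ i ∈ B.filter (fun i => ω i = true), h i)) =
      (fun S : Finset E => if v ∈ S then ENNReal.ofReal (K * Real.exp (∑ i ∈ S, h i)) else 0)
        (B.filter (fun i => ω i = true)) := by
    intro ω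
    by_cases hω : ω v = true
    · simp [xr, hω, hv]
    · simp [xr, hω]
  simp_rw [h1]
  rw [lintegral_window ν B
    (fun S : Finset E => if v ∈ S then ENNReal.ofReal (K * Real.exp (∑ i ∈ S, h i)) else 0)]
  unfold Nw
  rw [Finset.mul_sum, ENNReal.ofReal_sum_of_nonneg]
  · apply Finset.sum_congr rfl
    intro S _
    split_ifs
    · rw [← ofReal_cylw, ← ENNReal.ofReal_mul (cylw_nonneg ν B S)]
      congr 1; ring
    · simp
  · intro S _
    split_ifs
    · exact mul_nonneg hK (mul_nonneg (cylw_nonneg ν B S) (Real.exp_pos _).le)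
    · simp

/-- observation process -/
noncomputable def Yobs (x : E → Bool) (V : E × ℕ → I) : E × ℕ → ℝ := fun e =>
  Qm (xr x e.1) (V e)

omit [DecidableEq E] in
theorem Yobs_mem (x : E → Bool) (V : E × ℕ → I) (e : E × ℕ) : Yobs x V e ∈ Icc (0 : ℝ) 1 :=
  Qm_mem (mem01 (xr01 x e.1)) (V e).2

omit [DecidableEq E] in
theorem xr_measurable (v : E) : Measurable (fun x : E → Bool => xr x v) := by
  unfold xr
  exact Measurable.ite ((show Measurable (fun ω : E → Bool => ω v) from measurable_pi_apply v)
    (MeasurableSet.of_discrete (s := {true}))) measurable_const measurable_const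

omit [DecidableEq E] in
theorem Yobs_measurable :
    Measurable (fun p : (E → Bool) × (E × ℕ → I) => Yobs p.1 p.2) := by
  rw [measurable_pi_iff]
  intro e
  unfold Yobs
  exact Qm_measurable.comp (((xr_measurable e.1).comp measurable_fst).prodMk
    (measurable_subtype_coe.comp ((measurable_pi_apply e).comp measurable_snd)))

noncomputable abbrev Lab (E : Type*) : Measure (E × ℕ → I) := infinitePi (fun _ => (volume : Measure I))

/-- Change of variables for finitely many observations, for a fixed configuration. -/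
theorem lintegral_Yobs (x : E → Bool) (C : Finset (E × ℕ)) :
    ∀ (Ψ : (E × ℕ → ℝ) → ENNReal), Measurable Ψ →
    ∫⁻ V, Ψ (fun e => if e ∈ C then Yobs x V e else V e) ∂(Lab E) =
      ∫⁻ V, Ψ (fun e => (V e : ℝ)) * ∏ c ∈ C, ENNReal.ofReal (dens (xr x c.1) (V c)) ∂(Lab E) := by
  induction C using Finset.induction_on with
  | empty => intro Ψ _; simp
  | insert c C hc ih =>
    intro Ψ hΨ
    have hYm : Measurable (fun V : E × ℕ → I => (fun e => if e ∈ insert c C then Yobs x V e
        else (V e : ℝ))) := by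
      rw [measurable_pi_iff]
      intro e
      split_ifs
      · exact Qm_measurable.comp (measurable_const.prodMk
          (measurable_subtype_coe.comp (measurable_pi_apply e)))
      · exact measurable_subtype_coe.comp (measurable_pi_apply e)
    have hYm' : Measurable (fun V : E × ℕ → I => (fun e => if e ∈ C then Yobs x V e
        else (V e : ℝ))) := by
      rw [measurable_pi_iff]
      intro e
      split_ifs
      · exact Qm_measurable.comp (measurable_const.prodMk
          (measurable_subtype_coe.comp (measurable_pi_apply e)))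
      · exact measurable_subtype_coe.comp (measurable_pi_apply e)
    have hdm : Measurable (fun y : E × ℕ → ℝ => ENNReal.ofReal (dens (xr x c.1) (y c))) :=
      ENNReal.measurable_ofReal.comp ((dens_continuous _).measurable.comp (measurable_pi_apply c))
    obtain ⟨Φ2, hΦ2⟩ : ∃ Φ2 : (E × ℕ → ℝ) → ENNReal,
        Φ2 = fun y => Ψ y * ENNReal.ofReal (dens (xr x c.1) (y c)) := ⟨_, rfl⟩
    have hΨ2 : Measurable Φ2 := by rw [hΦ2]; exact hΨ.mul hdm
    rw [lintegral_resample (volume : Measure I) c (fun V : E × ℕ → I => Ψ (fun e =>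
      if e ∈ insert c C then Yobs x V e else (V e : ℝ))) (hΨ.comp hYm)]
    have step1 : ∀ V : E × ℕ → I,
        ∫⁻ t : I, Ψ (fun e => if e ∈ insert c C then Yobs x (Function.update V c t) e
          else ((Function.update V c t) e : ℝ)) =
        ∫⁻ t : I, Φ2 (fun e => if e ∈ C then Yobs x (Function.update V c t) e
            else ((Function.update V c t) e : ℝ)) := by
      intro V
      set base : E × ℕ → ℝ := fun e => if e ∈ C then Yobs x V e else (V e : ℝ) with hbase
      have e1 : ∀ t : I, (fun e => if e ∈ insert c C then Yobs x (Function.update V c t) e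
          else ((Function.update V c t) e : ℝ)) = Function.update base c (Qm (xr x c.1) t) := by
        intro t
        funext e
        by_cases hec : e = c
        · subst hec
          simp [Yobs]
        · rw [Function.update_of_ne hec (Qm (xr x c.1) t) base]
          simp only [Finset.mem_insert, hec, false_or, hbase, Yobs]
          rw [Function.update_of_ne hec t V]
      have e2 : ∀ t : I, (fun e => if e ∈ C then Yobs x (Function.update V c t) e
          else ((Function.update V c t) e : ℝ)) = Function.update base c (t : ℝ) := by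
        intro t
        funext e
        by_cases hec : e = c
        · subst hec
          simp [hc]
        · rw [Function.update_of_ne hec (t : ℝ) base]
          simp only [hbase, Yobs]
          rw [Function.update_of_ne hec t V]
      simp_rw [e1, e2]
      have hum : Measurable (fun s : ℝ => Function.update base c s) := by
        rw [measurable_pi_iff]
        intro e
        by_cases hec : e = c
        · subst hec; simp only [Function.update_self]; exact measurable_id
        · simp only [Function.update_of_ne hec]; exact measurable_const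
      have h5 := lintegral_Qm (xr01 x c.1) (hΨ.comp hum)
      simp only [Function.comp_def] at h5
      rw [h5]
      apply lintegral_congr
      intro t
      simp [hΦ2]
    simp_rw [step1]
    have h3 := lintegral_resample (volume : Measure I) c (fun V : E × ℕ → I =>
      Φ2 (fun e => if e ∈ C then Yobs x V e else (V e : ℝ))) (hΨ2.comp hYm')
    rw [← h3, ih _ hΨ2]
    apply lintegral_congr
    intro V
    rw [Finset.prod_insert hc, hΦ2]
    ring

/-- Change of variables, for functions depending on finitely many observations. -/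
theorem lintegral_Yobs' (x : E → Bool) (C : Finset (E × ℕ)) (Ψ : (E × ℕ → ℝ) → ENNReal)
    (hΨ : Measurable Ψ) (hdep : ∀ y y', (∀ c ∈ C, y c = y' c) → Ψ y = Ψ y') :
    ∫⁻ V, Ψ (Yobs x V) ∂(Lab E) =
      ∫⁻ V, Ψ (fun e => (V e : ℝ)) * ∏ c ∈ C, ENNReal.ofReal (dens (xr x c.1) (V c)) ∂(Lab E) := by
  rw [← lintegral_Yobs x C Ψ hΨ]
  apply lintegral_congr
  intro V
  apply hdep
  intro c hc
  simp [hc]

theorem postw_measurable (B : Finset E) (c : Finset E → ℝ) (v : E) :
    Measurable (fun h : E → ℝ => postw B c v h) := by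
  unfold postw Nw Zw
  apply Measurable.div
  · apply Finset.measurable_sum
    intro S _
    split_ifs
    · exact measurable_const.mul (Real.measurable_exp.comp
        (Finset.measurable_sum _ (fun i _ => measurable_pi_apply i)))
    · exact measurable_const
  · apply Finset.measurable_sum
    intro S _
    exact measurable_const.mul (Real.measurable_exp.comp
        (Finset.measurable_sum _ (fun i _ => measurable_pi_apply i)))

theorem hC_measurable (C : Finset (E × ℕ)) : Measurable (fun y : E × ℕ → ℝ => hC C y) := by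
  rw [measurable_pi_iff]
  intro i
  unfold hC
  exact Finset.measurable_sum _ (fun c _ => ell_measurable.comp (measurable_pi_apply c))

/-- joint density of finitely many observations -/
noncomputable def Dp (C : Finset (E × ℕ)) (x : E → Bool) (V : E × ℕ → I) : ENNReal :=
  ∏ c ∈ C, ENNReal.ofReal (dens (xr x c.1) (V c))

omit [DecidableEq E] in
theorem Dp_measurable (C : Finset (E × ℕ)) :
    Measurable (fun p : (E → Bool) × (E × ℕ → I) => Dp C p.1 p.2) := by
  unfold Dp
  apply Finset.measurable_prod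
  intro c _
  apply ENNReal.measurable_ofReal.comp
  unfold dens
  have h1 : Measurable (fun p : (E → Bool) × (E × ℕ → I) => xr p.1 c.1) :=
    (xr_measurable c.1).comp measurable_fst
  have h2 : Measurable (fun p : (E → Bool) × (E × ℕ → I) => ((p.2 c : I) : ℝ)) :=
    measurable_subtype_coe.comp ((measurable_pi_apply c).comp measurable_snd)
  fun_prop

omit [DecidableEq E] in
theorem Dp_measurable_right (C : Finset (E × ℕ)) (x : E → Bool) :
    Measurable (fun V : E × ℕ → I => Dp C x V) := by
  unfold Dp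
  apply Finset.measurable_prod
  intro c _
  apply ENNReal.measurable_ofReal.comp
  exact (dens_continuous _).measurable.comp
    (measurable_subtype_coe.comp (measurable_pi_apply c))

omit [DecidableEq E] in
theorem Dp_measurable_left (C : Finset (E × ℕ)) (V : E × ℕ → I) :
    Measurable (fun x : E → Bool => Dp C x V) := by
  unfold Dp
  apply Finset.measurable_prod
  intro c _
  apply ENNReal.measurable_ofReal.comp
  unfold dens
  have h1 := xr_measurable (E := E) c.1
  fun_prop

theorem Dp_eq {C : Finset (E × ℕ)} {B : Finset E} (hCB : ∀ c ∈ C, c.1 ∈ B)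
    (x : E → Bool) (V : E × ℕ → I) :
    Dp C x V = ENNReal.ofReal ((∏ c ∈ C, dens 0 (V c)) *
        Real.exp (∑ i ∈ B.filter (fun i => x i = true), hC C (fun e => (V e : ℝ)) i)) := by
  have hVm : ∀ c ∈ C, ((V c : I) : ℝ) ∈ Icc (0 : ℝ) 1 := fun c _ => (V c).2
  unfold Dp
  rw [← prod_dens (y := fun e => (V e : ℝ)) hCB hVm x, ENNReal.ofReal_prod_of_nonneg]
  intro c hc
  exact (dens_pos (xr01 x c.1) (hVm c hc)).le

omit [DecidableEq E] in
theorem coe_measurable : Measurable (fun V : E × ℕ → I => (fun e => (V e : ℝ))) := by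
  rw [measurable_pi_iff]
  intro e
  exact measurable_subtype_coe.comp (measurable_pi_apply e)

omit [DecidableEq E] in
theorem Yobs_measurable_right (x : E → Bool) :
    Measurable (fun V : E × ℕ → I => Yobs x V) := by
  rw [measurable_pi_iff]
  intro e
  unfold Yobs
  exact Qm_measurable.comp (measurable_const.prodMk
    (measurable_subtype_coe.comp (measurable_pi_apply e)))

/-- pointwise version, integrated over the configuration only -/
theorem bayes_pt (ν : Measure (E → Bool)) [IsProbabilityMeasure ν] {C : Finset (E × ℕ)}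
    {B : Finset E} (hCB : ∀ c ∈ C, c.1 ∈ B) {v : E} (hv : v ∈ B) (V : E × ℕ → I) :
    ∫⁻ x, ENNReal.ofReal (xr x v) * Dp C x V ∂ν =
      ENNReal.ofReal (postw B (cylw ν B) v (hC C (fun e => (V e : ℝ)))) * ∫⁻ x, Dp C x V ∂ν := by
  have hVm : ∀ c ∈ C, ((V c : I) : ℝ) ∈ Icc (0 : ℝ) 1 := fun c _ => (V c).2
  have hK : 0 ≤ ∏ c ∈ C, dens 0 (V c) :=
    Finset.prod_nonneg (fun c hc => (dens_pos (Or.inl rfl) (hVm c hc)).le)
  simp_rw [Dp_eq hCB]
  rw [lintegral_N ν B hv _ _ hK, lintegral_Z ν B _ _ hK]
  have hpost : Nw B (cylw ν B) v (hC C (fun e => (V e : ℝ))) =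
      postw B (cylw ν B) v (hC C (fun e => (V e : ℝ))) *
        Zw B (cylw ν B) (hC C (fun e => (V e : ℝ))) := by
    unfold postw
    rw [div_mul_cancel₀ _ (Zw_pos ν B _).ne']
  rw [hpost, mul_left_comm (∏ c ∈ C, dens 0 (V c)), ENNReal.ofReal_mul (postw_mem ν B v _).1]

theorem swap_Yobs (ν : Measure (E → Bool)) [IsProbabilityMeasure ν] (C : Finset (E × ℕ))
    (a : (E → Bool) → ENNReal) (ha : Measurable a) (Ψ : (E × ℕ → ℝ) → ENNReal)
    (hΨ : Measurable Ψ) (hdep : ∀ y y', (∀ c ∈ C, y c = y' c) → Ψ y = Ψ y') :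
    ∫⁻ p, a p.1 * Ψ (Yobs p.1 p.2) ∂(ν.prod (Lab E)) =
      ∫⁻ V, Ψ (fun e => (V e : ℝ)) * ∫⁻ x, a x * Dp C x V ∂ν ∂(Lab E) := by
  have hM : Measurable (fun p : (E → Bool) × (E × ℕ → I) => a p.1 * Ψ (Yobs p.1 p.2)) :=
    (ha.comp measurable_fst).mul (hΨ.comp Yobs_measurable)
  rw [lintegral_prod _ hM.aemeasurable]
  simp only
  have hL : ∀ x : E → Bool, ∫⁻ V, a x * Ψ (Yobs x V) ∂(Lab E) =
      ∫⁻ V, Ψ (fun e => (V e : ℝ)) * (a x * Dp C x V) ∂(Lab E) := by
    intro x
    have m1 : Measurable (fun V : E × ℕ → I => Ψ (Yobs x V)) :=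
      hΨ.comp (Yobs_measurable_right x)
    have m3 : Measurable (fun V : E × ℕ → I => Ψ (fun e => (V e : ℝ))) :=
      hΨ.comp coe_measurable
    have m4 : Measurable (fun V : E × ℕ → I => Ψ (fun e => (V e : ℝ)) * Dp C x V) :=
      m3.mul (Dp_measurable_right C x)
    rw [lintegral_const_mul (a x) m1, lintegral_Yobs' x C Ψ hΨ hdep]
    have := lintegral_const_mul (μ := Lab E) (a x) m4
    rw [show (∫⁻ V, Ψ (fun e => (V e : ℝ)) * ∏ c ∈ C, ENNReal.ofReal (dens (xr x c.1) (V c))
      ∂(Lab E)) = ∫⁻ V, Ψ (fun e => (V e : ℝ)) * Dp C x V ∂(Lab E) from rfl, ← this]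
    apply lintegral_congr
    intro V
    exact mul_left_comm _ _ _
  rw [lintegral_congr hL]
  have g1 : Measurable (fun p : (E → Bool) × (E × ℕ → I) => Ψ (fun e => (p.2 e : ℝ))) :=
    (hΨ.comp coe_measurable).comp measurable_snd
  have g2 : Measurable (fun p : (E → Bool) × (E × ℕ → I) => a p.1 * Dp C p.1 p.2) :=
    (ha.comp measurable_fst).mul (Dp_measurable C)
  have s1 := lintegral_lintegral_swap (μ := ν) (ν := Lab E) (f := fun x V =>
    Ψ (fun e => (V e : ℝ)) * (a x * Dp C x V))
    (g1.mul g2).aemeasurable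
  rw [s1]
  apply lintegral_congr
  intro V
  exact lintegral_const_mul (μ := ν) (Ψ (fun e => (V e : ℝ))) (ha.mul (Dp_measurable_left C V))

/-- **Bayes' formula.** -/
theorem bayes (ν : Measure (E → Bool)) [IsProbabilityMeasure ν] {C : Finset (E × ℕ)}
    {B : Finset E} (hCB : ∀ c ∈ C, c.1 ∈ B) {v : E} (hv : v ∈ B) (Ψ : (E × ℕ → ℝ) → ENNReal)
    (hΨ : Measurable Ψ) (hdep : ∀ y y', (∀ c ∈ C, y c = y' c) → Ψ y = Ψ y') :
    ∫⁻ p, ENNReal.ofReal (xr p.1 v) * Ψ (Yobs p.1 p.2) ∂(ν.prod (Lab E)) =
      ∫⁻ p, ENNReal.ofReal (postw B (cylw ν B) v (hC C (Yobs p.1 p.2))) * Ψ (Yobs p.1 p.2)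
        ∂(ν.prod (Lab E)) := by
  have h1 := swap_Yobs ν C (fun x => ENNReal.ofReal (xr x v))
    (ENNReal.measurable_ofReal.comp (xr_measurable v)) Ψ hΨ hdep
  have hΨ2 : Measurable (fun y : E × ℕ → ℝ =>
      ENNReal.ofReal (postw B (cylw ν B) v (hC C y)) * Ψ y) :=
    (ENNReal.measurable_ofReal.comp ((postw_measurable _ _ _).comp (hC_measurable C))).mul hΨ
  have h2 := swap_Yobs ν C (fun _ => 1) measurable_const
    (fun y => ENNReal.ofReal (postw B (cylw ν B) v (hC C y)) * Ψ y) hΨ2
    (by
      intro y y' h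
      rw [hdep y y' h, hC_congr h])
  simp only [one_mul] at h2
  rw [h1, h2]
  apply lintegral_congr
  intro V
  rw [bayes_pt ν hCB hv V]
  ring

end Crest.Agent.SRFactor
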