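import Mathlib
import Crest.Agent.SRFactor.Lipschitz

set_option autoImplicit false

namespace Crest.Agent.SRFactor

variable {ι κ : Type*} [DecidableEq ι] [DecidableEq κ]

/-- transport of windows along an injective relabelling -/
theorem sum_powerset_image {B : Finset ι} {j : ι → κ} (hj : Function.Injective j)
    (F : Finset κ → ℝ) :
    ∑ S ∈ (B.image j).powerset, F S = ∑ S ∈ B.powerset, F (S.image j) := by
  symm
  apply Finset.sum_bij (fun S _ => S.image j)
  · intro S hS
    rw [Finset.mem_powerset] at hS ⊢
    exact Finset.image_subset_image hS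
  · intro S _ S' _ h
    exact Finset.image_injective hj h
  · intro S hS
    rw [Finset.mem_powerset] at hS
    obtain ⟨S', hS', h⟩ := Finset.subset_image_iff.1 hS
    exact ⟨S', Finset.mem_powerset.2 (by exact_mod_cast hS'), h⟩
  · intro S _
    rfl

theorem postw_map {B : Finset ι} {j : ι → κ} (hj : Function.Injective j) {c : Finset ι → ℝ}
    {c' : Finset κ → ℝ} (hc : ∀ S ∈ B.powerset, c' (S.image j) = c S) (v : ι) (h : κ → ℝ) :
    postw B c v (fun x => h (j x)) = postw (B.image j) c' (j v) h := by
  have hN : Nw B c v (fun x => h (j x)) = Nw (B.image j) c' (j v) h := by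
    unfold Nw
    rw [sum_powerset_image hj]
    apply Finset.sum_congr rfl
    intro S hS
    rw [hc S hS, Finset.sum_image (fun a _ b _ hab => hj hab)]
    by_cases hv : v ∈ S
    · rw [if_pos hv, if_pos (Finset.mem_image_of_mem j hv)]
    · rw [if_neg hv, if_neg (fun h' => hv ((Function.Injective.mem_finset_image hj).1 h'))]
  have hZ : Zw B c (fun x => h (j x)) = Zw (B.image j) c' h := by
    unfold Zw
    rw [sum_powerset_image hj]
    apply Finset.sum_congr rfl
    intro S hS
    rw [hc S hS, Finset.sum_image (fun a _ b _ hab => hj hab)]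
  unfold postw
  rw [hN, hZ]

end Crest.Agent.SRFactor
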