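import Mathlib
import Crest.Prelude.Def_SpanningTrees
import Crest.Prelude.Def_GraphTables
import Crest.Agent.SpTree.Basic
import Crest.Agent.SRFactor.MapWindow
import Crest.Agent.SRFactor.Bayes

set_option autoImplicit false
set_option linter.style.haveILetI false
set_option linter.unusedSectionVars false

open MeasureTheory Set Filter Topology Crest.ProbabilityR.SpanningTrees Crest.ProbabilityR.GraphTables

namespace Crest.Agent.SRFactor

/-- vertices at distance at most `n` from the pair `e` -/
def reach (G : SimpleGraph ℕ) (e : Sym2 ℕ) : ℕ → Set ℕ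
  | 0 => {v | v ∈ e}
  | n + 1 => {v | v ∈ reach G e n ∨ ∃ u, u ∈ reach G e n ∧ G.Adj u v}

open Classical in
/-- the ball, when finite -/
noncomputable def bf (G : SimpleGraph ℕ) (e : Sym2 ℕ) (n : ℕ) : Finset ℕ :=
  if h : (reach G e n).Finite then h.toFinset else ∅

open Classical in
/-- indicator of spanning trees -/
noncomputable def treew (K : Finset ℕ) (S : Finset (Sym2 ℕ)) : ℝ :=
  if ((SimpleGraph.fromEdgeSet (S : Set (Sym2 ℕ))).induce (K : Set ℕ)).IsTree then 1 else 0

/-- finite volume posterior -/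
noncomputable def postFin (d : Finset ℕ × Finset (Sym2 ℕ) × Finset (Sym2 ℕ)) (e : Sym2 ℕ)
    (h : Sym2 ℕ → ℝ) : ℝ :=
  postw d.2.1 (treew d.1) e ((d.2.2 : Set (Sym2 ℕ)).indicator h)

/-- combinatorial data -/
noncomputable def datum (G : SimpleGraph ℕ) (e : Sym2 ℕ) (R n : ℕ) :
    Finset ℕ × Finset (Sym2 ℕ) × Finset (Sym2 ℕ) :=
  (bf G e n, edgesIn G (bf G e n), edgesIn G (bf G e R))

/-- the limit posterior functional of a graph -/
noncomputable def mG (G : SimpleGraph ℕ) (h : Sym2 ℕ → ℝ) (e : Sym2 ℕ) : ℝ :=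
  limsup (fun R => limsup (fun n => postFin (datum G e R n) e h) atTop) atTop

section Measurability

theorem postFin_measurable (d : Finset ℕ × Finset (Sym2 ℕ) × Finset (Sym2 ℕ)) (e : Sym2 ℕ) :
    Measurable (postFin d e) := by
  unfold postFin
  apply (postw_measurable _ _ _).comp
  rw [measurable_pi_iff]
  intro i
  by_cases hi : i ∈ (d.2.2 : Set (Sym2 ℕ))
  · simp only [indicator_of_mem hi]; exact measurable_pi_apply i
  · simp only [indicator_of_notMem hi]; exact measurable_const

theorem measurable_of_fibers {P D H Y : Type*} [MeasurableSpace P] [Countable D]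
    [MeasurableSpace H] [MeasurableSpace Y] (d : P → D) (hd : ∀ a, MeasurableSet {p | d p = a})
    (F : D → H → Y) (hF : ∀ a, Measurable (F a)) :
    Measurable (fun q : P × H => F (d q.1) q.2) := by
  intro S hS
  have : (fun q : P × H => F (d q.1) q.2) ⁻¹' S =
      ⋃ a : D, {p | d p = a} ×ˢ (F a ⁻¹' S) := by
    ext ⟨p, h⟩
    simp only [mem_preimage, mem_iUnion, mem_prod, mem_ofPred_eq]
    constructor
    · intro hh; exact ⟨d p, rfl, hh⟩
    · rintro ⟨a, ha, hh⟩; rw [ha]; exact hh
  rw [this]
  exact MeasurableSet.iUnion (fun a => (hd a).prod (hF a hS))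

theorem adj_measurable (i j : ℕ) :
    MeasurableSet {A : ℕ → ℕ → Bool | (graphOfTable A).Adj i j} := by
  have h1 : ∀ i j : ℕ, MeasurableSet {A : ℕ → ℕ → Bool | A i j = true} := fun i j =>
    (show Measurable (fun A : ℕ → ℕ → Bool => A i j) from
      (measurable_pi_apply j).comp (measurable_pi_apply i))
      (MeasurableSet.of_discrete (s := {b : Bool | b = true}))
  by_cases hij : i = j
  · subst hij
    have : {A : ℕ → ℕ → Bool | (graphOfTable A).Adj i i} = ∅ := by
      ext A; simp
    rw [this]; exact MeasurableSet.empty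
  · have : {A : ℕ → ℕ → Bool | (graphOfTable A).Adj i j} =
        {A | A i j = true} ∪ {A | A j i = true} := by
      ext A
      simp [graphOfTable, hij]
    rw [this]
    exact (h1 i j).union (h1 j i)

theorem edgeSet_measurable (e : Sym2 ℕ) :
    MeasurableSet {A : ℕ → ℕ → Bool | e ∈ (graphOfTable A).edgeSet} := by
  induction e with
  | _ a b => exact adj_measurable a b

theorem reach_measurable (e : Sym2 ℕ) (n v : ℕ) :
    MeasurableSet {A : ℕ → ℕ → Bool | v ∈ reach (graphOfTable A) e n} := by
  induction n generalizing v with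
  | zero => exact MeasurableSet.const _
  | succ n ih =>
    have : {A : ℕ → ℕ → Bool | v ∈ reach (graphOfTable A) e (n + 1)} =
        {A | v ∈ reach (graphOfTable A) e n} ∪
          ⋃ u : ℕ, ({A | u ∈ reach (graphOfTable A) e n} ∩ {A | (graphOfTable A).Adj u v}) := by
      ext A
      simp only [reach, mem_ofPred_eq, mem_union, mem_iUnion, mem_inter_iff]
    rw [this]
    exact (ih v).union (MeasurableSet.iUnion (fun u => (ih u).inter (adj_measurable u v)))

theorem measurableSet_iff_const {P : Type*} [MeasurableSpace P] {p : P → Prop}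
    (hp : MeasurableSet {x | p x}) (q : Prop) : MeasurableSet {x | p x ↔ q} := by
  by_cases hq : q
  · simp only [hq, iff_true]; exact hp
  · simp only [hq, iff_false]; exact hp.compl

theorem bf_measurable (e : Sym2 ℕ) (n : ℕ) (K : Finset ℕ) :
    MeasurableSet {A : ℕ → ℕ → Bool | bf (graphOfTable A) e n = K} := by
  have key : ∀ K : Finset ℕ, MeasurableSet {A : ℕ → ℕ → Bool |
      ∀ v, v ∈ reach (graphOfTable A) e n ↔ v ∈ K} := by
    intro K
    have : {A : ℕ → ℕ → Bool | ∀ v, v ∈ reach (graphOfTable A) e n ↔ v ∈ K} =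
        ⋂ v : ℕ, {A | v ∈ reach (graphOfTable A) e n ↔ v ∈ K} := by
      ext A; simp
    rw [this]
    exact MeasurableSet.iInter (fun v => measurableSet_iff_const (reach_measurable e n v) _)
  have hK : ∀ (G : SimpleGraph ℕ) (K : Finset ℕ), K.Nonempty →
      (bf G e n = K ↔ ∀ v, v ∈ reach G e n ↔ v ∈ K) := by
    intro G K hKn
    constructor
    · intro h v
      unfold bf at h
      split_ifs at h with hf
      · rw [← h]; simp
      · exact absurd h.symm hKn.ne_empty
    · intro h
      have hset : reach G e n = (K : Set ℕ) := by ext v; exact h v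
      unfold bf
      rw [dif_pos (by rw [hset]; exact K.finite_toSet)]
      ext v
      simp [hset]
  by_cases hKn : K.Nonempty
  · simp only [hK _ K hKn]
    exact key K
  · rw [Finset.not_nonempty_iff_eq_empty] at hKn
    subst hKn
    have : {A : ℕ → ℕ → Bool | bf (graphOfTable A) e n = ∅} =
        (⋃ K : {K : Finset ℕ // K.Nonempty}, {A | bf (graphOfTable A) e n = K.1})ᶜ := by
      ext A
      simp only [mem_ofPred_eq, mem_compl_iff, mem_iUnion, not_exists]
      constructor
      · rintro h ⟨K, hK⟩ h'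
        simp only at h'
        rw [h] at h'
        exact hK.ne_empty h'.symm
      · intro h
        by_contra hne
        exact h ⟨_, Finset.nonempty_iff_ne_empty.2 hne⟩ rfl
    rw [this]
    apply MeasurableSet.compl
    apply MeasurableSet.iUnion
    rintro ⟨K, hKne⟩
    simp only [hK _ K hKne]
    exact key K

theorem edgesIn_measurable (K : Finset ℕ) (D : Finset (Sym2 ℕ)) :
    MeasurableSet {A : ℕ → ℕ → Bool | edgesIn (graphOfTable A) K = D} := by
  have : {A : ℕ → ℕ → Bool | edgesIn (graphOfTable A) K = D} =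
      ⋂ e : Sym2 ℕ, {A | e ∈ edgesIn (graphOfTable A) K ↔ e ∈ D} := by
    ext A
    simp only [mem_ofPred_eq, mem_iInter]
    exact Finset.ext_iff
  rw [this]
  refine MeasurableSet.iInter (fun e => measurableSet_iff_const ?_ _)
  simp only [Crest.Agent.SpTree.mem_edgesIn]
  exact (MeasurableSet.const _).inter (edgeSet_measurable e)

theorem edgesIn_bf_measurable (e : Sym2 ℕ) (n : ℕ) (D : Finset (Sym2 ℕ)) :
    MeasurableSet {A : ℕ → ℕ → Bool |
      edgesIn (graphOfTable A) (bf (graphOfTable A) e n) = D} := by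
  have : {A : ℕ → ℕ → Bool | edgesIn (graphOfTable A) (bf (graphOfTable A) e n) = D} =
      ⋃ K : Finset ℕ, ({A | bf (graphOfTable A) e n = K} ∩
        {A | edgesIn (graphOfTable A) K = D}) := by
    ext A
    simp only [mem_ofPred_eq, mem_iUnion, mem_inter_iff]
    constructor
    · intro h; exact ⟨_, rfl, h⟩
    · rintro ⟨K, rfl, h⟩; exact h
  rw [this]
  exact MeasurableSet.iUnion (fun K => (bf_measurable e n K).inter (edgesIn_measurable K D))

theorem datum_measurable (e : Sym2 ℕ) (R n : ℕ)
    (a : Finset ℕ × Finset (Sym2 ℕ) × Finset (Sym2 ℕ)) :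
    MeasurableSet {A : ℕ → ℕ → Bool | datum (graphOfTable A) e R n = a} := by
  obtain ⟨K, D, W⟩ := a
  have : {A : ℕ → ℕ → Bool | datum (graphOfTable A) e R n = (K, D, W)} =
      {A | bf (graphOfTable A) e n = K} ∩
      ({A | edgesIn (graphOfTable A) (bf (graphOfTable A) e n) = D} ∩
       {A | edgesIn (graphOfTable A) (bf (graphOfTable A) e R) = W}) := by
    ext A
    simp only [datum, mem_ofPred_eq, mem_inter_iff, Prod.mk.injEq]
  rw [this]
  exact (bf_measurable e n K).inter ((edgesIn_bf_measurable e n D).inter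
    (edgesIn_bf_measurable e R W))

theorem mG_measurable (e : Sym2 ℕ) :
    Measurable (fun q : (ℕ → ℕ → Bool) × (Sym2 ℕ → ℝ) => mG (graphOfTable q.1) q.2 e) := by
  haveI : Countable (Sym2 ℕ) := inferInstanceAs (Countable (Quot _))
  unfold mG
  apply Measurable.limsup
  intro R
  apply Measurable.limsup
  intro n
  exact measurable_of_fibers (fun A => datum (graphOfTable A) e R n) (datum_measurable e R n)
    (fun d => postFin d e) (fun d => postFin_measurable d e)

end Measurability

section Equivariance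

variable (σ : Equiv.Perm ℕ) (G : SimpleGraph ℕ)

theorem reach_comap (e : Sym2 ℕ) (n v : ℕ) :
    v ∈ reach (G.comap σ) e n ↔ σ v ∈ reach G (Sym2.map σ e) n := by
  induction n generalizing v with
  | zero =>
    simp only [reach, mem_ofPred_eq, Sym2.mem_map]
    constructor
    · intro h; exact ⟨v, h, rfl⟩
    · rintro ⟨w, hw, hwv⟩; rwa [← σ.injective hwv]
  | succ n ih =>
    simp only [reach, mem_ofPred_eq]
    rw [ih v]
    constructor
    · rintro (h | ⟨u, hu, hadj⟩)
      · exact Or.inl h
      · exact Or.inr ⟨σ u, (ih u).1 hu, hadj⟩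
    · rintro (h | ⟨u, hu, hadj⟩)
      · exact Or.inl h
      · refine Or.inr ⟨σ.symm u, (ih _).2 (by simpa using hu), ?_⟩
        simp only [SimpleGraph.comap_adj, Equiv.apply_symm_apply]
        exact hadj

theorem reach_image (e : Sym2 ℕ) (n : ℕ) :
    reach G (Sym2.map σ e) n = σ '' (reach (G.comap σ) e n) := by
  ext v
  rw [mem_image]
  constructor
  · intro h
    exact ⟨σ.symm v, (reach_comap σ G e n _).2 (by simpa using h), by simp⟩
  · rintro ⟨w, hw, rfl⟩
    exact (reach_comap σ G e n w).1 hw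

theorem bf_image (e : Sym2 ℕ) (n : ℕ) :
    bf G (Sym2.map σ e) n = (bf (G.comap σ) e n).image σ := by
  unfold bf
  have h1 : (reach G (Sym2.map σ e) n).Finite ↔ (reach (G.comap σ) e n).Finite := by
    rw [reach_image]
    exact Set.finite_image_iff (σ.injective.injOn)
  by_cases hf : (reach (G.comap σ) e n).Finite
  · rw [dif_pos hf, dif_pos (h1.2 hf)]
    ext v
    simp only [Finite.mem_toFinset, Finset.mem_image]
    rw [reach_image, mem_image]
  · rw [dif_neg hf, dif_neg (fun h => hf (h1.1 h))]
    simp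

theorem edgesIn_image (K : Finset ℕ) :
    edgesIn G (K.image σ) = (edgesIn (G.comap σ) K).image (Sym2.map σ) := by
  ext e
  rw [Crest.Agent.SpTree.mem_edgesIn, Finset.mem_image]
  constructor
  · rintro ⟨h1, h2⟩
    refine ⟨Sym2.map σ.symm e, ?_, ?_⟩
    · rw [Crest.Agent.SpTree.mem_edgesIn]
      constructor
      · intro v hv
        obtain ⟨w, hw, rfl⟩ := Sym2.mem_map.1 hv
        obtain ⟨a, ha, haw⟩ := Finset.mem_image.1 (h1 w hw)
        rw [← haw]
        simpa using ha
      · induction e with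
        | _ a b =>
          simp only [Sym2.map_mk, SimpleGraph.mem_edgeSet, SimpleGraph.comap_adj,
            Equiv.apply_symm_apply]
          exact h2
    · rw [Sym2.map_map]
      simp
  · rintro ⟨e', he', rfl⟩
    rw [Crest.Agent.SpTree.mem_edgesIn] at he'
    obtain ⟨h1, h2⟩ := he'
    constructor
    · intro v hv
      obtain ⟨w, hw, rfl⟩ := Sym2.mem_map.1 hv
      exact Finset.mem_image_of_mem _ (h1 w hw)
    · induction e' with
      | _ a b =>
        simp only [Sym2.map_mk, SimpleGraph.mem_edgeSet]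
        exact h2

theorem map_inj : Function.Injective (Sym2.map (σ : ℕ → ℕ)) := Sym2.map.injective σ.injective

theorem treew_image (K : Finset ℕ) (S : Finset (Sym2 ℕ)) :
    treew (K.image σ) (S.image (Sym2.map σ)) = treew K S := by
  have hiso : Nonempty (((SimpleGraph.fromEdgeSet (S : Set (Sym2 ℕ))).induce (K : Set ℕ)) ≃g
      ((SimpleGraph.fromEdgeSet ((S.image (Sym2.map σ) : Finset (Sym2 ℕ)) : Set (Sym2 ℕ))).induce
        ((K.image σ : Finset ℕ) : Set ℕ))) := by
    refine ⟨⟨Equiv.ofBijective (fun v : (K : Set ℕ) =>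
      (⟨σ v.1, by simpa using v.2⟩ : ((K.image σ : Finset ℕ) : Set ℕ))) ⟨?_, ?_⟩, ?_⟩⟩
    · intro a b h
      simp only [Subtype.mk.injEq] at h
      exact Subtype.ext (σ.injective h)
    · rintro ⟨v, hv⟩
      have hv' : v ∈ K.image σ := hv
      obtain ⟨w, hw, rfl⟩ := Finset.mem_image.1 hv'
      exact ⟨⟨w, hw⟩, rfl⟩
    · intro a b
      simp only [Equiv.ofBijective_apply, SimpleGraph.comap_adj, SimpleGraph.fromEdgeSet_adj,
        Function.Embedding.subtype_apply]
      constructor
      · rintro ⟨h1, h2⟩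
        refine ⟨?_, fun h => h2 (by rw [h])⟩
        have h3 : s(σ a.1, σ b.1) ∈ S.image (Sym2.map σ) := h1
        obtain ⟨e, he, hee⟩ := Finset.mem_image.1 h3
        rw [← Sym2.map_mk] at hee
        rwa [← map_inj σ hee]
      · rintro ⟨h1, h2⟩
        refine ⟨?_, fun h => h2 (σ.injective h)⟩
        have h3 : Sym2.map σ s(a.1, b.1) ∈ S.image (Sym2.map σ) :=
          Finset.mem_image_of_mem _ h1
        exact h3
  obtain ⟨f⟩ := hiso
  have h1 := f.isTree_iff
  unfold treew
  by_cases ht : ((SimpleGraph.fromEdgeSet (S : Set (Sym2 ℕ))).induce (K : Set ℕ)).IsTree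
  · rw [if_pos ht, if_pos (h1.1 ht)]
  · rw [if_neg ht, if_neg (fun h => ht (h1.2 h))]

theorem postFin_image (d : Finset ℕ × Finset (Sym2 ℕ) × Finset (Sym2 ℕ)) (e : Sym2 ℕ)
    (h : Sym2 ℕ → ℝ) :
    postFin (d.1.image σ, d.2.1.image (Sym2.map σ), d.2.2.image (Sym2.map σ)) (Sym2.map σ e) h =
      postFin d e (fun x => h (Sym2.map σ x)) := by
  unfold postFin
  rw [← postw_map (map_inj σ) (fun S _ => treew_image σ d.1 S) e]
  congr 1
  funext x
  by_cases hx : x ∈ (d.2.2 : Set (Sym2 ℕ))
  · have hx' : Sym2.map σ x ∈ ((d.2.2.image (Sym2.map σ) : Finset (Sym2 ℕ)) : Set (Sym2 ℕ)) :=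
      Finset.mem_image_of_mem _ hx
    rw [indicator_of_mem hx', indicator_of_mem hx]
  · have hx' : Sym2.map σ x ∉ ((d.2.2.image (Sym2.map σ) : Finset (Sym2 ℕ)) : Set (Sym2 ℕ)) := by
      intro hcon
      exact hx ((Function.Injective.mem_finset_image (map_inj σ)).1 (Finset.mem_coe.1 hcon))
    rw [indicator_of_notMem hx', indicator_of_notMem hx]

theorem mG_equiv (h : Sym2 ℕ → ℝ) (e : Sym2 ℕ) :
    mG (G.comap σ) (fun x => h (Sym2.map σ x)) e = mG G h (Sym2.map σ e) := by
  unfold mG
  congr 1
  funext R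
  congr 1
  funext n
  rw [← postFin_image σ]
  congr 1
  unfold datum
  rw [bf_image, bf_image, edgesIn_image, edgesIn_image]

end Equivariance

end Crest.Agent.SRFactor
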