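import Mathlib
import Crest.Agent.SpTree.Limit
import Crest.Agent.SRFactor.Functional

set_option autoImplicit false
set_option linter.style.haveILetI false
set_option linter.unusedSectionVars false

open MeasureTheory Set Filter Topology Crest.ProbabilityR.SpanningTrees

namespace Crest.Agent.SRFactor

instance countable_sym2 : Countable (Sym2 ℕ) := inferInstanceAs (Countable (Quot _))

open Classical in
/-- spanning trees of a finite piece -/
noncomputable def trees (G : SimpleGraph ℕ) (K : Finset ℕ) : Finset (Finset (Sym2 ℕ)) :=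
  (edgesIn G K).powerset.filter (fun A => IsSpanningTreeOn G K A)

theorem mem_trees {G : SimpleGraph ℕ} {K : Finset ℕ} {A : Finset (Sym2 ℕ)} :
    A ∈ trees G K ↔ IsSpanningTreeOn G K A := by
  classical
  unfold trees
  rw [Finset.mem_filter, Finset.mem_powerset]
  exact ⟨fun h => h.2, fun h => ⟨h.1, h⟩⟩

theorem trees_nonempty {G : SimpleGraph ℕ} {K : Finset ℕ}
    (hK : (G.induce (K : Set ℕ)).Connected) : (trees G K).Nonempty := by
  classical
  by_contra hcon
  rw [Finset.not_nonempty_iff_eq_empty] at hcon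
  apply Crest.Agent.SpTree.treePoly_ne_zero K hK (fun _ => Complex.I) (fun _ _ => by simp)
  have : (edgesIn G K).powerset.filter (fun A => IsSpanningTreeOn G K A) = ∅ := by
    rw [← hcon]
    unfold trees
    congr
  rw [this]
  simp

open Classical in
/-- indicator configuration of an edge set -/
noncomputable def indc (A : Finset (Sym2 ℕ)) : Sym2 ℕ → Bool := fun e => decide (e ∈ A)

theorem indc_eq_true {A : Finset (Sym2 ℕ)} {e : Sym2 ℕ} : indc A e = true ↔ e ∈ A := by
  unfold indc; simp

/-- law of the uniform spanning tree of a finite piece -/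
noncomputable def ustM (G : SimpleGraph ℕ) (K : Finset ℕ) : Measure (Sym2 ℕ → Bool) :=
  ((trees G K).card : ENNReal)⁻¹ • ∑ A ∈ trees G K, Measure.dirac (indc A)

open Classical in
theorem ustM_apply (G : SimpleGraph ℕ) (K : Finset ℕ) {C : Set (Sym2 ℕ → Bool)}
    (hC : MeasurableSet C) :
    ustM G K C = ((trees G K).card : ENNReal)⁻¹ *
      (((trees G K).filter (fun A => indc A ∈ C)).card : ENNReal) := by
  unfold ustM
  rw [Measure.smul_apply, Measure.finsetSum_apply, smul_eq_mul]
  congr 1
  rw [Finset.card_filter]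
  push_cast
  apply Finset.sum_congr rfl
  intro A _
  rw [Measure.dirac_apply' _ hC]
  by_cases h : indc A ∈ C
  · rw [indicator_of_mem h, if_pos h]; rfl
  · rw [indicator_of_notMem h, if_neg h]

theorem ustM_prob {G : SimpleGraph ℕ} {K : Finset ℕ} (hK : (G.induce (K : Set ℕ)).Connected) :
    IsProbabilityMeasure (ustM G K) := by
  constructor
  rw [ustM_apply G K MeasurableSet.univ]
  simp only [mem_univ, Finset.filter_true]
  apply ENNReal.inv_mul_cancel
  · have := (trees_nonempty hK).card_pos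
    simp only [ne_eq, Nat.cast_eq_zero]
    omega
  · exact ENNReal.natCast_ne_top _

/-- as a probability measure -/
noncomputable def ustP (G : SimpleGraph ℕ) (K : Finset ℕ)
    (hK : (G.induce (K : Set ℕ)).Connected) : ProbabilityMeasure (Sym2 ℕ → Bool) :=
  ⟨ustM G K, ustM_prob hK⟩

/-- the event that all edges of `F` are present -/
def inEv (F : Finset (Sym2 ℕ)) : Set (Sym2 ℕ → Bool) := {ω | ∀ e ∈ F, ω e = true}

theorem clopen_coord (e : Sym2 ℕ) (s : Set Bool) : IsClopen {ω : Sym2 ℕ → Bool | ω e ∈ s} :=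
  IsClopen.preimage (isClopen_discrete s) (continuous_apply e)

theorem clopen_inEv (F : Finset (Sym2 ℕ)) : IsClopen (inEv F) := by
  have : inEv F = ⋂ e ∈ F, {ω : Sym2 ℕ → Bool | ω e ∈ ({true} : Set Bool)} := by
    ext ω; simp [inEv]
  rw [this]
  exact isClopen_biInter_finset (fun e _ => clopen_coord e _)

theorem clopen_cyl (B S : Finset (Sym2 ℕ)) :
    IsClopen {ω : Sym2 ℕ → Bool | ∀ i ∈ B, (ω i = true ↔ i ∈ S)} := by
  have : {ω : Sym2 ℕ → Bool | ∀ i ∈ B, (ω i = true ↔ i ∈ S)} =
      ⋂ e ∈ B, {ω : Sym2 ℕ → Bool | ω e ∈ ({b : Bool | b = true ↔ e ∈ S})} := by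
    ext ω; simp
  rw [this]
  exact isClopen_biInter_finset (fun e _ => clopen_coord e _)

theorem ustM_inEv (G : SimpleGraph ℕ) (K : Finset ℕ) (F : Finset (Sym2 ℕ)) :
    (ustM G K (inEv F)).toReal = ustContains G K F := by
  classical
  rw [ustM_apply G K (clopen_inEv F).2.measurableSet, ENNReal.toReal_mul, ENNReal.toReal_inv,
    ENNReal.toReal_natCast, ENNReal.toReal_natCast]
  unfold ustContains
  rw [div_eq_inv_mul]
  have h1 : ((trees G K).filter (fun A => indc A ∈ inEv F)) =
      ((edgesIn G K).powerset.filter (fun A => IsSpanningTreeOn G K A ∧ F ⊆ A)) := by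
    ext A
    rw [Finset.mem_filter, Finset.mem_filter, mem_trees, Finset.mem_powerset]
    constructor
    · rintro ⟨h1, h2⟩
      exact ⟨h1.1, h1, fun e he => indc_eq_true.1 (h2 e he)⟩
    · rintro ⟨_, h1, h2⟩
      exact ⟨h1, fun e he => indc_eq_true.2 (h2 he)⟩
  have h2 : trees G K = (edgesIn G K).powerset.filter (fun A => IsSpanningTreeOn G K A) := by
    unfold trees
    congr
  rw [h1, h2]
  congr!

theorem ext_inEv {μ ν : Measure (Sym2 ℕ → Bool)} [IsProbabilityMeasure μ] [IsProbabilityMeasure ν]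
    (h : ∀ F : Finset (Sym2 ℕ), μ (inEv F) = ν (inEv F)) : μ = ν := by
  classical
  refine ext_of_generate_finite {s | ∃ F : Finset (Sym2 ℕ), s = inEv F} ?_ ?_ ?_ ?_
  · apply le_antisymm
    · have h1 : @Measurable _ _ (MeasurableSpace.generateFrom {s | ∃ F : Finset (Sym2 ℕ), s = inEv F})
          MeasurableSpace.pi (fun ω : Sym2 ℕ → Bool => ω) := by
        rw [@measurable_pi_iff]
        intro e
        apply measurable_to_bool
        apply MeasurableSpace.measurableSet_generateFrom
        refine ⟨{e}, ?_⟩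
        ext ω; simp [inEv]
      intro s hs
      exact h1 hs
    · apply MeasurableSpace.generateFrom_le
      rintro s ⟨F, rfl⟩
      exact (clopen_inEv F).2.measurableSet
  · rintro _ ⟨F, rfl⟩ _ ⟨F', rfl⟩ _
    refine ⟨F ∪ F', ?_⟩
    ext ω
    simp only [inEv, mem_inter_iff, mem_ofPred_eq, Finset.mem_union]
    constructor
    · rintro ⟨h1, h2⟩ e (he | he)
      · exact h1 e he
      · exact h2 e he
    · intro h1
      exact ⟨fun e he => h1 e (Or.inl he), fun e he => h1 e (Or.inr he)⟩
  · rintro _ ⟨F, rfl⟩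
    exact h F
  · simp

/-- exhaustions by connected finite pieces -/
structure Exh (G : SimpleGraph ℕ) (S : ℕ → Finset ℕ) : Prop where
  mono : Monotone S
  ex : ∀ v, ∃ n, v ∈ S n
  conn : ∀ n, (G.induce (S n : Set ℕ)).Connected

theorem exists_limit_inEv (G : SimpleGraph ℕ) (F : Finset (Sym2 ℕ)) :
    ∃ p : ℝ, ∀ S, Exh G S → Tendsto (fun n => ustContains G (S n) F) atTop (𝓝 p) := by
  by_cases hF : (↑F : Set (Sym2 ℕ)) ⊆ G.edgeSet
  · obtain ⟨p, hp⟩ := Crest.Agent.SpTree.exists_tendsto_ustContains F hF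
    exact ⟨p, fun S hS => hp S hS.mono hS.ex hS.conn⟩
  · refine ⟨0, fun S _ => ?_⟩
    have : (fun n => ustContains G (S n) F) = fun _ => 0 := by
      classical
      funext n
      rw [← ustM_inEv, ustM_apply G _ (clopen_inEv F).2.measurableSet]
      have h1 : ((trees G (S n)).filter (fun A => indc A ∈ inEv F)) = ∅ := by
        rw [Finset.filter_eq_empty_iff]
        intro A hA hcon
        apply hF
        intro e he
        have h2 : e ∈ A := indc_eq_true.1 (hcon e he)
        exact (Crest.Agent.SpTree.mem_edgesIn.1 ((mem_trees.1 hA).1 h2)).2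
      have h3 : (((trees G (S n)).filter (fun A => indc A ∈ inEv F)).card : ENNReal) = 0 := by
        rw [h1]; simp
      rw [h3]
      simp
    rw [this]
    exact tendsto_const_nhds

/-- The free uniform spanning forest measure. -/
theorem exists_fusf {G : SimpleGraph ℕ} {S₀ : ℕ → Finset ℕ} (hS₀ : Exh G S₀) :
    ∃ ν : ProbabilityMeasure (Sym2 ℕ → Bool), ∀ (S : ℕ → Finset ℕ) (hS : Exh G S),
      Tendsto (fun n => ustP G (S n) (hS.conn n)) atTop (𝓝 ν) := by
  choose p hp using exists_limit_inEv G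
  -- any ultrafilter limit has the prescribed inclusion probabilities
  have key : ∀ (S : ℕ → Finset ℕ) (hS : Exh G S) (g : Ultrafilter ℕ), (g : Filter ℕ) ≤ atTop →
      ∃ ν : ProbabilityMeasure (Sym2 ℕ → Bool),
        Tendsto (fun n => ustP G (S n) (hS.conn n)) g (𝓝 ν) ∧
        ∀ F, ((ν : Measure (Sym2 ℕ → Bool)) (inEv F)).toReal = p F := by
    intro S hS g hg
    obtain ⟨ν, -, hν⟩ := isCompact_univ.ultrafilter_le_nhds
      (g.map (fun n => ustP G (S n) (hS.conn n))) (by simp)
    have hν' : Tendsto (fun n => ustP G (S n) (hS.conn n)) g (𝓝 ν) := hν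
    refine ⟨ν, hν', fun F => ?_⟩
    have h1 := ProbabilityMeasure.tendsto_measure_of_isClopen_of_tendsto hν' (clopen_inEv F)
    have h2 : Tendsto (fun n => ustContains G (S n) F) g (𝓝 (p F)) := (hp F S hS).mono_left hg
    have h3 : Tendsto (fun n => ((ustP G (S n) (hS.conn n) (inEv F) : NNReal) : ℝ)) g
        (𝓝 ((ν (inEv F) : NNReal) : ℝ)) := (NNReal.continuous_coe.tendsto _).comp h1
    have h4 : (fun n => ((ustP G (S n) (hS.conn n) (inEv F) : NNReal) : ℝ)) =
        fun n => ustContains G (S n) F := by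
      funext n
      rw [← ustM_inEv]
      rfl
    rw [h4] at h3
    exact tendsto_nhds_unique h3 h2
  obtain ⟨ν, -, hν⟩ := key S₀ hS₀ (Ultrafilter.of atTop) (Ultrafilter.of_le atTop)
  refine ⟨ν, fun S hS => ?_⟩
  rw [tendsto_iff_ultrafilter]
  intro g hg
  obtain ⟨ν', hν', hν'2⟩ := key S hS g hg
  have : ν' = ν := by
    apply Subtype.ext
    haveI i1 : IsProbabilityMeasure ν'.1 := ν'.2
    haveI i2 : IsProbabilityMeasure ν.1 := ν.2
    apply ext_inEv
    intro F
    have h1 := (hν'2 F).trans (hν F).symm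
    exact (ENNReal.toReal_eq_toReal_iff' (measure_ne_top _ _) (measure_ne_top _ _)).1 h1
  rw [← this]
  exact hν'

end Crest.Agent.SRFactor
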