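import Mathlib
import Crest.Agent.SRFactor.Bayes

set_option autoImplicit false
set_option linter.style.haveILetI false
set_option linter.unusedSectionVars false

open MeasureTheory Measure unitInterval Set Filter Topology

namespace Crest.Agent.SRFactor

section General

/-- Bounded sequences at distance at most `D` have upper limits at distance at most `D`. -/
theorem limsup_lip {a b : ℕ → ℝ} {D : ℝ} (ha : ∀ n, a n ∈ Icc (0 : ℝ) 1)
    (hb : ∀ n, b n ∈ Icc (0 : ℝ) 1) (h : ∀ n, |a n - b n| ≤ D) :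
    |limsup a atTop - limsup b atTop| ≤ D := by
  have key : ∀ {a b : ℕ → ℝ}, (∀ n, a n ∈ Icc (0 : ℝ) 1) → (∀ n, b n ∈ Icc (0 : ℝ) 1) →
      (∀ n, |a n - b n| ≤ D) → limsup a atTop ≤ limsup b atTop + D := by
    intro a b ha hb h
    rw [← _root_.sub_le_iff_le_add]
    have hbb : IsBoundedUnder (· ≤ ·) atTop b := isBoundedUnder_of ⟨1, fun n => (hb n).2⟩
    have hac : IsCoboundedUnder (· ≤ ·) atTop a :=
      IsBoundedUnder.isCoboundedUnder_le (isBoundedUnder_of ⟨0, fun n => (ha n).1⟩)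
    apply le_of_forall_gt
    intro c hc
    rw [sub_lt_iff_lt_add]
    obtain ⟨c', hc'1, hc'2⟩ := exists_between hc
    have h1 := eventually_lt_of_limsup_lt hc'1 hbb
    refine lt_of_le_of_lt (limsup_le_of_le hac (h1.mono (fun n hn => ?_) :
      ∀ᶠ n in atTop, a n ≤ c' + D)) (by linarith)
    have := (abs_le.1 (h n)).2
    linarith
  rw [abs_le]
  have h1 := key ha hb h
  have h2 := key hb ha (fun n => by rw [abs_sub_comm]; exact h n)
  constructor <;> linarith

theorem limsup_mem {a : ℕ → ℝ} (ha : ∀ n, a n ∈ Icc (0 : ℝ) 1) :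
    limsup a atTop ∈ Icc (0 : ℝ) 1 := by
  have hab : IsBoundedUnder (· ≤ ·) atTop a := isBoundedUnder_of ⟨1, fun n => (ha n).2⟩
  have hac : IsCoboundedUnder (· ≤ ·) atTop a :=
      IsBoundedUnder.isCoboundedUnder_le (isBoundedUnder_of ⟨0, fun n => (ha n).1⟩)
  constructor
  · exact le_limsup_of_frequently_le (Eventually.frequently (Eventually.of_forall
      (fun n => (ha n).1))) hab
  · exact limsup_le_of_le hac (Eventually.of_forall (fun n => (ha n).2))

theorem transfer {Ω Ω' : Type*} [MeasurableSpace Ω] [MeasurableSpace Ω'] (μ : Measure Ω)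
    [IsProbabilityMeasure μ] {f g : Ω → ℝ} (hf : Measurable f) (hg : Measurable g)
    (hf01 : ∀ x, f x ∈ Icc (0 : ℝ) 1) (hg01 : ∀ x, g x ∈ Icc (0 : ℝ) 1)
    {Z : Ω → Ω'} (hZ : Measurable Z)
    (h : ∀ S : Set Ω', MeasurableSet S → ∫ x in Z ⁻¹' S, f x ∂μ = ∫ x in Z ⁻¹' S, g x ∂μ)
    {Φ : Ω' → ENNReal} (hΦ : Measurable Φ) :
    ∫⁻ x, ENNReal.ofReal (f x) * Φ (Z x) ∂μ = ∫⁻ x, ENNReal.ofReal (g x) * Φ (Z x) ∂μ := by
  have hfm : Measurable (fun x => ENNReal.ofReal (f x)) := ENNReal.measurable_ofReal.comp hf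
  have hgm : Measurable (fun x => ENNReal.ofReal (g x)) := ENNReal.measurable_ofReal.comp hg
  have hfi : Integrable f μ := Integrable.of_bound hf.aestronglyMeasurable 1
    (Eventually.of_forall (fun x => by
      rw [Real.norm_eq_abs, abs_of_nonneg (hf01 x).1]; exact (hf01 x).2))
  have hgi : Integrable g μ := Integrable.of_bound hg.aestronglyMeasurable 1
    (Eventually.of_forall (fun x => by
      rw [Real.norm_eq_abs, abs_of_nonneg (hg01 x).1]; exact (hg01 x).2))
  have hmap : (μ.withDensity (fun x => ENNReal.ofReal (f x))).map Z =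
      (μ.withDensity (fun x => ENNReal.ofReal (g x))).map Z := by
    ext S hS
    rw [map_apply hZ hS, map_apply hZ hS, withDensity_apply _ (hZ hS), withDensity_apply _ (hZ hS),
      ← ofReal_integral_eq_lintegral_ofReal hfi.integrableOn
        (Eventually.of_forall (fun x => (hf01 x).1)),
      ← ofReal_integral_eq_lintegral_ofReal hgi.integrableOn
        (Eventually.of_forall (fun x => (hg01 x).1)), h S hS]
  have h1 := lintegral_map (μ := μ.withDensity (fun x => ENNReal.ofReal (f x))) hΦ hZ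
  have h2 := lintegral_map (μ := μ.withDensity (fun x => ENNReal.ofReal (g x))) hΦ hZ
  have hΦZ : Measurable (fun x => Φ (Z x)) := hΦ.comp hZ
  rw [lintegral_withDensity_eq_lintegral_mul _ hfm hΦZ] at h1
  rw [lintegral_withDensity_eq_lintegral_mul _ hgm hΦZ] at h2
  simp only [Pi.mul_apply] at h1 h2
  rw [← h1, ← h2, hmap]

theorem setIntegral_of_lintegral {Ω : Type*} [MeasurableSpace Ω] (μ : Measure Ω)
    {f g : Ω → ℝ} (hf : Measurable f) (hg : Measurable g)
    (hf01 : ∀ x, f x ∈ Icc (0 : ℝ) 1) (hg01 : ∀ x, g x ∈ Icc (0 : ℝ) 1) (s : Set Ω)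
    (h : ∫⁻ x in s, ENNReal.ofReal (f x) ∂μ = ∫⁻ x in s, ENNReal.ofReal (g x) ∂μ) :
    ∫ x in s, f x ∂μ = ∫ x in s, g x ∂μ := by
  rw [integral_eq_lintegral_of_nonneg_ae (Eventually.of_forall (fun x => (hf01 x).1))
    hf.aestronglyMeasurable, integral_eq_lintegral_of_nonneg_ae
    (Eventually.of_forall (fun x => (hg01 x).1)) hg.aestronglyMeasurable, h]

end General

variable {E : Type*} [DecidableEq E]

theorem indicator_measurable (S : Set (E × ℕ)) :
    Measurable (fun y : E × ℕ → ℝ => S.indicator y) := by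
  rw [measurable_pi_iff]
  intro e
  by_cases h : e ∈ S
  · simp only [indicator_of_mem h]; exact measurable_pi_apply e
  · simp only [indicator_of_notMem h]; exact measurable_const

/-- limit posterior -/
noncomputable def mlim (ν : Measure (E → Bool)) (B : E → ℕ → Finset E) (h : E → ℝ) (v : E) : ℝ :=
  limsup (fun R => postw (B v R) (cylw ν (B v R)) v h) atTop

theorem mlim_mem (ν : Measure (E → Bool)) [IsProbabilityMeasure ν] (B : E → ℕ → Finset E)
    (h : E → ℝ) (v : E) : mlim ν B h v ∈ Icc (0 : ℝ) 1 :=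
  limsup_mem (fun R => postw_mem ν (B v R) v h)

theorem mlim_measurable (ν : Measure (E → Bool)) (B : E → ℕ → Finset E) (v : E) :
    Measurable (fun h : E → ℝ => mlim ν B h v) := by
  unfold mlim
  exact Measurable.limsup (fun R => postw_measurable _ _ _)

theorem goodM_mlim (ν : Measure (E → Bool)) [IsProbabilityMeasure ν] (B : E → ℕ → Finset E)
    (hlip : ∀ v R (h h' : E → ℝ) D, (∀ x, |h x - h' x| ≤ D) →
      |postw (B v R) (cylw ν (B v R)) v h - postw (B v R) (cylw ν (B v R)) v h'| ≤ D) :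
    GoodM (mlim ν B) where
  mem := mlim_mem ν B
  lip := fun h h' D v hD => limsup_lip (fun R => postw_mem ν (B v R) v h)
    (fun R => postw_mem ν (B v R) v h') (fun R => hlip v R h h' D hD)

/-- conditional expectation given finitely many observations -/
theorem condExp_window [Countable E] (ν : Measure (E → Bool)) [IsProbabilityMeasure ν]
    {C : Finset (E × ℕ)} {B : Finset E} (hCB : ∀ c ∈ C, c.1 ∈ B) {v : E} (hv : v ∈ B)
    (Z : (E → Bool) × (E × ℕ → I) → (E × ℕ → ℝ))
    (hZ : Z = fun p => (C : Set (E × ℕ)).indicator (Yobs p.1 p.2)) :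
    (fun p : (E → Bool) × (E × ℕ → I) => postw B (cylw ν B) v (hC C (Yobs p.1 p.2)))
      =ᵐ[ν.prod (Lab E)]
      (ν.prod (Lab E))[(fun p : (E → Bool) × (E × ℕ → I) => xr p.1 v) |
        MeasurableSpace.comap Z inferInstance] := by
  have hZm : Measurable Z := by
    rw [hZ]; exact (indicator_measurable _).comp Yobs_measurable
  have hxm : Measurable (fun p : (E → Bool) × (E × ℕ → I) => xr p.1 v) :=
    (xr_measurable v).comp measurable_fst
  have hpm : Measurable (fun p : (E → Bool) × (E × ℕ → I) =>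
      postw B (cylw ν B) v (hC C (Yobs p.1 p.2))) :=
    (postw_measurable _ _ _).comp ((hC_measurable C).comp Yobs_measurable)
  have hx01 : ∀ p : (E → Bool) × (E × ℕ → I), xr p.1 v ∈ Icc (0 : ℝ) 1 := fun p =>
    mem01 (xr01 p.1 v)
  have hp01 : ∀ p : (E → Bool) × (E × ℕ → I),
      postw B (cylw ν B) v (hC C (Yobs p.1 p.2)) ∈ Icc (0 : ℝ) 1 := fun p => postw_mem ν B v _
  have hle : MeasurableSpace.comap Z inferInstance ≤
      (inferInstance : MeasurableSpace ((E → Bool) × (E × ℕ → I))) := hZm.comap_le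
  apply ae_eq_condExp_of_forall_setIntegral_eq hle
  · exact Integrable.of_bound hxm.aestronglyMeasurable 1
      (Eventually.of_forall (fun x => by
        rw [Real.norm_eq_abs, abs_of_nonneg (hx01 x).1]; exact (hx01 x).2))
  · intro s _ _
    exact (Integrable.of_bound hpm.aestronglyMeasurable 1
      (Eventually.of_forall (fun x => by
        rw [Real.norm_eq_abs, abs_of_nonneg (hp01 x).1]; exact (hp01 x).2))).integrableOn
  · rintro s ⟨S, hS, rfl⟩ _
    apply setIntegral_of_lintegral _ hpm hxm hp01 hx01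
    have hb := bayes ν hCB hv (fun y => S.indicator (fun _ => (1 : ENNReal))
      ((C : Set (E × ℕ)).indicator y))
      ((measurable_const.indicator hS).comp (indicator_measurable _))
      (by
        intro y y' h
        congr 1
        funext e
        by_cases he : e ∈ (C : Set (E × ℕ))
        · rw [indicator_of_mem he, indicator_of_mem he, h e he]
        · rw [indicator_of_notMem he, indicator_of_notMem he])
    have hconv : ∀ f : (E → Bool) × (E × ℕ → I) → ENNReal,
        ∫⁻ p in Z ⁻¹' S, f p ∂(ν.prod (Lab E)) =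
        ∫⁻ p, f p * S.indicator (fun _ => (1 : ENNReal))
          ((C : Set (E × ℕ)).indicator (Yobs p.1 p.2)) ∂(ν.prod (Lab E)) := by
      intro f
      rw [← lintegral_indicator (hZm hS)]
      apply lintegral_congr
      intro p
      have hmem : p ∈ Z ⁻¹' S ↔ (C : Set (E × ℕ)).indicator (Yobs p.1 p.2) ∈ S := by
        rw [hZ]; rfl
      by_cases hp : (C : Set (E × ℕ)).indicator (Yobs p.1 p.2) ∈ S
      · rw [indicator_of_mem (hmem.2 hp), indicator_of_mem hp, mul_one]
      · rw [indicator_of_notMem (fun h => hp (hmem.1 h)), indicator_of_notMem hp, mul_zero]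
    rw [hconv, hconv, hb]
  · apply Measurable.aestronglyMeasurable
    have : (fun p : (E → Bool) × (E × ℕ → I) => postw B (cylw ν B) v (hC C (Yobs p.1 p.2))) =
        (fun y => postw B (cylw ν B) v (hC C y)) ∘ Z := by
      funext p
      rw [Function.comp, hZ]
      congr 1
      apply hC_congr
      intro c hc
      exact (indicator_of_mem (show c ∈ (C : Set (E × ℕ)) from hc) _).symm
    rw [this]
    exact ((postw_measurable _ _ _).comp (hC_measurable C)).comp (comap_measurable Z)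

theorem postw_congr {B : Finset E} {c : Finset E → ℝ} {v : E} {h h' : E → ℝ}
    (hh : ∀ i ∈ B, h i = h' i) : postw B c v h = postw B c v h' := by
  have hsum : ∀ S ∈ B.powerset, ∑ i ∈ S, h i = ∑ i ∈ S, h' i := by
    intro S hS
    exact Finset.sum_congr rfl (fun i hi => hh i (Finset.mem_powerset.1 hS hi))
  have hN : Nw B c v h = Nw B c v h' := by
    unfold Nw
    apply Finset.sum_congr rfl
    intro S hS
    rw [hsum S hS]
  have hZ : Zw B c h = Zw B c h' := by
    unfold Zw
    apply Finset.sum_congr rfl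
    intro S hS
    rw [hsum S hS]
  unfold postw
  rw [hN, hZ]

/-- observations in the strict past of `e` -/
def past (u : E × ℕ → ℝ) (e : E × ℕ) : Set (E × ℕ) :=
  {c | (c.2 : ℝ) + u c < (e.2 : ℝ) + u e}

/-- observations in the strict past of `e`, in a finite window -/
noncomputable def CR (u : E × ℕ → ℝ) (B : E → ℕ → Finset E) (e : E × ℕ) (R : ℕ) :
    Finset (E × ℕ) :=
  ((B e.1 R) ×ˢ Finset.range (e.2 + 1)).filter (fun c => (c.2 : ℝ) + u c < (e.2 : ℝ) + u e)

/-- truncated observation process -/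
noncomputable def Ztr (S : Set (E × ℕ)) (p : (E → Bool) × (E × ℕ → I)) : E × ℕ → ℝ :=
  S.indicator (Yobs p.1 p.2)

omit [DecidableEq E] in
theorem Ztr_measurable (S : Set (E × ℕ)) : Measurable (Ztr (E := E) S) := by
  classical
  exact (indicator_measurable S).comp Yobs_measurable

omit [DecidableEq E] in
theorem Ztr_comap_mono {S S' : Set (E × ℕ)} (h : S ⊆ S') :
    MeasurableSpace.comap (Ztr (E := E) S) inferInstance ≤
      MeasurableSpace.comap (Ztr (E := E) S') inferInstance := by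
  classical
  have h1 : Ztr (E := E) S = (fun y : E × ℕ → ℝ => S.indicator y) ∘ Ztr (E := E) S' := by
    funext p
    simp only [Ztr, Function.comp]
    rw [indicator_indicator, inter_eq_left.2 h]
  have h2 : Measurable[MeasurableSpace.comap (Ztr (E := E) S') inferInstance] (Ztr (E := E) S) := by
    rw [h1]
    exact (indicator_measurable S).comp (comap_measurable _)
  exact h2.comap_le

theorem hC_CR (u : E × ℕ → ℝ) (B : E → ℕ → Finset E) (e : E × ℕ) (R : ℕ) (y : E × ℕ → ℝ)
    {i : E} (hi : i ∈ B e.1 R) : hC (CR u B e R) y i = fieldAt u y e i := by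
  unfold hC fieldAt
  rw [← Finset.sum_filter]
  have h1 : (CR u B e R).filter (fun c => c.1 = i) =
      ((Finset.range (e.2 + 1)).filter
        (fun j : ℕ => (j : ℝ) + u (i, j) < (e.2 : ℝ) + u e)).image (fun j : ℕ => (i, j)) := by
    ext ⟨a, j⟩
    simp only [CR, Finset.mem_filter, Finset.mem_product, Finset.mem_image, Prod.mk.injEq]
    constructor
    · rintro ⟨⟨⟨_, h2⟩, h3⟩, rfl⟩
      exact ⟨j, ⟨h2, h3⟩, rfl, rfl⟩
    · rintro ⟨j', ⟨h2, h3⟩, rfl, rfl⟩
      exact ⟨⟨⟨hi, h2⟩, h3⟩, rfl⟩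
  rw [h1, Finset.sum_image]
  intro a _ b _ hab
  exact (Prod.mk.inj hab).2

omit [DecidableEq E] in
theorem fieldAt_indicator (u : E × ℕ → ℝ) (e : E × ℕ) (y : E × ℕ → ℝ) :
    fieldAt u ((past u e).indicator y) e = fieldAt u y e := by
  funext x
  unfold fieldAt
  apply Finset.sum_congr rfl
  intro j _
  split_ifs with h
  · rw [indicator_of_mem (show (x, j) ∈ past u e from h)]
  · rfl

theorem CR_mono (u : E × ℕ → ℝ) (B : E → ℕ → Finset E) (hmono : ∀ v, Monotone (B v)) (e : E × ℕ) :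
    Monotone (CR u B e) := by
  intro R R' hR c hc
  simp only [CR, Finset.mem_filter, Finset.mem_product] at hc ⊢
  exact ⟨⟨hmono e.1 hR hc.1.1, hc.1.2⟩, hc.2⟩

theorem CR_subset_past (u : E × ℕ → ℝ) (B : E → ℕ → Finset E) (e : E × ℕ) (R : ℕ) :
    (CR u B e R : Set (E × ℕ)) ⊆ past u e := by
  intro c hc
  exact (Finset.mem_filter.1 (Finset.mem_coe.1 hc)).2

theorem mem_CR_of_past (u : E × ℕ → ℝ) (hu : ∀ e, u e ∈ Icc (0 : ℝ) 1) (B : E → ℕ → Finset E)
    (hex : ∀ v i, ∃ R, i ∈ B v R) (e : E × ℕ) {c : E × ℕ} (hc : c ∈ past u e) :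
    ∃ R, c ∈ CR u B e R := by
  obtain ⟨R, hR⟩ := hex e.1 c.1
  refine ⟨R, ?_⟩
  have hc' : (c.2 : ℝ) + u c < (e.2 : ℝ) + u e := hc
  simp only [CR, Finset.mem_filter, Finset.mem_product, Finset.mem_range]
  refine ⟨⟨hR, ?_⟩, hc'⟩
  have h1 := (hu c).1
  have h2 := (hu e).2
  have : (c.2 : ℝ) < (e.2 : ℝ) + 1 := by linarith
  exact_mod_cast this

/-- filtration of observations in growing windows -/
noncomputable def Filt (u : E × ℕ → ℝ) (B : E → ℕ → Finset E) (hmono : ∀ v, Monotone (B v))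
    (e : E × ℕ) : Filtration ℕ (inferInstance : MeasurableSpace ((E → Bool) × (E × ℕ → I))) where
  seq := fun R => MeasurableSpace.comap (Ztr (E := E) (CR u B e R : Set (E × ℕ))) inferInstance
  mono' := fun _ _ h => Ztr_comap_mono (Finset.coe_subset.2 (CR_mono u B hmono e h))
  le' := fun _ => (Ztr_measurable _).comap_le

theorem iSup_Filt (u : E × ℕ → ℝ) (hu : ∀ e, u e ∈ Icc (0 : ℝ) 1) (B : E → ℕ → Finset E)
    (hmono : ∀ v, Monotone (B v)) (hex : ∀ v i, ∃ R, i ∈ B v R) (e : E × ℕ) :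
    ⨆ R, (Filt u B hmono e) R =
      MeasurableSpace.comap (Ztr (E := E) (past u e)) inferInstance := by
  apply le_antisymm
  · exact iSup_le (fun R => Ztr_comap_mono (CR_subset_past u B e R))
  · have h2 : Measurable[⨆ R, (Filt u B hmono e) R] (Ztr (E := E) (past u e)) := by
      rw [@measurable_pi_iff]
      intro c
      by_cases hc : c ∈ past u e
      · obtain ⟨R, hR⟩ := mem_CR_of_past u hu B hex e hc
        have h3 : (fun p => Ztr (E := E) (past u e) p c) =
            (fun y : E × ℕ → ℝ => y c) ∘ Ztr (E := E) (CR u B e R : Set (E × ℕ)) := by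
          funext p
          simp only [Ztr, Function.comp]
          rw [indicator_of_mem hc, indicator_of_mem (Finset.mem_coe.2 hR)]
        rw [h3]
        have h4 : Measurable[(Filt u B hmono e) R] (Ztr (E := E) (CR u B e R : Set (E × ℕ))) :=
          comap_measurable _
        exact (measurable_pi_apply c).comp (h4.mono (le_iSup (Filt u B hmono e) R) le_rfl)
      · have h3 : (fun p => Ztr (E := E) (past u e) p c) = fun _ => 0 := by
          funext p
          simp only [Ztr]
          rw [indicator_of_notMem hc]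
        rw [h3]
        exact measurable_const
    exact h2.comap_le

theorem mlim_ae_condExp [Countable E] (ν : Measure (E → Bool)) [IsProbabilityMeasure ν]
    (u : E × ℕ → ℝ) (hu : ∀ e, u e ∈ Icc (0 : ℝ) 1) (B : E → ℕ → Finset E)
    (hmem : ∀ v R, v ∈ B v R) (hmono : ∀ v, Monotone (B v)) (hex : ∀ v i, ∃ R, i ∈ B v R)
    (e : E × ℕ) :
    (fun p : (E → Bool) × (E × ℕ → I) => mlim ν B (fieldAt u (Yobs p.1 p.2) e) e.1)
      =ᵐ[ν.prod (Lab E)]
      (ν.prod (Lab E))[(fun p : (E → Bool) × (E × ℕ → I) => xr p.1 e.1) |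
        MeasurableSpace.comap (Ztr (E := E) (past u e)) inferInstance] := by
  have h1 := tendsto_ae_condExp (μ := ν.prod (Lab E)) (ℱ := Filt u B hmono e)
    (fun p : (E → Bool) × (E × ℕ → I) => xr p.1 e.1)
  rw [iSup_Filt u hu B hmono hex e] at h1
  have h2 : ∀ R, (fun p : (E → Bool) × (E × ℕ → I) =>
      postw (B e.1 R) (cylw ν (B e.1 R)) e.1 (hC (CR u B e R) (Yobs p.1 p.2)))
      =ᵐ[ν.prod (Lab E)] (ν.prod (Lab E))[(fun p : (E → Bool) × (E × ℕ → I) => xr p.1 e.1) |
        (Filt u B hmono e) R] := fun R =>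
    condExp_window ν (C := CR u B e R) (B := B e.1 R)
      (fun c hc => (Finset.mem_product.1 (Finset.mem_filter.1 hc).1).1) (hmem e.1 R)
      (Ztr (E := E) (CR u B e R : Set (E × ℕ))) rfl
  filter_upwards [h1, ae_all_iff.2 h2] with p hp1 hp2
  unfold mlim
  apply Tendsto.limsup_eq
  refine hp1.congr (fun R => ?_)
  rw [← hp2 R]
  apply postw_congr
  intro i hi
  exact hC_CR u B e R _ hi

/-- limit posterior at `e`, as a function of the observations -/
noncomputable def mm (ν : Measure (E → Bool)) (B : E → ℕ → Finset E) (u : E × ℕ → ℝ) (e : E × ℕ)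
    (y : E × ℕ → ℝ) : ℝ := mlim ν B (fieldAt u y e) e.1

theorem mm_measurable (ν : Measure (E → Bool)) (B : E → ℕ → Finset E) (u : E × ℕ → ℝ) (e : E × ℕ) :
    Measurable (mm ν B u e) := by
  unfold mm
  exact (mlim_measurable ν B e.1).comp (fieldAt_measurable (u := fun _ : E × ℕ → ℝ => u)
    (y := fun y => y) (fun _ => measurable_const) (fun e => measurable_pi_apply e) e)

theorem mm_mem (ν : Measure (E → Bool)) [IsProbabilityMeasure ν] (B : E → ℕ → Finset E)
    (u : E × ℕ → ℝ) (e : E × ℕ) (y : E × ℕ → ℝ) : mm ν B u e y ∈ Icc (0 : ℝ) 1 :=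
  mlim_mem ν B _ _

theorem mm_Ztr (ν : Measure (E → Bool)) (B : E → ℕ → Finset E) (u : E × ℕ → ℝ) (e : E × ℕ)
    (p : (E → Bool) × (E × ℕ → I)) :
    mm ν B u e (Ztr (past u e) p) = mm ν B u e (Yobs p.1 p.2) := by
  unfold mm Ztr
  rw [fieldAt_indicator]

section Ident

variable [Countable E] (ν : Measure (E → Bool)) [IsProbabilityMeasure ν]
    (u : E × ℕ → ℝ) (hu : ∀ e, u e ∈ Icc (0 : ℝ) 1) (B : E → ℕ → Finset E)
    (hmem : ∀ v R, v ∈ B v R) (hmono : ∀ v, Monotone (B v)) (hex : ∀ v i, ∃ R, i ∈ B v R)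
    (e : E × ℕ)

include hu hmem hmono hex

theorem setIntegral_mm (S : Set (E × ℕ → ℝ)) (hS : MeasurableSet S) :
    ∫ p in (Ztr (past u e)) ⁻¹' S, xr p.1 e.1 ∂(ν.prod (Lab E)) =
      ∫ p in (Ztr (past u e)) ⁻¹' S, mm ν B u e (Yobs p.1 p.2) ∂(ν.prod (Lab E)) := by
  have h1 := mlim_ae_condExp ν u hu B hmem hmono hex e
  have hle : MeasurableSpace.comap (Ztr (E := E) (past u e)) inferInstance ≤
      (inferInstance : MeasurableSpace ((E → Bool) × (E × ℕ → I))) := (Ztr_measurable _).comap_le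
  have hxm : Measurable (fun p : (E → Bool) × (E × ℕ → I) => xr p.1 e.1) :=
    (xr_measurable e.1).comp measurable_fst
  have hx01 : ∀ p : (E → Bool) × (E × ℕ → I), xr p.1 e.1 ∈ Icc (0 : ℝ) 1 := fun p =>
    mem01 (xr01 p.1 e.1)
  have hxi : Integrable (fun p : (E → Bool) × (E × ℕ → I) => xr p.1 e.1) (ν.prod (Lab E)) :=
    Integrable.of_bound hxm.aestronglyMeasurable 1
      (Eventually.of_forall (fun x => by
        rw [Real.norm_eq_abs, abs_of_nonneg (hx01 x).1]; exact (hx01 x).2))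
  rw [← setIntegral_condExp hle hxi ⟨S, hS, rfl⟩]
  apply setIntegral_congr_ae (Ztr_measurable _ hS)
  filter_upwards [h1] with p hp _
  rw [← hp]
  rfl

theorem cond_id1 {Φ : (E × ℕ → ℝ) → ENNReal} (hΦ : Measurable Φ) :
    ∫⁻ p, ENNReal.ofReal (xr p.1 e.1) * Φ (Ztr (past u e) p) ∂(ν.prod (Lab E)) =
      ∫⁻ p, ENNReal.ofReal (mm ν B u e (Yobs p.1 p.2)) * Φ (Ztr (past u e) p)
        ∂(ν.prod (Lab E)) :=
  transfer (ν.prod (Lab E)) (f := fun p : (E → Bool) × (E × ℕ → I) => xr p.1 e.1)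
    (g := fun p => mm ν B u e (Yobs p.1 p.2))
    ((xr_measurable e.1).comp measurable_fst) ((mm_measurable ν B u e).comp Yobs_measurable)
    (fun p => mem01 (xr01 p.1 e.1)) (fun _ => mm_mem ν B u e _) (Ztr_measurable (past u e))
    (fun S hS => setIntegral_mm ν u hu B hmem hmono hex e S hS) hΦ

theorem cond_id0 {Φ : (E × ℕ → ℝ) → ENNReal} (hΦ : Measurable Φ) :
    ∫⁻ p, ENNReal.ofReal (1 - xr p.1 e.1) * Φ (Ztr (past u e) p) ∂(ν.prod (Lab E)) =
      ∫⁻ p, ENNReal.ofReal (1 - mm ν B u e (Yobs p.1 p.2)) * Φ (Ztr (past u e) p)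
        ∂(ν.prod (Lab E)) := by
  have hxm : Measurable (fun p : (E → Bool) × (E × ℕ → I) => xr p.1 e.1) :=
    (xr_measurable e.1).comp measurable_fst
  have hmmm : Measurable (fun p : (E → Bool) × (E × ℕ → I) => mm ν B u e (Yobs p.1 p.2)) :=
    (mm_measurable ν B u e).comp Yobs_measurable
  have hx01 : ∀ p : (E → Bool) × (E × ℕ → I), xr p.1 e.1 ∈ Icc (0 : ℝ) 1 := fun p =>
    mem01 (xr01 p.1 e.1)
  have hm01 : ∀ p : (E → Bool) × (E × ℕ → I), mm ν B u e (Yobs p.1 p.2) ∈ Icc (0 : ℝ) 1 :=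
    fun p => mm_mem ν B u e _
  have hxi : Integrable (fun p : (E → Bool) × (E × ℕ → I) => xr p.1 e.1) (ν.prod (Lab E)) :=
    Integrable.of_bound hxm.aestronglyMeasurable 1
      (Eventually.of_forall (fun x => by
        rw [Real.norm_eq_abs, abs_of_nonneg (hx01 x).1]; exact (hx01 x).2))
  have hmi : Integrable (fun p : (E → Bool) × (E × ℕ → I) => mm ν B u e (Yobs p.1 p.2))
      (ν.prod (Lab E)) :=
    Integrable.of_bound hmmm.aestronglyMeasurable 1
      (Eventually.of_forall (fun x => by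
        rw [Real.norm_eq_abs, abs_of_nonneg (hm01 x).1]; exact (hm01 x).2))
  apply transfer (ν.prod (Lab E)) (f := fun p : (E → Bool) × (E × ℕ → I) => 1 - xr p.1 e.1)
    (g := fun p => 1 - mm ν B u e (Yobs p.1 p.2))
    (measurable_const.sub hxm) (measurable_const.sub hmmm)
    (fun p => ⟨by linarith [(hx01 p).2], by linarith [(hx01 p).1]⟩)
    (fun p => ⟨by linarith [(hm01 p).2], by linarith [(hm01 p).1]⟩) (Ztr_measurable (past u e))
    (fun S hS => ?_) hΦ
  rw [integral_sub (integrable_const _) hxi.integrableOn,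
    integral_sub (integrable_const _) hmi.integrableOn,
    setIntegral_mm ν u hu B hmem hmono hex e S hS]

end Ident

theorem phiW_measurable (b : ℝ) {A : Set I} (hA : MeasurableSet A) :
    Measurable (fun m : ℝ => phiW b m A) := by
  have h1 : Measurable (fun q : ℝ × I => toI (Fm q.1 (Qm b q.2))) :=
    toI_measurable.comp (Fm_continuous.measurable.comp (measurable_fst.prodMk
      (Qm_measurable.comp (measurable_const.prodMk
        (measurable_subtype_coe.comp measurable_snd)))))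
  have h2 := measurable_measure_prodMk_left (ν := (volume : Measure I)) (h1 hA)
  exact h2

theorem phiW_split {b : ℝ} (hb : b = 0 ∨ b = 1) (m : ℝ) (A : Set I) :
    phiW b m A = ENNReal.ofReal (1 - b) * phiW 0 m A + ENNReal.ofReal b * phiW 1 m A := by
  rcases hb with rfl | rfl <;> simp

/-- uniformised observation -/
noncomputable def Wof (ν : Measure (E → Bool)) (B : E → ℕ → Finset E) (u : E × ℕ → ℝ)
    (p : (E → Bool) × (E × ℕ → I)) (e : E × ℕ) : I :=
  toI (Fm (mm ν B u e (Yobs p.1 p.2)) (Yobs p.1 p.2 e))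

theorem Wof_measurable (ν : Measure (E → Bool)) (B : E → ℕ → Finset E) (u : E × ℕ → ℝ) :
    Measurable (fun p : (E → Bool) × (E × ℕ → I) => Wof ν B u p) := by
  rw [measurable_pi_iff]
  intro e
  unfold Wof
  exact toI_measurable.comp (Fm_continuous.measurable.comp
    (((mm_measurable ν B u e).comp Yobs_measurable).prodMk
      ((measurable_pi_apply e).comp Yobs_measurable)))

theorem Ztr_update (u : E × ℕ → ℝ) (e : E × ℕ) (x : E → Bool) (V : E × ℕ → I) (t : I) :
    Ztr (past u e) (x, Function.update V e t) = Ztr (past u e) (x, V) := by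
  funext c
  unfold Ztr
  by_cases hc : c ∈ past u e
  · rw [indicator_of_mem hc, indicator_of_mem hc]
    have hce : c ≠ e := by
      rintro rfl
      exact lt_irrefl _ (show (c.2 : ℝ) + u c < (c.2 : ℝ) + u c from hc)
    simp only [Yobs]
    rw [Function.update_of_ne hce]
  · rw [indicator_of_notMem hc, indicator_of_notMem hc]

theorem inner_step (ν : Measure (E → Bool)) (B : E → ℕ → Finset E)
    (u : E × ℕ → ℝ) (e : E × ℕ) (Φ : (E × ℕ → ℝ) → ENNReal) {A : Set I}
    (hA : MeasurableSet A) (x : E → Bool) (V : E × ℕ → I) :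
    ∫⁻ t : I, Φ (Ztr (past u e) (x, Function.update V e t)) *
      A.indicator (fun _ => (1 : ENNReal)) (Wof ν B u (x, Function.update V e t) e) =
    Φ (Ztr (past u e) (x, V)) * phiW (xr x e.1) (mm ν B u e (Yobs x V)) A := by
  have hindA : Measurable (fun t : I => A.indicator (fun _ => (1 : ENNReal)) t) :=
    measurable_const.indicator hA
  have h1 : ∀ t : I, Φ (Ztr (past u e) (x, Function.update V e t)) *
      A.indicator (fun _ => (1 : ENNReal)) (Wof ν B u (x, Function.update V e t) e) =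
      Φ (Ztr (past u e) (x, V)) * A.indicator (fun _ => (1 : ENNReal))
        (toI (Fm (mm ν B u e (Yobs x V)) (Qm (xr x e.1) t))) := by
    intro t
    rw [Ztr_update]
    have h3 : mm ν B u e (Yobs x (Function.update V e t)) = mm ν B u e (Yobs x V) := by
      have h4 := mm_Ztr ν B u e (x, Function.update V e t)
      rw [Ztr_update, mm_Ztr] at h4
      exact h4.symm
    have h5 : Wof ν B u (x, Function.update V e t) e =
        toI (Fm (mm ν B u e (Yobs x V)) (Qm (xr x e.1) t)) := by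
      unfold Wof
      simp only
      rw [h3]
      simp only [Yobs, Function.update_self]
    rw [h5]
  rw [lintegral_congr h1]
  have hWt : Measurable (fun t : I => toI (Fm (mm ν B u e (Yobs x V)) (Qm (xr x e.1) t))) :=
    toI_measurable.comp (Fm_continuous.measurable.comp (measurable_const.prodMk
      (Qm_measurable.comp (measurable_const.prodMk measurable_subtype_coe))))
  have hi : Measurable (fun t : I => A.indicator (fun _ => (1 : ENNReal))
        (toI (Fm (mm ν B u e (Yobs x V)) (Qm (xr x e.1) t)))) := hindA.comp hWt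
  rw [lintegral_const_mul _ hi]
  congr 1
  have h2 : ∀ t : I, A.indicator (fun _ => (1 : ENNReal))
      (toI (Fm (mm ν B u e (Yobs x V)) (Qm (xr x e.1) t))) =
      ({t : I | toI (Fm (mm ν B u e (Yobs x V)) (Qm (xr x e.1) t)) ∈ A}).indicator
        (fun _ => (1 : ENNReal)) t := fun t => rfl
  have hms : MeasurableSet {t : I | toI (Fm (mm ν B u e (Yobs x V)) (Qm (xr x e.1) t)) ∈ A} :=
    hWt hA
  rw [lintegral_congr h2, lintegral_indicator_const hms, one_mul]
  rfl

theorem slice_measurable {X Y Z : Type*} [MeasurableSpace X] [MeasurableSpace Y]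
    [MeasurableSpace Z] {F : X × Y → Z} (hF : Measurable F) (x : X) :
    Measurable (fun y => F (x, y)) := hF.comp measurable_prodMk_left

theorem phi_measurable (ν : Measure (E → Bool)) (B : E → ℕ → Finset E)
    (u : E × ℕ → ℝ) (e : E × ℕ) {A : Set I} (hA : MeasurableSet A) :
    Measurable (fun p : (E → Bool) × (E × ℕ → I) =>
      phiW (xr p.1 e.1) (mm ν B u e (Yobs p.1 p.2)) A) := by
  have hmmm : Measurable (fun p : (E → Bool) × (E × ℕ → I) => mm ν B u e (Yobs p.1 p.2)) :=
    (mm_measurable ν B u e).comp Yobs_measurable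
  have hxm : Measurable (fun p : (E → Bool) × (E × ℕ → I) => xr p.1 e.1) :=
    (xr_measurable e.1).comp measurable_fst
  have : (fun p : (E → Bool) × (E × ℕ → I) =>
      phiW (xr p.1 e.1) (mm ν B u e (Yobs p.1 p.2)) A) = fun p =>
        ENNReal.ofReal (1 - xr p.1 e.1) * phiW 0 (mm ν B u e (Yobs p.1 p.2)) A +
          ENNReal.ofReal (xr p.1 e.1) * phiW 1 (mm ν B u e (Yobs p.1 p.2)) A := by
    funext p
    exact phiW_split (xr01 p.1 e.1) _ A
  rw [this]
  exact ((ENNReal.measurable_ofReal.comp (measurable_const.sub hxm)).mul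
      ((phiW_measurable 0 hA).comp hmmm)).add ((ENNReal.measurable_ofReal.comp hxm).mul
      ((phiW_measurable 1 hA).comp hmmm))

theorem resample_step (ν : Measure (E → Bool)) [IsProbabilityMeasure ν] (B : E → ℕ → Finset E)
    (u : E × ℕ → ℝ) (e : E × ℕ) {Φ : (E × ℕ → ℝ) → ENNReal} (hΦ : Measurable Φ) {A : Set I}
    (hA : MeasurableSet A) :
    ∫⁻ p, Φ (Ztr (past u e) p) * A.indicator (fun _ => (1 : ENNReal)) (Wof ν B u p e)
      ∂(ν.prod (Lab E)) =
    ∫⁻ p, Φ (Ztr (past u e) p) * phiW (xr p.1 e.1) (mm ν B u e (Yobs p.1 p.2)) A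
      ∂(ν.prod (Lab E)) := by
  have hWe : Measurable (fun p : (E → Bool) × (E × ℕ → I) => Wof ν B u p e) :=
    (measurable_pi_apply e).comp (Wof_measurable ν B u)
  have hindA : Measurable (fun t : I => A.indicator (fun _ => (1 : ENNReal)) t) :=
    measurable_const.indicator hA
  obtain ⟨F1, hF1⟩ : ∃ F1 : (E → Bool) × (E × ℕ → I) → ENNReal, F1 = fun p =>
    Φ (Ztr (past u e) p) * A.indicator (fun _ => (1 : ENNReal)) (Wof ν B u p e) := ⟨_, rfl⟩
  obtain ⟨F2, hF2⟩ : ∃ F2 : (E → Bool) × (E × ℕ → I) → ENNReal, F2 = fun p =>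
    Φ (Ztr (past u e) p) * phiW (xr p.1 e.1) (mm ν B u e (Yobs p.1 p.2)) A := ⟨_, rfl⟩
  have hM1 : Measurable F1 := by
    rw [hF1]; exact (hΦ.comp (Ztr_measurable _)).mul (hindA.comp hWe)
  have hM2 : Measurable F2 := by
    rw [hF2]; exact (hΦ.comp (Ztr_measurable _)).mul (phi_measurable ν B u e hA)
  have key : ∫⁻ p, F1 p ∂(ν.prod (Lab E)) = ∫⁻ p, F2 p ∂(ν.prod (Lab E)) := by
    rw [lintegral_prod F1 hM1.aemeasurable, lintegral_prod F2 hM2.aemeasurable]
    apply lintegral_congr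
    intro x
    rw [lintegral_resample (volume : Measure I) e (fun V => F1 (x, V)) (slice_measurable hM1 x)]
    apply lintegral_congr
    intro V
    rw [hF1, hF2]
    exact inner_step ν B u e Φ hA x V
  rw [hF1, hF2] at key
  exact key

/-- **Key identity**: the uniformised observation is uniform and independent of the past. -/
theorem key_identity [Countable E] (ν : Measure (E → Bool)) [IsProbabilityMeasure ν]
    (u : E × ℕ → ℝ) (hu : ∀ e, u e ∈ Icc (0 : ℝ) 1) (B : E → ℕ → Finset E)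
    (hmem : ∀ v R, v ∈ B v R) (hmono : ∀ v, Monotone (B v)) (hex : ∀ v i, ∃ R, i ∈ B v R)
    (e : E × ℕ) {Φ : (E × ℕ → ℝ) → ENNReal} (hΦ : Measurable Φ) {A : Set I}
    (hA : MeasurableSet A) :
    ∫⁻ p, Φ (Ztr (past u e) p) * A.indicator (fun _ => (1 : ENNReal)) (Wof ν B u p e)
      ∂(ν.prod (Lab E)) = volume A * ∫⁻ p, Φ (Ztr (past u e) p) ∂(ν.prod (Lab E)) := by
  rw [resample_step ν B u e hΦ hA]
  have hmmm : Measurable (fun p : (E → Bool) × (E × ℕ → I) => mm ν B u e (Yobs p.1 p.2)) :=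
    (mm_measurable ν B u e).comp Yobs_measurable
  have hxm : Measurable (fun p : (E → Bool) × (E × ℕ → I) => xr p.1 e.1) :=
    (xr_measurable e.1).comp measurable_fst
  obtain ⟨Φ0, hΦ0⟩ : ∃ Φ0 : (E × ℕ → ℝ) → ENNReal,
    Φ0 = fun y => Φ y * phiW 0 (mm ν B u e y) A := ⟨_, rfl⟩
  obtain ⟨Φ1, hΦ1⟩ : ∃ Φ1 : (E × ℕ → ℝ) → ENNReal,
    Φ1 = fun y => Φ y * phiW 1 (mm ν B u e y) A := ⟨_, rfl⟩
  have hΦ0m : Measurable Φ0 := by
    rw [hΦ0]; exact hΦ.mul ((phiW_measurable 0 hA).comp (mm_measurable ν B u e))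
  have hΦ1m : Measurable Φ1 := by
    rw [hΦ1]; exact hΦ.mul ((phiW_measurable 1 hA).comp (mm_measurable ν B u e))
  have hxo : Measurable (fun p : (E → Bool) × (E × ℕ → I) => ENNReal.ofReal (1 - xr p.1 e.1)) :=
    ENNReal.measurable_ofReal.comp (measurable_const.sub hxm)
  have hmo : Measurable (fun p : (E → Bool) × (E × ℕ → I) =>
      ENNReal.ofReal (1 - mm ν B u e (Yobs p.1 p.2))) :=
    ENNReal.measurable_ofReal.comp (measurable_const.sub hmmm)
  have hΦ0Z : Measurable (fun p : (E → Bool) × (E × ℕ → I) => Φ0 (Ztr (past u e) p)) :=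
    hΦ0m.comp (Ztr_measurable _)
  have h1 : ∀ p : (E → Bool) × (E × ℕ → I),
      Φ (Ztr (past u e) p) * phiW (xr p.1 e.1) (mm ν B u e (Yobs p.1 p.2)) A =
      ENNReal.ofReal (1 - xr p.1 e.1) * Φ0 (Ztr (past u e) p) +
      ENNReal.ofReal (xr p.1 e.1) * Φ1 (Ztr (past u e) p) := by
    intro p
    rw [phiW_split (xr01 p.1 e.1), hΦ0, hΦ1]
    simp only [mm_Ztr]
    ring
  have h2 : ∀ p : (E → Bool) × (E × ℕ → I),
      ENNReal.ofReal (1 - mm ν B u e (Yobs p.1 p.2)) * Φ0 (Ztr (past u e) p) +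
      ENNReal.ofReal (mm ν B u e (Yobs p.1 p.2)) * Φ1 (Ztr (past u e) p) =
      volume A * Φ (Ztr (past u e) p) := by
    intro p
    rw [hΦ0, hΦ1, ← phiW_mix (mm_mem ν B u e (Yobs p.1 p.2)) hA]
    simp only [mm_Ztr]
    ring
  have m1 : Measurable (fun p : (E → Bool) × (E × ℕ → I) =>
      ENNReal.ofReal (1 - xr p.1 e.1) * Φ0 (Ztr (past u e) p)) := hxo.mul hΦ0Z
  have m2 : Measurable (fun p : (E → Bool) × (E × ℕ → I) =>
      ENNReal.ofReal (1 - mm ν B u e (Yobs p.1 p.2)) * Φ0 (Ztr (past u e) p)) := hmo.mul hΦ0Z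
  have m3 : Measurable (fun p : (E → Bool) × (E × ℕ → I) => Φ (Ztr (past u e) p)) :=
    hΦ.comp (Ztr_measurable _)
  rw [lintegral_congr h1, lintegral_add_left m1,
    cond_id0 ν u hu B hmem hmono hex e hΦ0m, cond_id1 ν u hu B hmem hmono hex e hΦ1m,
    ← lintegral_add_left m2, ← lintegral_const_mul _ m3]
  exact lintegral_congr h2

end Crest.Agent.SRFactor
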