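import Mathlib
import Crest.Agent.SRFactor.Prob

set_option autoImplicit false
set_option linter.style.haveILetI false
set_option linter.unusedSectionVars false

open MeasureTheory Measure unitInterval Set Filter Topology ProbabilityTheory

namespace Crest.Agent.SRFactor

variable {E : Type*} [DecidableEq E]

omit [DecidableEq E] in
theorem fieldAt_indicator_of_subset (u : E × ℕ → ℝ) (e : E × ℕ) {S : Set (E × ℕ)}
    (hS : past u e ⊆ S) (y : E × ℕ → ℝ) :
    fieldAt u (S.indicator y) e = fieldAt u y e := by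
  funext x
  unfold fieldAt
  apply Finset.sum_congr rfl
  intro j _
  split_ifs with h
  · rw [indicator_of_mem (hS (show (x, j) ∈ past u e from h))]
  · rfl

section Law

variable [Countable E] (ν : Measure (E → Bool)) [IsProbabilityMeasure ν]
    (u : E × ℕ → ℝ) (hu : ∀ e, u e ∈ Icc (0 : ℝ) 1) (B : E → ℕ → Finset E)
    (hmem : ∀ v R, v ∈ B v R) (hmono : ∀ v, Monotone (B v)) (hex : ∀ v i, ∃ R, i ∈ B v R)
    (hT : Function.Injective (fun e : E × ℕ => (e.2 : ℝ) + u e))

include hu hmem hmono hex hT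

theorem lintegral_prod_Wof (t : E × ℕ → Set I) (ht : ∀ e, MeasurableSet (t e))
    (s : Finset (E × ℕ)) :
    ∫⁻ p, ∏ e ∈ s, (t e).indicator (fun _ => (1 : ENNReal)) (Wof ν B u p e) ∂(ν.prod (Lab E)) =
      ∏ e ∈ s, volume (t e) := by
  induction s using Finset.induction_on_max_value (fun e : E × ℕ => (e.2 : ℝ) + u e) with
  | empty => simp
  | insert a s has hmax ih =>
    have hlt : ∀ e ∈ s, (e.2 : ℝ) + u e < (a.2 : ℝ) + u a := by
      intro e he
      refine lt_of_le_of_ne (hmax e he) (fun h => ?_)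
      have := hT h
      rw [this] at he
      exact has he
    obtain ⟨Φ, hΦ⟩ : ∃ Φ : (E × ℕ → ℝ) → ENNReal, Φ = fun y =>
      ∏ e ∈ s, (t e).indicator (fun _ => (1 : ENNReal)) (toI (Fm (mm ν B u e y) (y e))) := ⟨_, rfl⟩
    have hΦm : Measurable Φ := by
      rw [hΦ]
      apply Finset.measurable_prod
      intro e _
      have hind : Measurable (fun z : I => (t e).indicator (fun _ => (1 : ENNReal)) z) :=
        measurable_const.indicator (ht e)
      exact hind.comp (toI_measurable.comp (Fm_continuous.measurable.comp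
        ((mm_measurable ν B u e).prodMk (measurable_pi_apply e))))
    have h1 : ∀ p : (E → Bool) × (E × ℕ → I), Φ (Ztr (past u a) p) =
        ∏ e ∈ s, (t e).indicator (fun _ => (1 : ENNReal)) (Wof ν B u p e) := by
      intro p
      rw [hΦ]
      apply Finset.prod_congr rfl
      intro e he
      have hea : e ∈ past u a := hlt e he
      have hsub : past u e ⊆ past u a := by
        intro c hc
        exact lt_trans (show (c.2 : ℝ) + u c < (e.2 : ℝ) + u e from hc) (hlt e he)
      have h2 : mm ν B u e (Ztr (past u a) p) = mm ν B u e (Yobs p.1 p.2) := by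
        unfold mm Ztr
        rw [fieldAt_indicator_of_subset u e hsub]
      have h3 : Ztr (past u a) p e = Yobs p.1 p.2 e := by
        unfold Ztr
        rw [indicator_of_mem hea]
      rw [h2, h3]
      rfl
    rw [Finset.prod_insert has, ← ih, ← lintegral_congr h1,
      ← key_identity ν u hu B hmem hmono hex a hΦm (ht a)]
    apply lintegral_congr
    intro p
    rw [Finset.prod_insert has, h1 p, mul_comm]

theorem map_Wof : (ν.prod (Lab E)).map (Wof ν B u) = Lab E := by
  apply eq_infinitePi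
  intro s t ht
  have hms : MeasurableSet (Set.pi (s : Set (E × ℕ)) t) :=
    MeasurableSet.pi s.countable_toSet (fun i _ => ht i)
  rw [← lintegral_prod_Wof ν u hu B hmem hmono hex hT t ht s,
    map_apply (Wof_measurable ν B u) hms,
    ← lintegral_indicator_one (Wof_measurable ν B u hms)]
  apply lintegral_congr
  intro p
  by_cases hp : p ∈ Wof ν B u ⁻¹' (Set.pi (s : Set (E × ℕ)) t)
  · rw [indicator_of_mem hp]
    rw [Finset.prod_eq_one]
    · rfl
    · intro e he
      rw [indicator_of_mem]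
      exact hp e he
  · rw [indicator_of_notMem hp]
    have : ∃ e ∈ s, Wof ν B u p e ∉ t e := by
      by_contra hcon
      push Not at hcon
      exact hp (fun e he => hcon e he)
    obtain ⟨e, he, hne⟩ := this
    rw [Finset.prod_eq_zero he]
    rw [indicator_of_notMem hne]

end Law

theorem step_Yobs (ν : Measure (E → Bool)) [IsProbabilityMeasure ν] (B : E → ℕ → Finset E)
    (u : E × ℕ → ℝ) (p : (E → Bool) × (E × ℕ → I)) :
    step (mlim ν B) u (fun e => (Wof ν B u p e : ℝ)) (Yobs p.1 p.2) = Yobs p.1 p.2 := by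
  funext e
  have h1 := mm_mem ν B u e (Yobs p.1 p.2)
  have h2 := Yobs_mem p.1 p.2 e
  change Qm (mm ν B u e (Yobs p.1 p.2))
    (toI (Fm (mm ν B u e (Yobs p.1 p.2)) (Yobs p.1 p.2 e)) : ℝ) = Yobs p.1 p.2 e
  rw [toI_coe (Fm_mem h1 h2)]
  exact Qm_Fm h1 h2

theorem fixpt_Wof (ν : Measure (E → Bool)) [IsProbabilityMeasure ν] (B : E → ℕ → Finset E)
    (hm : GoodM (mlim ν B)) (u : E × ℕ → ℝ) (p : (E → Bool) × (E × ℕ → I)) :
    fixpt (mlim ν B) u (fun e => (Wof ν B u p e : ℝ)) = Yobs p.1 p.2 :=
  eq_fixpt hm (fun e => (Wof ν B u p e).2) (fun e => Yobs_mem p.1 p.2 e) (step_Yobs ν B u p)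

section SLLN

theorem sg_Qm_measurable (b : ℝ) : Measurable (fun t : I => sg (Qm b t)) :=
  sg_measurable.comp (Qm_measurable.comp (measurable_const.prodMk measurable_subtype_coe))

theorem integral_sg {b : ℝ} (hb : b = 0 ∨ b = 1) :
    ∫ t : I, sg (Qm b t) = (2 * b - 1) / 8 := by
  have hbm := mem01 hb
  have h12 : (1 / 2 : ℝ) ∈ Icc (0 : ℝ) 1 := by constructor <;> norm_num
  have h1 : ∀ t : I, sg (Qm b t) =
      1 - 2 * ({t : I | (t : ℝ) ≤ Fm b (1 / 2)}).indicator (fun _ => (1 : ℝ)) t := by
    intro t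
    unfold sg
    by_cases h : Qm b t ≤ 1 / 2
    · rw [if_pos h, indicator_of_mem (show t ∈ {t : I | (t : ℝ) ≤ Fm b (1 / 2)} from
        (Qm_le_iff hbm t.2 h12).1 h)]
      norm_num
    · rw [if_neg h, indicator_of_notMem (show t ∉ {t : I | (t : ℝ) ≤ Fm b (1 / 2)} from
        fun h' => h ((Qm_le_iff hbm t.2 h12).2 h'))]
      norm_num
  have hms : MeasurableSet {t : I | (t : ℝ) ≤ Fm b (1 / 2)} :=
    measurableSet_le measurable_subtype_coe measurable_const
  simp_rw [h1]
  rw [integral_sub (integrable_const _) ((integrable_const (1 : ℝ)).indicator hms |>.const_mul 2),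
    integral_const_mul, integral_indicator_const _ hms]
  simp only [integral_const, smul_eq_mul, mul_one, measureReal_def]
  rw [volume_le_real (Fm_mem hbm h12), ENNReal.toReal_ofReal (Fm_mem hbm h12).1]
  simp only [measure_univ, ENNReal.toReal_one]
  unfold Fm aa
  ring

theorem slln (v : E) {b : ℝ} (hb : b = 0 ∨ b = 1) :
    ∀ᵐ V ∂(Lab E), Tendsto (fun n : ℕ => (∑ j ∈ Finset.range n, sg (Qm b (V (v, j) : ℝ))) / n)
      atTop (𝓝 ((2 * b - 1) / 8)) := by
  have hind : iIndepFun (fun (e : E × ℕ) (V : E × ℕ → I) => sg (Qm b (V e : ℝ))) (Lab E) :=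
    iIndepFun_infinitePi (P := fun _ : E × ℕ => (volume : Measure I))
      (X := fun _ t => sg (Qm b (t : ℝ))) (fun _ => sg_Qm_measurable b)
  have hmeas : ∀ e : E × ℕ, Measurable (fun V : E × ℕ → I => sg (Qm b (V e : ℝ))) := fun e =>
    (sg_Qm_measurable b).comp (measurable_pi_apply e)
  have hmap : ∀ e : E × ℕ, (Lab E).map (fun V : E × ℕ → I => sg (Qm b (V e : ℝ))) =
      (volume : Measure I).map (fun t : I => sg (Qm b t)) := by
    intro e
    have h1 := infinitePi_map_eval (fun _ : E × ℕ => (volume : Measure I)) e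
    have h2 := map_map (μ := Lab E) (sg_Qm_measurable b) (measurable_pi_apply e)
    rw [show (Lab E).map (fun V : E × ℕ → I => V e) = (volume : Measure I) from h1] at h2
    exact h2.symm
  have h := strong_law_ae_real (μ := Lab E) (fun (j : ℕ) (V : E × ℕ → I) =>
      sg (Qm b (V (v, j) : ℝ)))
    (Integrable.of_bound (hmeas (v, 0)).aestronglyMeasurable 1
      (Eventually.of_forall (fun V => by
        unfold sg; split_ifs <;> simp)))
    (fun i j hij => hind.indepFun (fun h => hij (Prod.mk.inj h).2))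
    (fun i => ⟨(hmeas _).aemeasurable, (hmeas _).aemeasurable, by rw [hmap, hmap]⟩)
  have hmean : ∫ V, sg (Qm b (V (v, 0) : ℝ)) ∂(Lab E) = (2 * b - 1) / 8 := by
    rw [← integral_sg hb]
    have h1 := infinitePi_map_eval (fun _ : E × ℕ => (volume : Measure I)) (v, 0)
    have h2 := integral_map (μ := Lab E) (measurable_pi_apply (v, 0)).aemeasurable
      (f := fun t : I => sg (Qm b t)) (sg_Qm_measurable b).aestronglyMeasurable
    rw [← h2]
    congr 1
  rw [hmean] at h
  exact h

omit [DecidableEq E] in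
theorem dec_eq_true_iff (y : E × ℕ → ℝ) (v : E) :
    dec y v = true ↔ ∀ᶠ K : ℕ in atTop, 0 < ∑ j ∈ Finset.range K, sg (y (v, j)) := by
  unfold dec
  simp only [decide_eq_true_eq]

theorem dec_ae (x : E → Bool) [Countable E] :
    ∀ᵐ V ∂(Lab E), dec (Yobs x V) = x := by
  have h1 : ∀ v : E, ∀ᵐ V ∂(Lab E), dec (Yobs x V) v = x v := by
    intro v
    filter_upwards [slln v (xr01 x v)] with V hV
    by_cases hx : x v = true
    · have hxr : xr x v = 1 := by unfold xr; simp [hx]
      rw [hx, dec_eq_true_iff]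
      unfold Yobs
      simp only
      rw [hxr] at hV ⊢
      have h2 : (0 : ℝ) < (2 * 1 - 1) / 8 := by norm_num
      filter_upwards [hV.eventually (lt_mem_nhds h2), eventually_gt_atTop 0] with n hn hn0
      have hn0' : (0 : ℝ) < n := by exact_mod_cast hn0
      have := mul_pos hn hn0'
      rwa [div_mul_cancel₀ _ hn0'.ne'] at this
    · have hxr : xr x v = 0 := by unfold xr; simp [hx]
      rw [Bool.eq_false_iff.2 hx, Bool.eq_false_iff, Ne, dec_eq_true_iff]
      unfold Yobs
      simp only
      rw [hxr] at hV ⊢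
      have h2 : ((2 * 0 - 1) / 8 : ℝ) < 0 := by norm_num
      intro hcon
      obtain ⟨n, ⟨hn1, hn2⟩, hn0⟩ := (hcon.and (hV.eventually (gt_mem_nhds h2))).and
        (eventually_gt_atTop 0) |>.exists
      have hn0' : (0 : ℝ) < n := by exact_mod_cast hn0
      have := div_pos hn1 hn0'
      linarith
  filter_upwards [ae_all_iff.2 h1] with V hV
  funext v
  exact hV v

end SLLN

/-- The general theorem, for fixed injective observation times. -/
theorem map_dec_fixpt [Countable E] (ν : Measure (E → Bool)) [IsProbabilityMeasure ν]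
    (u : E × ℕ → ℝ) (hu : ∀ e, u e ∈ Icc (0 : ℝ) 1) (B : E → ℕ → Finset E)
    (hmem : ∀ v R, v ∈ B v R) (hmono : ∀ v, Monotone (B v)) (hex : ∀ v i, ∃ R, i ∈ B v R)
    (hm : GoodM (mlim ν B))
    (hT : Function.Injective (fun e : E × ℕ => (e.2 : ℝ) + u e)) :
    (Lab E).map (fun w : E × ℕ → I => dec (fixpt (mlim ν B) u (fun e => (w e : ℝ)))) = ν := by
  have hg : Measurable (fun w : E × ℕ → I => dec (fixpt (mlim ν B) u (fun e => (w e : ℝ)))) := by
    rw [measurable_pi_iff]
    intro v
    exact dec_measurable (fun e => fixpt_measurable (m := fun _ : E × ℕ → I => mlim ν B)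
      (fun v => (mlim_measurable ν B v).comp measurable_snd)
      (u := fun _ => u) (w := fun w e => (w e : ℝ)) (fun _ => measurable_const)
      (fun e => measurable_subtype_coe.comp (measurable_pi_apply e)) e) v
  obtain ⟨g, hgdef⟩ : ∃ g : (E × ℕ → I) → (E → Bool),
    g = fun w : E × ℕ → I => dec (fixpt (mlim ν B) u (fun e => (w e : ℝ))) := ⟨_, rfl⟩
  rw [← hgdef] at hg ⊢
  have h1 := map_Wof ν u hu B hmem hmono hex hT
  have h2 : (Lab E).map g = (ν.prod (Lab E)).map (g ∘ Wof ν B u) := by
    conv_lhs => rw [← h1]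
    rw [map_map hg (Wof_measurable ν B u)]
  have h3 : g ∘ Wof ν B u = fun p : (E → Bool) × (E × ℕ → I) => dec (Yobs p.1 p.2) := by
    funext p
    rw [hgdef]
    simp only [Function.comp]
    rw [fixpt_Wof ν B hm u p]
  have hdY : Measurable (fun p : (E → Bool) × (E × ℕ → I) => dec (Yobs p.1 p.2)) := by
    rw [← h3]; exact hg.comp (Wof_measurable ν B u)
  have h4 : ∀ᵐ p ∂(ν.prod (Lab E)), dec (Yobs p.1 p.2) = p.1 := by
    have hms : MeasurableSet {p : (E → Bool) × (E × ℕ → I) | dec (Yobs p.1 p.2) ≠ p.1} := by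
      have : MeasurableSet {p : (E → Bool) × (E × ℕ → I) | dec (Yobs p.1 p.2) = p.1} :=
        measurableSet_eq_fun hdY measurable_fst
      exact this.compl
    rw [ae_iff]
    have h5 := (measure_prod_null (μ := ν) (ν := Lab E) hms).2
    apply h5
    filter_upwards with x
    exact dec_ae x
  rw [h2, h3]
  have h6 : (ν.prod (Lab E)).map (fun p : (E → Bool) × (E × ℕ → I) => dec (Yobs p.1 p.2)) =
      (ν.prod (Lab E)).map Prod.fst := Measure.map_congr h4
  rw [h6]
  have h7 := Measure.fst_prod (μ := ν) (ν := Lab E)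
  exact h7

end Crest.Agent.SRFactor
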