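import Mathlib
import Crest.Agent.SRFactor.Law

set_option autoImplicit false
set_option linter.style.haveILetI false
set_option linter.unusedSectionVars false

open MeasureTheory Measure unitInterval Set Filter Topology ProbabilityTheory

namespace Crest.Agent.SRFactor

theorem exists_psi : ∃ f : I → (Bool × ℕ → I), Measurable f ∧
    (volume : Measure I).map f = infinitePi (fun _ : Bool × ℕ => (volume : Measure I)) :=
  MeasureTheory.Measure.exists_measurable_map_eq (infinitePi (fun _ : Bool × ℕ => (volume : Measure I)))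

/-- one uniform label split into countably many independent uniform labels -/
noncomputable def psi : I → (Bool × ℕ → I) := Classical.choose exists_psi

theorem psi_measurable : Measurable psi := (Classical.choose_spec exists_psi).1

theorem psi_map : (volume : Measure I).map psi =
    infinitePi (fun _ : Bool × ℕ => (volume : Measure I)) := (Classical.choose_spec exists_psi).2

variable {E : Type*}

noncomputable def uI (ξ : E → I) : E × ℕ → I := fun e => psi (ξ e.1) (false, e.2)

noncomputable def wI (ξ : E → I) : E × ℕ → I := fun e => psi (ξ e.1) (true, e.2)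

theorem uI_measurable : Measurable (uI (E := E)) := by
  rw [measurable_pi_iff]
  intro e
  exact (measurable_pi_apply (false, e.2)).comp (psi_measurable.comp (measurable_pi_apply e.1))

theorem wI_measurable : Measurable (wI (E := E)) := by
  rw [measurable_pi_iff]
  intro e
  exact (measurable_pi_apply (true, e.2)).comp (psi_measurable.comp (measurable_pi_apply e.1))

theorem map_uw : (infinitePi (fun _ : E => (volume : Measure I))).map (fun ξ => (uI ξ, wI ξ)) =
    (Lab E).prod (Lab E) := by
  have hA : (infinitePi (fun _ : E => (volume : Measure I))).map (fun ξ i => psi (ξ i)) =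
      infinitePi (fun _ : E => infinitePi (fun _ : Bool × ℕ => (volume : Measure I))) := by
    rw [infinitePi_map_pi (fun _ : E => (volume : Measure I)) (f := fun _ => psi)
      (fun _ => psi_measurable)]
    simp only [psi_map]
  have hB := infinitePi_map_curry_symm (fun (_ : E) (_ : Bool × ℕ) => (volume : Measure I))
  have hC := map_infinitePi_infinitePi_of_inj (P := fun _ : E × (Bool × ℕ) => (volume : Measure I))
    (f := fun i : Bool × (E × ℕ) => (i.2.1, (i.1, i.2.2))) (by
      rintro ⟨a, b, c⟩ ⟨a', b', c'⟩ h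
      simp only [Prod.mk.injEq] at h ⊢
      tauto)
  have hD := infinitePi_map_curry (fun (_ : Bool) (_ : E × ℕ) => (volume : Measure I))
  have hE := infinitePi_map_eval_prod (P := fun _ : Bool => Lab E) (i := false) (j := true)
    (by decide)
  have hψm : Measurable (fun (ξ : E → I) i => psi (ξ i)) := by
    rw [measurable_pi_iff]
    intro i
    exact psi_measurable.comp (measurable_pi_apply i)
  rw [← hE]
  rw [← hD]
  have hre : Measurable (fun (ω : E × (Bool × ℕ) → I) (i : Bool × (E × ℕ)) =>
      ω (i.2.1, (i.1, i.2.2))) := by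
    rw [measurable_pi_iff]
    intro i
    exact measurable_pi_apply _
  have hev : Measurable (fun ω : Bool → (E × ℕ → I) => (ω false, ω true)) :=
    (measurable_pi_apply false).prodMk (measurable_pi_apply true)
  rw [← hC, ← hB, ← hA, map_map (MeasurableEquiv.measurable _) hψm,
    map_map hre ((MeasurableEquiv.measurable _).comp hψm),
    map_map (MeasurableEquiv.measurable _) (hre.comp ((MeasurableEquiv.measurable _).comp hψm)),
    map_map hev ((MeasurableEquiv.measurable _).comp
      (hre.comp ((MeasurableEquiv.measurable _).comp hψm)))]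
  rfl

theorem ae_ne [Countable E] (e e' : E × ℕ) (hne : e ≠ e') :
    ∀ᵐ u ∂(Lab E), (e.2 : ℝ) + (u e : ℝ) ≠ (e'.2 : ℝ) + (u e' : ℝ) := by
  classical
  have hms : MeasurableSet {u : E × ℕ → I | (e.2 : ℝ) + (u e : ℝ) = (e'.2 : ℝ) + (u e' : ℝ)} := by
    apply measurableSet_eq_fun
    · exact measurable_const.add (measurable_subtype_coe.comp (measurable_pi_apply e))
    · exact measurable_const.add (measurable_subtype_coe.comp (measurable_pi_apply e'))
  rw [ae_iff]
  have h1 : {u : E × ℕ → I | ¬ ((e.2 : ℝ) + (u e : ℝ) ≠ (e'.2 : ℝ) + (u e' : ℝ))} =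
      {u : E × ℕ → I | (e.2 : ℝ) + (u e : ℝ) = (e'.2 : ℝ) + (u e' : ℝ)} := by
    ext u; simp
  rw [h1, ← lintegral_indicator_one hms,
    lintegral_resample (volume : Measure I) e _ (measurable_one.indicator hms)]
  rw [lintegral_eq_zero_of_ae_eq_zero]
  filter_upwards with V
  have h2 : ∀ t : I, ({u : E × ℕ → I | (e.2 : ℝ) + (u e : ℝ) = (e'.2 : ℝ) + (u e' : ℝ)}).indicator
      (1 : (E × ℕ → I) → ENNReal) (Function.update V e t) =
      ({t : I | (e.2 : ℝ) + (t : ℝ) = (e'.2 : ℝ) + (V e' : ℝ)}).indicator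
      (1 : I → ENNReal) t := by
    intro t
    have h3 : Function.update V e t ∈
        {u : E × ℕ → I | (e.2 : ℝ) + (u e : ℝ) = (e'.2 : ℝ) + (u e' : ℝ)} ↔
        t ∈ {t : I | (e.2 : ℝ) + (t : ℝ) = (e'.2 : ℝ) + (V e' : ℝ)} := by
      simp only [mem_ofPred_eq, Function.update_self, Function.update_of_ne (Ne.symm hne)]
    by_cases h4 : t ∈ {t : I | (e.2 : ℝ) + (t : ℝ) = (e'.2 : ℝ) + (V e' : ℝ)}
    · rw [indicator_of_mem h4, indicator_of_mem (h3.2 h4)]; rfl
    · rw [indicator_of_notMem h4, indicator_of_notMem (fun h => h4 (h3.1 h))]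
  rw [lintegral_congr h2]
  have h5 : ({t : I | (e.2 : ℝ) + (t : ℝ) = (e'.2 : ℝ) + (V e' : ℝ)}).Subsingleton := by
    intro a ha b hb
    have ha' : (e.2 : ℝ) + (a : ℝ) = (e'.2 : ℝ) + (V e' : ℝ) := ha
    have hb' : (e.2 : ℝ) + (b : ℝ) = (e'.2 : ℝ) + (V e' : ℝ) := hb
    exact Subtype.ext (by linarith)
  rw [lintegral_indicator_one h5.measurableSet]
  exact h5.measure_zero _

theorem ae_injective [Countable E] :
    ∀ᵐ u ∂(Lab E), Function.Injective (fun e : E × ℕ => (e.2 : ℝ) + (u e : ℝ)) := by
  have h : ∀ᵐ u ∂(Lab E), ∀ e e' : E × ℕ, e ≠ e' →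
      (e.2 : ℝ) + (u e : ℝ) ≠ (e'.2 : ℝ) + (u e' : ℝ) := by
    rw [ae_all_iff]; intro e
    rw [ae_all_iff]; intro e'
    by_cases hne : e = e'
    · exact Eventually.of_forall (fun _ h => absurd hne h)
    · filter_upwards [ae_ne e e' hne] with u hu _
      exact hu
  filter_upwards [h] with u hu
  intro e e' hee
  by_contra hne
  exact hu e e' hne hee

variable [DecidableEq E]

theorem solution_measurable (m : (E → ℝ) → E → ℝ) (hm : ∀ v, Measurable (fun h => m h v)) :
    Measurable (fun q : (E × ℕ → I) × (E × ℕ → I) =>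
      dec (fixpt m (fun e => (q.1 e : ℝ)) (fun e => (q.2 e : ℝ)))) := by
  rw [measurable_pi_iff]
  intro v
  exact dec_measurable (fun e => fixpt_measurable (m := fun _ : (E × ℕ → I) × (E × ℕ → I) => m)
      (fun v => (hm v).comp measurable_snd)
      (u := fun q e => (q.1 e : ℝ)) (w := fun q e => (q.2 e : ℝ))
      (fun e => measurable_subtype_coe.comp ((measurable_pi_apply e).comp measurable_fst))
      (fun e => measurable_subtype_coe.comp ((measurable_pi_apply e).comp measurable_snd)) e) v

theorem map_prod_solution [Countable E] (ν : Measure (E → Bool)) [IsProbabilityMeasure ν]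
    (B : E → ℕ → Finset E)
    (hmem : ∀ v R, v ∈ B v R) (hmono : ∀ v, Monotone (B v)) (hex : ∀ v i, ∃ R, i ∈ B v R)
    (hm : GoodM (mlim ν B)) :
    ((Lab E).prod (Lab E)).map (fun q =>
      dec (fixpt (mlim ν B) (fun e => (q.1 e : ℝ)) (fun e => (q.2 e : ℝ)))) = ν := by
  have hg := solution_measurable (mlim ν B) (mlim_measurable ν B)
  ext S hS
  rw [map_apply hg hS, prod_apply (hg hS)]
  have h1 : ∀ᵐ u ∂(Lab E), (Lab E) (Prod.mk u ⁻¹' ((fun q : (E × ℕ → I) × (E × ℕ → I) =>
      dec (fixpt (mlim ν B) (fun e => (q.1 e : ℝ)) (fun e => (q.2 e : ℝ)))) ⁻¹' S)) = ν S := by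
    filter_upwards [ae_injective] with u hu
    have h2 := map_dec_fixpt ν (fun e => (u e : ℝ)) (fun e => (u e).2) B hmem hmono hex hm hu
    have h3 := congrArg (fun μ : Measure (E → Bool) => μ S) h2
    have hgu : Measurable (fun w : E × ℕ → I =>
        dec (fixpt (mlim ν B) (fun e => (u e : ℝ)) (fun e => (w e : ℝ)))) :=
      slice_measurable hg u
    rw [map_apply hgu hS] at h3
    exact h3
  rw [lintegral_congr_ae h1]
  simp

/-- output configuration computed from one uniform label per site -/
noncomputable def outp (m : (E → ℝ) → E → ℝ) (ξ : E → I) : E → Bool :=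
  dec (fixpt m (fun e => (uI ξ e : ℝ)) (fun e => (wI ξ e : ℝ)))

theorem outp_measurable (m : (E → ℝ) → E → ℝ) (hm : ∀ v, Measurable (fun h => m h v)) :
    Measurable (outp m) := by
  have h1 : outp m = (fun q : (E × ℕ → I) × (E × ℕ → I) =>
      dec (fixpt m (fun e => (q.1 e : ℝ)) (fun e => (q.2 e : ℝ)))) ∘ (fun ξ => (uI ξ, wI ξ)) := rfl
  have h2 : Measurable (fun ξ : E → I => (uI ξ, wI ξ)) := uI_measurable.prodMk wI_measurable
  have h3 := solution_measurable m hm
  rw [h1]
  exact Measurable.comp h3 h2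

/-- **Main theorem.** -/
theorem map_outp [Countable E] (ν : Measure (E → Bool)) [IsProbabilityMeasure ν]
    (B : E → ℕ → Finset E)
    (hmem : ∀ v R, v ∈ B v R) (hmono : ∀ v, Monotone (B v)) (hex : ∀ v i, ∃ R, i ∈ B v R)
    (hm : GoodM (mlim ν B)) :
    (infinitePi (fun _ : E => (volume : Measure I))).map (outp (mlim ν B)) = ν := by
  have hg := solution_measurable (mlim ν B) (mlim_measurable ν B)
  have h1 := map_prod_solution ν B hmem hmono hex hm
  rw [← map_uw, map_map hg (uI_measurable.prodMk wI_measurable)] at h1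
  exact h1

theorem outp_transport {E₁ E₂ : Type*} (j : E₁ → E₂) (m₁ : (E₁ → ℝ) → E₁ → ℝ)
    (m₂ : (E₂ → ℝ) → E₂ → ℝ)
    (hm : ∀ (h : E₂ → ℝ) (v : E₁), m₁ (fun x => h (j x)) v = m₂ h (j v))
    (ξ : E₂ → I) (v : E₁) : outp m₁ (fun x => ξ (j x)) v = outp m₂ ξ (j v) := by
  unfold outp
  rw [← dec_transport j]
  congr 1
  funext e
  exact fixpt_transport j m₁ m₂ hm (fun e => (uI ξ e : ℝ)) (fun e => (wI ξ e : ℝ)) e

end Crest.Agent.SRFactor
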