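import Mathlib
import Crest.Agent.SRFactor.Fusf
import Crest.Agent.SRFactor.Main

set_option autoImplicit false
set_option linter.style.haveILetI false
set_option linter.unusedSectionVars false

open MeasureTheory Set Filter Topology Crest.ProbabilityR.SpanningTrees

namespace Crest.Agent.SRFactor

theorem treew_eq_one {G : SimpleGraph ℕ} {K : Finset ℕ} {A : Finset (Sym2 ℕ)}
    (hA : A ∈ trees G K) : treew K A = 1 := by
  unfold treew
  rw [if_pos (mem_trees.1 hA).2]

theorem treew_eq_zero {G : SimpleGraph ℕ} {K : Finset ℕ} {A : Finset (Sym2 ℕ)}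
    (hA1 : A ⊆ edgesIn G K) (hA : A ∉ trees G K) : treew K A = 0 := by
  unfold treew
  rw [if_neg (fun h => hA (mem_trees.2 ⟨hA1, h⟩))]

theorem treew_nonneg (K : Finset ℕ) (A : Finset (Sym2 ℕ)) : 0 ≤ treew K A := by
  unfold treew; split_ifs <;> norm_num

theorem sum_treew (G : SimpleGraph ℕ) (K : Finset ℕ) (F : Finset (Sym2 ℕ) → ℝ) :
    ∑ A ∈ (edgesIn G K).powerset, treew K A * F A = ∑ A ∈ trees G K, F A := by
  classical
  have hsub : trees G K ⊆ (edgesIn G K).powerset := by
    intro A hA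
    exact Finset.mem_powerset.2 (mem_trees.1 hA).1
  rw [← Finset.sum_subset hsub]
  · apply Finset.sum_congr rfl
    intro A hA
    rw [treew_eq_one hA, one_mul]
  · intro A hA hA'
    rw [treew_eq_zero (Finset.mem_powerset.1 hA) hA', zero_mul]

theorem cylw_ustM (G : SimpleGraph ℕ) {K : Finset ℕ} (hK : (G.induce (K : Set ℕ)).Connected)
    (W S : Finset (Sym2 ℕ)) [DecidablePred (fun A : Finset (Sym2 ℕ) => ∀ i ∈ W, (i ∈ A ↔ i ∈ S))] :
    ((trees G K).card : ℝ) * cylw (ustM G K) W S =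
      (((trees G K).filter (fun A => ∀ i ∈ W, (i ∈ A ↔ i ∈ S))).card : ℝ) := by
  classical
  unfold cylw
  rw [ustM_apply G K (clopen_cyl W S).2.measurableSet, ENNReal.toReal_mul, ENNReal.toReal_inv,
    ENNReal.toReal_natCast, ENNReal.toReal_natCast, ← mul_assoc]
  have hN : ((trees G K).card : ℝ) ≠ 0 := by
    have := (trees_nonempty hK).card_pos
    exact_mod_cast this.ne'
  rw [mul_inv_cancel₀ hN, one_mul]
  congr 2
  ext A
  simp only [Finset.mem_filter, mem_ofPred_eq, indc_eq_true]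

theorem sum_trees_window (G : SimpleGraph ℕ) {K : Finset ℕ}
    (hK : (G.induce (K : Set ℕ)).Connected) (W : Finset (Sym2 ℕ)) (F : Finset (Sym2 ℕ) → ℝ)
    [DecidablePred (fun i : Sym2 ℕ => i ∈ W)] :
    ∑ A ∈ trees G K, F (A.filter (fun i => i ∈ W)) =
      ((trees G K).card : ℝ) * ∑ S ∈ W.powerset, cylw (ustM G K) W S * F S := by
  classical
  rw [Finset.mul_sum]
  rw [← Finset.sum_fiberwise_of_maps_to (s := trees G K) (t := W.powerset)
    (g := fun A => A.filter (fun i => i ∈ W))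
    (fun A _ => Finset.mem_powerset.2 (fun i hi => (Finset.mem_filter.1 hi).2))]
  apply Finset.sum_congr rfl
  intro S hS
  have hcard : ((trees G K).card : ℝ) * cylw (ustM G K) W S =
      (((trees G K).filter (fun A => A.filter (fun i => i ∈ W) = S)).card : ℝ) := by
    rw [cylw_ustM G hK W S]
    congr 2
    ext A
    rw [Finset.mem_filter, Finset.mem_filter]
    apply and_congr_right
    intro _
    rw [Finset.mem_powerset] at hS
    constructor
    · intro h
      ext i
      rw [Finset.mem_filter]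
      constructor
      · rintro ⟨h1, h2⟩; exact (h i h2).1 h1
      · intro h1; exact ⟨(h i (hS h1)).2 h1, hS h1⟩
    · intro h i hi
      rw [← h, Finset.mem_filter]
      exact ⟨fun h => ⟨h, hi⟩, fun h => h.1⟩
  rw [← mul_assoc, hcard, ← nsmul_eq_mul, ← Finset.sum_const]
  apply Finset.sum_congr rfl
  intro A hA
  rw [(Finset.mem_filter.1 hA).2]

theorem sum_indicator_filter (W A : Finset (Sym2 ℕ)) (h : Sym2 ℕ → ℝ)
    [DecidablePred (fun i : Sym2 ℕ => i ∈ W)] :
    ∑ i ∈ A, (W : Set (Sym2 ℕ)).indicator h i = ∑ i ∈ A.filter (fun i => i ∈ W), h i := by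
  rw [Finset.sum_filter]
  apply Finset.sum_congr rfl
  intro i _
  by_cases hi : i ∈ W
  · rw [if_pos hi, indicator_of_mem (Finset.mem_coe.2 hi)]
  · rw [if_neg hi, indicator_of_notMem (fun h => hi (Finset.mem_coe.1 h))]

/-- the finite volume posterior, with field supported in a window -/
theorem postw_treew (G : SimpleGraph ℕ) {K : Finset ℕ}
    (hK : (G.induce (K : Set ℕ)).Connected) (W : Finset (Sym2 ℕ)) {e : Sym2 ℕ} (he : e ∈ W)
    (h : Sym2 ℕ → ℝ) :
    postw (edgesIn G K) (treew K) e ((W : Set (Sym2 ℕ)).indicator h) =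
      postw W (cylw (ustM G K) W) e h := by
  classical
  have hZ : Zw (edgesIn G K) (treew K) ((W : Set (Sym2 ℕ)).indicator h) =
      ((trees G K).card : ℝ) * Zw W (cylw (ustM G K) W) h := by
    unfold Zw
    rw [sum_treew G K (fun A => Real.exp (∑ i ∈ A, (W : Set (Sym2 ℕ)).indicator h i)),
      ← sum_trees_window G hK W (fun S => Real.exp (∑ i ∈ S, h i))]
    apply Finset.sum_congr rfl
    intro A _
    rw [sum_indicator_filter]
  have hN : Nw (edgesIn G K) (treew K) e ((W : Set (Sym2 ℕ)).indicator h) =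
      ((trees G K).card : ℝ) * Nw W (cylw (ustM G K) W) e h := by
    unfold Nw
    have h1 : ∀ A : Finset (Sym2 ℕ), (if e ∈ A then treew K A *
        Real.exp (∑ i ∈ A, (W : Set (Sym2 ℕ)).indicator h i) else 0) =
        treew K A * (if e ∈ A then Real.exp (∑ i ∈ A, (W : Set (Sym2 ℕ)).indicator h i) else 0) := by
      intro A; split_ifs <;> simp
    have h2 : ∀ S : Finset (Sym2 ℕ), (if e ∈ S then cylw (ustM G K) W S *
        Real.exp (∑ i ∈ S, h i) else 0) =
        cylw (ustM G K) W S * (if e ∈ S then Real.exp (∑ i ∈ S, h i) else 0) := by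
      intro A; split_ifs <;> simp
    simp_rw [h1, h2]
    rw [sum_treew G K (fun A => if e ∈ A then
        Real.exp (∑ i ∈ A, (W : Set (Sym2 ℕ)).indicator h i) else 0),
      ← sum_trees_window G hK W (fun S => if e ∈ S then Real.exp (∑ i ∈ S, h i) else 0)]
    apply Finset.sum_congr rfl
    intro A _
    rw [sum_indicator_filter]
    by_cases heA : e ∈ A
    · rw [if_pos heA, if_pos (Finset.mem_filter.2 ⟨heA, he⟩)]
    · rw [if_neg heA, if_neg (fun h => heA (Finset.mem_filter.1 h).1)]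
  have hc : ((trees G K).card : ℝ) ≠ 0 := by
    have := (trees_nonempty hK).card_pos
    exact_mod_cast this.ne'
  unfold postw
  rw [hZ, hN, mul_div_mul_left _ _ hc]

/-- finite volume Lipschitz bound -/
theorem postw_treew_lip (G : SimpleGraph ℕ) {K : Finset ℕ}
    (hK : (G.induce (K : Set ℕ)).Connected) {e : Sym2 ℕ} (he : e ∈ edgesIn G K)
    (h h' : Sym2 ℕ → ℝ) (D : ℝ) (hD : ∀ i, |h i - h' i| ≤ D) :
    |postw (edgesIn G K) (treew K) e h - postw (edgesIn G K) (treew K) e h'| ≤ D := by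
  classical
  apply postw_lipschitz he (treew_nonneg K) _ h h' D hD
  intro z hz
  have h1 := Crest.Agent.SpTree.treePoly_ne_zero K hK z hz
  intro hcon
  apply h1
  rw [← hcon]
  unfold wpoly
  have h2 : (edgesIn G K).powerset.filter (fun A => IsSpanningTreeOn G K A) = trees G K := by
    unfold trees
    congr
  rw [h2]
  have hsub : trees G K ⊆ (edgesIn G K).powerset := by
    intro A hA
    exact Finset.mem_powerset.2 (mem_trees.1 hA).1
  rw [← Finset.sum_subset hsub]
  · apply Finset.sum_congr rfl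
    intro A hA
    rw [treew_eq_one hA]
    simp
  · intro A hA hA'
    rw [treew_eq_zero (Finset.mem_powerset.1 hA) hA']
    simp

/-- `ν` is the limit of the uniform spanning trees along all exhaustions -/
def IsFusf (G : SimpleGraph ℕ) (ν : ProbabilityMeasure (Sym2 ℕ → Bool)) : Prop :=
  ∀ (S : ℕ → Finset ℕ) (hS : Exh G S), Tendsto (fun n => ustP G (S n) (hS.conn n)) atTop (𝓝 ν)

theorem tendsto_cylw {G : SimpleGraph ℕ} {ν : ProbabilityMeasure (Sym2 ℕ → Bool)}
    (hν : IsFusf G ν) {S : ℕ → Finset ℕ} (hS : Exh G S) (W A : Finset (Sym2 ℕ)) :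
    Tendsto (fun n => cylw (ustM G (S n)) W A) atTop (𝓝 (cylw (ν : Measure (Sym2 ℕ → Bool)) W A)) := by
  have h1 := ProbabilityMeasure.tendsto_measure_of_isClopen_of_tendsto (hν S hS) (clopen_cyl W A)
  exact (NNReal.continuous_coe.tendsto _).comp h1

theorem tendsto_postw {G : SimpleGraph ℕ} {ν : ProbabilityMeasure (Sym2 ℕ → Bool)}
    (hν : IsFusf G ν) {S : ℕ → Finset ℕ} (hS : Exh G S) (W : Finset (Sym2 ℕ)) (e : Sym2 ℕ)
    (h : Sym2 ℕ → ℝ) :
    Tendsto (fun n => postw W (cylw (ustM G (S n)) W) e h) atTop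
      (𝓝 (postw W (cylw (ν : Measure (Sym2 ℕ → Bool)) W) e h)) := by
  unfold postw
  apply Tendsto.div
  · unfold Nw
    apply tendsto_finsetSum
    intro A _
    split_ifs
    · exact (tendsto_cylw hν hS W A).mul_const _
    · exact tendsto_const_nhds
  · unfold Zw
    apply tendsto_finsetSum
    intro A _
    exact (tendsto_cylw hν hS W A).mul_const _
  · exact (Zw_pos (ν : Measure (Sym2 ℕ → Bool)) W h).ne'

theorem tendsto_postw_treew {G : SimpleGraph ℕ} {ν : ProbabilityMeasure (Sym2 ℕ → Bool)}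
    (hν : IsFusf G ν) {S : ℕ → Finset ℕ} (hS : Exh G S) {W : Finset (Sym2 ℕ)} {e : Sym2 ℕ}
    (he : e ∈ W) (h : Sym2 ℕ → ℝ) :
    Tendsto (fun n => postw (edgesIn G (S n)) (treew (S n)) e ((W : Set (Sym2 ℕ)).indicator h)) atTop
      (𝓝 (postw W (cylw (ν : Measure (Sym2 ℕ → Bool)) W) e h)) := by
  refine (tendsto_postw hν hS W e h).congr (fun n => ?_)
  exact (postw_treew G (hS.conn n) W he h).symm

/-- infinite volume Lipschitz bound -/
theorem fusf_lip {G : SimpleGraph ℕ} {ν : ProbabilityMeasure (Sym2 ℕ → Bool)}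
    (hν : IsFusf G ν) {S : ℕ → Finset ℕ} (hS : Exh G S) {W : Finset (Sym2 ℕ)}
    (hW : (W : Set (Sym2 ℕ)) ⊆ G.edgeSet) {e : Sym2 ℕ} (he : e ∈ W)
    (h h' : Sym2 ℕ → ℝ) (D : ℝ) (hD : ∀ i, |h i - h' i| ≤ D) :
    |postw W (cylw (ν : Measure (Sym2 ℕ → Bool)) W) e h -
      postw W (cylw (ν : Measure (Sym2 ℕ → Bool)) W) e h'| ≤ D := by
  have hD0 : 0 ≤ D := (abs_nonneg _).trans (hD e)
  have h1 := (tendsto_postw_treew hν hS he h).sub (tendsto_postw_treew hν hS he h')
  refine le_of_tendsto h1.abs ?_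
  obtain ⟨n0, hn0⟩ : ∃ n0, ∀ v ∈ e, v ∈ S n0 := by
    induction e with
    | _ a b =>
      obtain ⟨na, hna⟩ := hS.ex a
      obtain ⟨nb, hnb⟩ := hS.ex b
      refine ⟨max na nb, fun v hv => ?_⟩
      rcases Sym2.mem_iff.1 hv with rfl | rfl
      · exact hS.mono (le_max_left _ _) hna
      · exact hS.mono (le_max_right _ _) hnb
  filter_upwards [eventually_ge_atTop n0] with n hn
  apply postw_treew_lip G (hS.conn n) (Crest.Agent.SpTree.mem_edgesIn.2
    ⟨fun v hv => hS.mono hn (hn0 v hv), hW he⟩)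
  intro i
  by_cases hi : i ∈ (W : Set (Sym2 ℕ))
  · rw [indicator_of_mem hi, indicator_of_mem hi]; exact hD i
  · rw [indicator_of_notMem hi, indicator_of_notMem hi]; simpa using hD0

end Crest.Agent.SRFactor
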