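import Mathlib
import Crest.Agent.SRFactor.Fusf2

set_option autoImplicit false
set_option linter.style.haveILetI false
set_option linter.unusedSectionVars false

open MeasureTheory Set Filter Topology Crest.ProbabilityR.SpanningTrees

namespace Crest.Agent.SRFactor

section Ball

variable {G : SimpleGraph ℕ}

theorem reach_finite (hloc : ∀ v : ℕ, (G.neighborSet v).Finite) (e : Sym2 ℕ) (n : ℕ) :
    (reach G e n).Finite := by
  induction n with
  | zero =>
    induction e with
    | _ a b =>
      have : reach G s(a, b) 0 = {a, b} := by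
        ext v; simp [reach]
      rw [this]
      exact Set.toFinite _
  | succ n ih =>
    have : reach G e (n + 1) ⊆ reach G e n ∪ ⋃ u ∈ reach G e n, G.neighborSet u := by
      rintro v (hv | ⟨u, hu, huv⟩)
      · exact Or.inl hv
      · right
        simp only [mem_iUnion]
        exact ⟨u, hu, huv⟩
    exact (ih.union (ih.biUnion (fun u _ => hloc u))).subset this

theorem coe_bf (hloc : ∀ v : ℕ, (G.neighborSet v).Finite) (e : Sym2 ℕ) (n : ℕ) :
    ((bf G e n : Finset ℕ) : Set ℕ) = reach G e n := by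
  unfold bf
  rw [dif_pos (reach_finite hloc e n)]
  simp

theorem mem_bf (hloc : ∀ v : ℕ, (G.neighborSet v).Finite) (e : Sym2 ℕ) (n v : ℕ) :
    v ∈ bf G e n ↔ v ∈ reach G e n := by
  rw [← coe_bf hloc]; rfl

theorem reach_succ_subset (e : Sym2 ℕ) (n : ℕ) : reach G e n ⊆ reach G e (n + 1) :=
  fun _ hv => Or.inl hv

theorem reach_mono (e : Sym2 ℕ) : Monotone (reach G e) :=
  monotone_nat_of_le_succ (reach_succ_subset e)

theorem exists_reach (hG : G.Connected) (e : Sym2 ℕ) (v : ℕ) : ∃ n, v ∈ reach G e n := by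
  have hw : ∀ {a v : ℕ} (w : G.Walk a v) (n : ℕ), a ∈ reach G e n →
      v ∈ reach G e (n + w.length) := by
    intro a v w
    induction w with
    | nil => intro n h; simpa using h
    | cons hadj w ih =>
      intro n h
      have := ih (n + 1) (Or.inr ⟨_, h, hadj⟩)
      rw [SimpleGraph.Walk.length_cons]
      rwa [add_assoc, add_comm 1] at this
  obtain ⟨a, ha⟩ : ∃ a, a ∈ e := by
    induction e with
    | _ a b => exact ⟨a, Sym2.mem_mk_left a b⟩
  obtain ⟨w⟩ := hG.preconnected a v
  exact ⟨_, hw w 0 ha⟩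

theorem reach_connected {e : Sym2 ℕ} (he : e ∈ G.edgeSet) (n : ℕ) :
    (G.induce (reach G e n)).Connected := by
  induction n with
  | zero =>
    induction e with
    | _ a b =>
      have hab : G.Adj a b := he
      have ha : a ∈ reach G s(a, b) 0 := Sym2.mem_mk_left a b
      have hb : b ∈ reach G s(a, b) 0 := Sym2.mem_mk_right a b
      have hadj : (G.induce (reach G s(a, b) 0)).Adj ⟨a, ha⟩ ⟨b, hb⟩ := hab
      have key : ∀ v : reach G s(a, b) 0,
          (G.induce (reach G s(a, b) 0)).Reachable ⟨a, ha⟩ v := by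
        rintro ⟨v, hv⟩
        have hv' : v ∈ s(a, b) := hv
        rcases Sym2.mem_iff.1 hv' with rfl | rfl
        · exact SimpleGraph.Reachable.refl _
        · exact hadj.reachable
      haveI : Nonempty (reach G s(a, b) 0) := ⟨⟨a, ha⟩⟩
      exact ⟨fun x y => (key x).symm.trans (key y)⟩
  | succ n ih =>
    obtain ⟨⟨a, ha⟩⟩ := ih.nonempty
    have hsub : reach G e n ⊆ reach G e (n + 1) := reach_succ_subset e n
    have hold : ∀ u (hu : u ∈ reach G e n),
        (G.induce (reach G e (n + 1))).Reachable ⟨a, hsub ha⟩ ⟨u, hsub hu⟩ := by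
      intro u hu
      have h1 := ih.preconnected ⟨a, ha⟩ ⟨u, hu⟩
      exact h1.map (SimpleGraph.induceHomOfLE G hsub).toHom
    have key : ∀ v : reach G e (n + 1),
        (G.induce (reach G e (n + 1))).Reachable ⟨a, hsub ha⟩ v := by
      rintro ⟨v, hv⟩
      rcases hv with hv' | ⟨u, hu, huv⟩
      · exact hold v hv'
      · have hadj : (G.induce (reach G e (n + 1))).Adj ⟨u, hsub hu⟩ ⟨v, Or.inr ⟨u, hu, huv⟩⟩ := huv
        exact (hold u hu).trans hadj.reachable
    haveI : Nonempty (reach G e (n + 1)) := ⟨⟨a, hsub ha⟩⟩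
    exact ⟨fun x y => (key x).symm.trans (key y)⟩

theorem exh_bf (hG : G.Connected) (hloc : ∀ v : ℕ, (G.neighborSet v).Finite) {e : Sym2 ℕ}
    (he : e ∈ G.edgeSet) : Exh G (bf G e) where
  mono := by
    intro m n hmn v hv
    rw [mem_bf hloc] at hv ⊢
    exact reach_mono e hmn hv
  ex := by
    intro v
    obtain ⟨n, hn⟩ := exists_reach hG e v
    exact ⟨n, (mem_bf hloc e n v).2 hn⟩
  conn := by
    intro n
    rw [coe_bf hloc]
    exact reach_connected he n

theorem self_mem_window (hloc : ∀ v : ℕ, (G.neighborSet v).Finite) {e : Sym2 ℕ}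
    (he : e ∈ G.edgeSet) (R : ℕ) : e ∈ edgesIn G (bf G e R) := by
  rw [Crest.Agent.SpTree.mem_edgesIn]
  refine ⟨fun v hv => ?_, he⟩
  rw [mem_bf hloc]
  exact reach_mono e (Nat.zero_le R) hv

theorem mG_eq (hG : G.Connected) (hloc : ∀ v : ℕ, (G.neighborSet v).Finite)
    {ν : ProbabilityMeasure (Sym2 ℕ → Bool)} (hν : IsFusf G ν) {e : Sym2 ℕ}
    (he : e ∈ G.edgeSet) (h : Sym2 ℕ → ℝ) :
    mG G h e = limsup (fun R => postw (edgesIn G (bf G e R))
      (cylw (ν : Measure (Sym2 ℕ → Bool)) (edgesIn G (bf G e R))) e h) atTop := by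
  unfold mG
  congr 1
  funext R
  apply Tendsto.limsup_eq
  exact tendsto_postw_treew hν (exh_bf hG hloc he) (self_mem_window hloc he R) h

end Ball

section EdgeSpace

variable (G : SimpleGraph ℕ)

/-- restriction of a configuration to the edges -/
def restr (ω : Sym2 ℕ → Bool) : G.edgeSet → Bool := fun e => ω e

theorem restr_measurable : Measurable (restr G) := by
  rw [measurable_pi_iff]
  intro e
  exact measurable_pi_apply _

/-- the law of the free forest on the edge set -/
noncomputable def nuE (ν : Measure (Sym2 ℕ → Bool)) : Measure (G.edgeSet → Bool) :=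
  ν.map (restr G)

theorem nuE_prob (ν : Measure (Sym2 ℕ → Bool)) [IsProbabilityMeasure ν] :
    IsProbabilityMeasure (nuE G ν) :=
  Measure.isProbabilityMeasure_map (restr_measurable G).aemeasurable

open Classical in
theorem cylw_nuE (ν : Measure (Sym2 ℕ → Bool)) (B S : Finset G.edgeSet) :
    cylw ν (B.image Subtype.val) (S.image Subtype.val) = cylw (nuE G ν) B S := by
  unfold cylw nuE
  rw [Measure.map_apply (restr_measurable G) (cyl_measurable B S)]
  congr 2
  ext ω
  simp only [mem_ofPred_eq, mem_preimage, restr]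
  constructor
  · intro h i hi
    rw [h i.1 (Finset.mem_image_of_mem _ hi)]
    exact Function.Injective.mem_finset_image Subtype.val_injective
  · intro h i hi
    obtain ⟨i', hi', rfl⟩ := Finset.mem_image.1 hi
    rw [h i' hi']
    exact (Function.Injective.mem_finset_image Subtype.val_injective).symm

open Classical in
/-- windows on the edge space -/
noncomputable def BE (v : G.edgeSet) (R : ℕ) : Finset G.edgeSet :=
  (edgesIn G (bf G v.1 R)).subtype (fun e => e ∈ G.edgeSet)

open Classical in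
theorem image_BE (v : G.edgeSet) (R : ℕ) :
    (BE G v R).image Subtype.val = edgesIn G (bf G v.1 R) := by
  unfold BE
  ext e
  simp only [Finset.mem_image, Finset.mem_subtype, Subtype.exists, exists_and_left, exists_prop,
    exists_eq_right_right]
  constructor
  · rintro ⟨h1, _⟩; exact h1
  · intro h; exact ⟨h, (Crest.Agent.SpTree.mem_edgesIn.1 h).2⟩

theorem mlim_nuE {G : SimpleGraph ℕ} (hG : G.Connected)
    (hloc : ∀ v : ℕ, (G.neighborSet v).Finite)
    {ν : ProbabilityMeasure (Sym2 ℕ → Bool)} (hν : IsFusf G ν) (h : Sym2 ℕ → ℝ)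
    (v : G.edgeSet) :
    mlim (nuE G (ν : Measure (Sym2 ℕ → Bool))) (BE G) (fun x => h x.1) v = mG G h v.1 := by
  classical
  rw [mG_eq hG hloc hν v.2]
  unfold mlim
  congr 1
  funext R
  rw [← image_BE]
  exact postw_map Subtype.val_injective
    (fun S _ => cylw_nuE G (ν : Measure (Sym2 ℕ → Bool)) (BE G v R) S) v h

theorem goodM_nuE {G : SimpleGraph ℕ} (hG : G.Connected)
    (hloc : ∀ v : ℕ, (G.neighborSet v).Finite)
    {ν : ProbabilityMeasure (Sym2 ℕ → Bool)} (hν : IsFusf G ν) :
    GoodM (mlim (nuE G (ν : Measure (Sym2 ℕ → Bool))) (BE G)) := by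
  classical
  haveI := nuE_prob G (ν : Measure (Sym2 ℕ → Bool))
  apply goodM_mlim
  intro v R h h' D hD
  have hD0 : 0 ≤ D := (abs_nonneg _).trans (hD v)
  obtain ⟨ext, hext⟩ : ∃ ext : (G.edgeSet → ℝ) → (Sym2 ℕ → ℝ), ∀ f (x : G.edgeSet), ext f x.1 = f x ∧
      ∀ i, i ∉ G.edgeSet → ext f i = 0 := by
    refine ⟨fun f i => if hi : i ∈ G.edgeSet then f ⟨i, hi⟩ else 0, fun f x => ⟨?_, ?_⟩⟩
    · simp
    · intro i hi
      exact dif_neg hi
  have hconv : ∀ f : G.edgeSet → ℝ,
      postw (BE G v R) (cylw (nuE G (ν : Measure (Sym2 ℕ → Bool))) (BE G v R)) v f =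
      postw (edgesIn G (bf G v.1 R))
        (cylw (ν : Measure (Sym2 ℕ → Bool)) (edgesIn G (bf G v.1 R))) v.1 (ext f) := by
    intro f
    have h1 : f = fun x : G.edgeSet => ext f x.1 := by
      funext x; exact ((hext f x).1).symm
    rw [← image_BE]
    conv_lhs => rw [h1]
    exact postw_map Subtype.val_injective
      (fun S _ => cylw_nuE G (ν : Measure (Sym2 ℕ → Bool)) (BE G v R) S) v (ext f)
  rw [hconv, hconv]
  apply fusf_lip hν (exh_bf hG hloc v.2) _ (self_mem_window hloc v.2 R)
  · intro i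
    by_cases hi : i ∈ G.edgeSet
    · rw [(hext h ⟨i, hi⟩).1, (hext h' ⟨i, hi⟩).1]; exact hD _
    · rw [(hext h v).2 i hi, (hext h' v).2 i hi]; simpa using hD0
  · intro e he
    exact (Crest.Agent.SpTree.mem_edgesIn.1 (Finset.mem_coe.1 he)).2

theorem map_outp_nuE {G : SimpleGraph ℕ} (hG : G.Connected)
    (hloc : ∀ v : ℕ, (G.neighborSet v).Finite)
    {ν : ProbabilityMeasure (Sym2 ℕ → Bool)} (hν : IsFusf G ν) :
    (Measure.infinitePi (fun _ : G.edgeSet => (volume : Measure unitInterval))).map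
      (outp (mlim (nuE G (ν : Measure (Sym2 ℕ → Bool))) (BE G))) =
      nuE G (ν : Measure (Sym2 ℕ → Bool)) := by
  classical
  haveI := nuE_prob G (ν : Measure (Sym2 ℕ → Bool))
  have hmemI : ∀ (v i : G.edgeSet) (R : ℕ), i ∈ BE G v R ↔ i.1 ∈ edgesIn G (bf G v.1 R) := by
    intro v i R
    rw [← image_BE]
    exact (Function.Injective.mem_finset_image Subtype.val_injective).symm
  apply map_outp _ (BE G)
  · intro v R
    rw [hmemI]
    exact self_mem_window hloc v.2 R
  · intro v R R' hR i hi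
    rw [hmemI] at hi ⊢
    exact Crest.Agent.SpTree.edgesIn_mono G ((exh_bf hG hloc v.2).mono hR) hi
  · intro v i
    have hE := exh_bf hG hloc v.2
    obtain ⟨R, hR⟩ : ∃ R, ∀ w ∈ i.1, w ∈ bf G v.1 R := by
      obtain ⟨i, hi⟩ := i
      induction i with
      | _ a b =>
        obtain ⟨na, hna⟩ := hE.ex a
        obtain ⟨nb, hnb⟩ := hE.ex b
        refine ⟨max na nb, fun w hw => ?_⟩
        rcases Sym2.mem_iff.1 hw with rfl | rfl
        · exact hE.mono (le_max_left _ _) hna
        · exact hE.mono (le_max_right _ _) hnb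
    exact ⟨R, (hmemI v i R).2 (Crest.Agent.SpTree.mem_edgesIn.2 ⟨hR, i.2⟩)⟩
  · exact goodM_nuE hG hloc hν

end EdgeSpace

end Crest.Agent.SRFactor
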