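import Mathlib
import Crest.Prelude.Def_Labels
import Crest.Prelude.Def_GraphTables
import Crest.Agent.SRFactor.Main
import Crest.Agent.SRFactor.Functional

set_option autoImplicit false
set_option linter.style.haveILetI false

open MeasureTheory Measure unitInterval Set Filter Topology Crest.Agent.SRFactor
open Crest.ProbabilityR.GraphTables Crest.ProbabilityR.Labels

namespace Crest.Agent.EdgeLab

open Classical in
/-- rank of `j` among the neighbours of `i` -/
noncomputable def rk (G : SimpleGraph ℕ) (U : ℕ → I) (i j : ℕ) : ℕ :=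
  ⌊(∑' l, if G.Adj i l ∧ U l < U j then (1 : ENNReal) else 0).toReal⌋₊

noncomputable def lab2 (G : SimpleGraph ℕ) (U : ℕ → I) (W : ℕ × ℕ → I) (i j : ℕ) : I :=
  if U i < U j then W (i, rk G U i j) else if U j < U i then W (j, rk G U j i) else 0

theorem lab2_symm (G : SimpleGraph ℕ) (U : ℕ → I) (W : ℕ × ℕ → I) (i j : ℕ) :
    lab2 G U W i j = lab2 G U W j i := by
  unfold lab2
  rcases lt_trichotomy (U i) (U j) with h | h | h
  · rw [if_pos h, if_neg (not_lt.2 h.le), if_pos h]
  · rw [if_neg (by rw [h]; exact lt_irrefl _), if_neg (by rw [h]; exact lt_irrefl _),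
      if_neg (by rw [h]; exact lt_irrefl _), if_neg (by rw [h]; exact lt_irrefl _)]
  · rw [if_neg (not_lt.2 h.le), if_pos h, if_pos h]

/-- labels of edges -/
noncomputable def labH (G : SimpleGraph ℕ) (U : ℕ → I) (W : ℕ × ℕ → I) : Sym2 ℕ → I :=
  Sym2.lift ⟨lab2 G U W, lab2_symm G U W⟩

noncomputable def U0 (x : ℕ → I) (i : ℕ) : I := uI x (i, 0)

noncomputable def edgeLab (G : SimpleGraph ℕ) (x : ℕ → unitInterval) : Sym2 ℕ → unitInterval :=
  labH G (U0 x) (wI x)

theorem rk_comap (τ : Equiv.Perm ℕ) (G : SimpleGraph ℕ) (U : ℕ → I) (i j : ℕ) :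
    rk (G.comap τ) (fun i => U (τ i)) i j = rk G U (τ i) (τ j) := by
  classical
  unfold rk
  rw [← Equiv.tsum_eq τ (fun l => if G.Adj (τ i) l ∧ U l < U (τ j) then (1 : ENNReal) else 0)]
  rfl

theorem edgeLab_equiv (τ : Equiv.Perm ℕ) (G : SimpleGraph ℕ) (x : ℕ → unitInterval) :
    edgeLab (G.comap ⇑τ) (x ∘ ⇑τ) = edgeLab G x ∘ Sym2.map ⇑τ := by
  funext e
  induction e with
  | _ a b =>
    simp only [edgeLab, labH, Function.comp, Sym2.map_mk, Sym2.lift_mk]
    have h1 : U0 (x ∘ ⇑τ) = fun i => U0 x (τ i) := rfl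
    unfold lab2
    rw [h1, rk_comap, rk_comap]
    rfl

section Meas

variable {P : Type*} [MeasurableSpace P]

theorem rk_measurable {A : P → ℕ → ℕ → Bool} (hA : Measurable A) {U : P → ℕ → I}
    (hU : Measurable U) (i j : ℕ) : Measurable (fun p => rk (graphOfTable (A p)) (U p) i j) := by
  classical
  unfold rk
  apply Nat.measurable_floor.comp
  apply ENNReal.measurable_toReal.comp
  apply Measurable.tsum
  intro l
  apply Measurable.ite _ measurable_const measurable_const
  have hUc : ∀ i, Measurable (fun p => U p i) := fun i => (measurable_pi_apply i).comp hU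
  have h1 : MeasurableSet {p | (graphOfTable (A p)).Adj i l} := hA (adj_measurable i l)
  have h2 : MeasurableSet {p | U p l < U p j} := measurableSet_lt (hUc l) (hUc j)
  exact h1.inter h2

theorem eval_rk_measurable {A : P → ℕ → ℕ → Bool} (hA : Measurable A) {U : P → ℕ → I}
    (hU : Measurable U) {W : P → ℕ × ℕ → I} (hW : Measurable W) (i j : ℕ) :
    Measurable (fun p => W p (i, rk (graphOfTable (A p)) (U p) i j)) := by
  have h1 := measurable_of_fibers (H := P) (Y := I) (fun p => rk (graphOfTable (A p)) (U p) i j)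
    (fun a => (rk_measurable hA hU i j) (measurableSet_singleton a))
    (fun k p => W p (i, k)) (fun k => (measurable_pi_apply (i, k)).comp hW)
  have h2 : Measurable (fun p : P => (p, p)) := measurable_id.prodMk measurable_id
  have h3 := h1.comp h2
  exact h3

theorem lab2_measurable {A : P → ℕ → ℕ → Bool} (hA : Measurable A) {U : P → ℕ → I}
    (hU : Measurable U) {W : P → ℕ × ℕ → I} (hW : Measurable W) (i j : ℕ) :
    Measurable (fun p => lab2 (graphOfTable (A p)) (U p) (W p) i j) := by
  have hUc : ∀ i, Measurable (fun p => U p i) := fun i => (measurable_pi_apply i).comp hU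
  unfold lab2
  have h1 : ∀ i j, MeasurableSet {p | U p i < U p j} := fun i j =>
    measurableSet_lt (hUc i) (hUc j)
  apply Measurable.ite (h1 i j)
  · exact eval_rk_measurable hA hU hW i j
  · apply Measurable.ite (h1 j i)
    · exact eval_rk_measurable hA hU hW j i
    · exact measurable_const

theorem labH_measurable {A : P → ℕ → ℕ → Bool} (hA : Measurable A) {U : P → ℕ → I}
    (hU : Measurable U) {W : P → ℕ × ℕ → I} (hW : Measurable W) :
    Measurable (fun p => labH (graphOfTable (A p)) (U p) (W p)) := by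
  rw [measurable_pi_iff]
  intro e
  induction e with
  | _ a b =>
    simp only [labH, Sym2.lift_mk]
    exact lab2_measurable hA hU hW a b

end Meas

theorem U0_measurable : Measurable U0 := by
  rw [measurable_pi_iff]
  intro i
  exact (measurable_pi_apply (i, 0)).comp uI_measurable

theorem edgeLab_measurable : Measurable (fun p : (ℕ → ℕ → Bool) × (ℕ → unitInterval) =>
    edgeLab (Crest.ProbabilityR.GraphTables.graphOfTable p.1) p.2) :=
  labH_measurable measurable_fst (U0_measurable.comp measurable_snd)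
    (wI_measurable.comp measurable_snd)

section Law

variable (G : SimpleGraph ℕ) (hloc : ∀ v : ℕ, (G.neighborSet v).Finite)

include hloc

theorem rk_eq_card (U : ℕ → I) (i j : ℕ) :
    rk G U i j = ((hloc i).toFinset.filter (fun l => U l < U j)).card := by
  classical
  unfold rk
  have h1 : (∑' l, if G.Adj i l ∧ U l < U j then (1 : ENNReal) else 0) =
      (((hloc i).toFinset.filter (fun l => U l < U j)).card : ENNReal) := by
    rw [tsum_eq_sum (s := (hloc i).toFinset.filter (fun l => U l < U j))]
    · rw [Finset.sum_congr rfl (g := fun _ => (1 : ENNReal))]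
      · simp
      · intro l hl
        rw [Finset.mem_filter, Set.Finite.mem_toFinset] at hl
        exact if_pos hl
    · intro l hl
      rw [Finset.mem_filter, Set.Finite.mem_toFinset] at hl
      exact if_neg hl
  rw [h1]
  simp

theorem rk_lt {U : ℕ → I} {i j j' : ℕ} (hj : G.Adj i j) (hlt : U j < U j') :
    rk G U i j < rk G U i j' := by
  rw [rk_eq_card G hloc, rk_eq_card G hloc]
  apply Finset.card_lt_card
  rw [Finset.ssubset_iff_of_subset]
  · refine ⟨j, ?_, ?_⟩
    · rw [Finset.mem_filter, Set.Finite.mem_toFinset]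
      exact ⟨hj, hlt⟩
    · rw [Finset.mem_filter]
      rintro ⟨_, h⟩
      exact lt_irrefl _ h
  · intro l hl
    rw [Finset.mem_filter] at hl ⊢
    exact ⟨hl.1, hl.2.trans hlt⟩

theorem exists_own {U : ℕ → I} (hU : Function.Injective U) :
    ∃ f : G.edgeSet → ℕ × ℕ, Function.Injective f ∧
      ∀ (W : ℕ × ℕ → I) (e : G.edgeSet), labH G U W e = W (f e) := by
  have h1 : ∀ e : G.edgeSet, ∃ i j : ℕ, e.1 = s(i, j) ∧ G.Adj i j ∧ U i < U j := by
    rintro ⟨e, he⟩
    induction e with
    | _ a b =>
      have hab : G.Adj a b := he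
      have hne : U a ≠ U b := fun h => hab.ne (hU h)
      rcases lt_or_gt_of_ne hne with h | h
      · exact ⟨a, b, rfl, hab, h⟩
      · exact ⟨b, a, Sym2.eq_swap, hab.symm, h⟩
  choose i j he hadj hlt using h1
  refine ⟨fun e => (i e, rk G U (i e) (j e)), ?_, ?_⟩
  · intro e e' h
    simp only [Prod.mk.injEq] at h
    obtain ⟨hi, hr⟩ := h
    apply Subtype.ext
    rw [he e, he e', hi]
    have hj : j e = j e' := by
      by_contra hne
      have hne' : U (j e) ≠ U (j e') := fun h => hne (hU h)
      have ha : G.Adj (i e') (j e) := by rw [← hi]; exact hadj e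
      rw [hi] at hr
      rcases lt_or_gt_of_ne hne' with h | h
      · exact absurd hr (rk_lt G hloc ha h).ne
      · exact absurd hr (rk_lt G hloc (hadj e') h).ne'
    rw [hj]
  · intro W e
    have h2 : labH G U W e.1 = lab2 G U W (i e) (j e) := by
      conv_lhs => rw [he e]
      rfl
    rw [h2]
    unfold lab2
    rw [if_pos (hlt e)]

omit hloc in
theorem ae_inj : ∀ᵐ V ∂(Lab ℕ), Function.Injective (fun i : ℕ => V (i, 0)) := by
  have h := ae_injective (E := ℕ)
  filter_upwards [h] with V hV
  intro i i' hii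
  have h1 : (fun e : ℕ × ℕ => (e.2 : ℝ) + (V e : ℝ)) (i, 0) =
      (fun e : ℕ × ℕ => (e.2 : ℝ) + (V e : ℝ)) (i', 0) := by
    simp only at hii ⊢
    rw [hii]
  exact (Prod.mk.inj (hV h1)).1

omit hloc in
theorem graphOfTable_tableOf (G : SimpleGraph ℕ) : graphOfTable (tableOf G) = G := by
  ext i j
  simp only [graphOfTable, tableOf, SimpleGraph.fromRel_adj, decide_eq_true_eq]
  constructor
  · rintro ⟨_, h | h⟩
    · exact h
    · exact h.symm
  · intro h
    exact ⟨h.ne, Or.inl h⟩

theorem edgeLab_law :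
    (Crest.ProbabilityR.Labels.labelMeasure ℕ).map (fun x (e : G.edgeSet) => edgeLab G x e) =
      Measure.infinitePi (fun _ : G.edgeSet => (volume : Measure unitInterval)) := by
  obtain ⟨g, hg⟩ : ∃ g : (ℕ × ℕ → I) × (ℕ × ℕ → I) → (G.edgeSet → I), g = fun (q : (ℕ × ℕ → I) × (ℕ × ℕ → I)) (e : G.edgeSet) =>
    labH G (fun i => q.1 (i, 0)) q.2 e := ⟨_, rfl⟩
  have hgm : Measurable g := by
    rw [hg, measurable_pi_iff]
    intro e
    have hU : Measurable (fun q : (ℕ × ℕ → I) × (ℕ × ℕ → I) => fun i => q.1 (i, 0)) := by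
      rw [measurable_pi_iff]
      intro i
      exact (measurable_pi_apply (i, 0)).comp measurable_fst
    have h1 := labH_measurable (A := fun _ : (ℕ × ℕ → I) × (ℕ × ℕ → I) => tableOf G)
      measurable_const hU measurable_snd
    rw [graphOfTable_tableOf] at h1
    exact (measurable_pi_apply (e : Sym2 ℕ)).comp h1
  have h2 : (fun x (e : G.edgeSet) => edgeLab G x e) = g ∘ (fun x => (uI x, wI x)) := by
    funext x e
    rw [hg]
    rfl
  have huw : Measurable (fun x : ℕ → I => (uI x, wI x)) := uI_measurable.prodMk wI_measurable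
  unfold labelMeasure
  rw [h2, ← map_map hgm huw, map_uw]
  ext S hS
  rw [map_apply hgm hS, prod_apply (hgm hS)]
  have h3 : ∀ᵐ U ∂(Lab ℕ), (Lab ℕ) (Prod.mk U ⁻¹' (g ⁻¹' S)) =
      Measure.infinitePi (fun _ : G.edgeSet => (volume : Measure unitInterval)) S := by
    filter_upwards [ae_inj] with U hU
    obtain ⟨f, hf, hfW⟩ := exists_own G hloc hU
    have h4 := map_infinitePi_infinitePi_of_inj (P := fun _ : ℕ × ℕ => (volume : Measure I)) hf
    rw [← h4]
    have hfm : Measurable (fun (ω : ℕ × ℕ → I) (e : G.edgeSet) => ω (f e)) := by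
      rw [measurable_pi_iff]
      intro e
      exact measurable_pi_apply _
    rw [map_apply hfm hS]
    congr 1
    ext W
    simp only [mem_preimage]
    have h5 : g (U, W) = fun e => W (f e) := by
      rw [hg]
      funext e
      exact hfW W e
    rw [h5]
  rw [lintegral_congr_ae h3]
  simp

end Law

end Crest.Agent.EdgeLab
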